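import Vale.Agent.P092.R3.H381.SlnT
import Vale.Agent.P092.R2.H381.Bg4

/-!
Property (T) of `Sp_{2n}(ℤ)`, `n ≥ 3`, and the infinite conjugacy classes of its finite index
subgroups without `-1`.
-/

set_option linter.all false

open Matrix

namespace Vale.Agent.P092.H367

open Vale.Agent.P092.H885

/-- Kazhdan pairs pass to quotients. -/
theorem kazhdan_quot {G G' : Type} [Group G] [Group G'] (f : G →* G')
    (hf : Function.Surjective f) (h : ∃ (Q : Finset G) (ε : ℝ), IsKazhdanPair G Q ε) :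
    ∃ (Q : Finset G') (ε : ℝ), IsKazhdanPair G' Q ε := by
  classical
  obtain ⟨Q, ε, hε, h⟩ := h
  refine ⟨Q.image f, ε, hε, fun H _ _ _ π hπ v => ?_⟩
  obtain ⟨s, hs, h1⟩ := h H
    { act := fun g => π.act (f g)
      act_add := fun g => π.act_add (f g)
      act_smul := fun g => π.act_smul (f g)
      norm_act := fun g => π.norm_act (f g)
      act_one := fun v => by rw [map_one]; exact π.act_one v
      act_mul := fun g h v => by rw [map_mul]; exact π.act_mul (f g) (f h) v }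
    (fun v hv => hπ v fun g => by
      obtain ⟨g, rfl⟩ := hf g
      exact hv g) v
  exact ⟨f s, Finset.mem_image_of_mem f hs, h1⟩

/-- Property (T) of `Sp_{2n}(ℤ)`, `n ≥ 3`. -/
theorem kazhdan_sp {n : ℕ} (hn : 3 ≤ n) :
    ∃ (Q : Finset (symplecticGroup (Fin n) ℤ)) (ε : ℝ),
      IsKazhdanPair (symplecticGroup (Fin n) ℤ) Q ε :=
  kazhdan_quot (SemidirectProduct.rightHom (φ := R2.H559.act n)) SemidirectProduct.rightHom_surjective
    (SlnT.kazhdan_of_propT (R2.H381.propT_Gam hn))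

namespace SpT

variable {n : ℕ}

/-- The matrix of the transvection `x ↦ x + k ⟨v, J x⟩ v`. -/
def tm (v : Fin n ⊕ Fin n → ℤ) (k : ℤ) : Matrix (Fin n ⊕ Fin n) (Fin n ⊕ Fin n) ℤ :=
  1 + k • vecMulVec v (v ᵥ* J (Fin n) ℤ)

theorem quad (v : Fin n ⊕ Fin n → ℤ) : (v ᵥ* J (Fin n) ℤ) ⬝ᵥ v = 0 := by
  have h1 : (v ᵥ* J (Fin n) ℤ) ⬝ᵥ v = v ⬝ᵥ (J (Fin n) ℤ *ᵥ v) := (dotProduct_mulVec _ _ _).symm
  have h2 : v ⬝ᵥ (J (Fin n) ℤ *ᵥ v) = (v ᵥ* (J (Fin n) ℤ)ᵀ) ⬝ᵥ v := by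
    rw [vecMul_transpose, dotProduct_comm]
  rw [J_transpose, vecMul_neg, neg_dotProduct] at h2
  have h3 : (v ᵥ* J (Fin n) ℤ) ⬝ᵥ v = -((v ᵥ* J (Fin n) ℤ) ⬝ᵥ v) := by
    rw [← h2, h1]
  omega

theorem tm_mul (v : Fin n ⊕ Fin n → ℤ) (k l : ℤ) : tm v k * tm v l = tm v (k + l) := by
  have h : vecMulVec v (v ᵥ* J (Fin n) ℤ) * vecMulVec v (v ᵥ* J (Fin n) ℤ) = 0 := by
    rw [vecMulVec_mul_vecMulVec, quad, zero_smul, vecMulVec_zero]
  rw [tm, tm, tm, Matrix.mul_add, Matrix.mul_one, Matrix.add_mul, Matrix.one_mul,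
    Matrix.mul_smul, Matrix.smul_mul, h, smul_zero, smul_zero, add_smul]
  abel

theorem aJ (v : Fin n ⊕ Fin n → ℤ) : (v ᵥ* J (Fin n) ℤ) ᵥ* J (Fin n) ℤ = -v := by
  rw [vecMul_vecMul, J_squared, vecMul_neg, vecMul_one]

theorem Ja (v : Fin n ⊕ Fin n → ℤ) : J (Fin n) ℤ *ᵥ (v ᵥ* J (Fin n) ℤ) = v := by
  have h : v ᵥ* J (Fin n) ℤ = -(J (Fin n) ℤ *ᵥ v) := by
    have h1 : v ᵥ* ((-J (Fin n) ℤ)ᵀ) = (-J (Fin n) ℤ) *ᵥ v := vecMul_transpose _ _
    rw [transpose_neg, J_transpose, neg_neg, neg_mulVec] at h1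
    exact h1
  rw [h, mulVec_neg, mulVec_mulVec, J_squared, neg_mulVec, one_mulVec, neg_neg]

theorem tm_mem (v : Fin n ⊕ Fin n → ℤ) (k : ℤ) : tm v k ∈ symplecticGroup (Fin n) ℤ := by
  rw [SymplecticGroup.mem_iff]
  have e1 : tm v k * J (Fin n) ℤ = J (Fin n) ℤ - k • vecMulVec v v := by
    rw [tm, Matrix.add_mul, Matrix.one_mul, Matrix.smul_mul, vecMulVec_mul, aJ, vecMulVec_neg,
      smul_neg, sub_eq_add_neg]
  have e2 : (tm v k)ᵀ = 1 + k • vecMulVec (v ᵥ* J (Fin n) ℤ) v := by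
    rw [tm, transpose_add, transpose_one, transpose_smul, transpose_vecMulVec]
  have e3 : v ⬝ᵥ (v ᵥ* J (Fin n) ℤ) = 0 := by rw [dotProduct_comm, quad]
  rw [e1, e2, Matrix.mul_add, Matrix.mul_one, Matrix.sub_mul, Matrix.mul_smul, Matrix.mul_smul,
    Matrix.smul_mul, mul_vecMulVec, Ja, vecMulVec_mul_vecMulVec, e3, zero_smul, vecMulVec_zero,
    smul_zero, smul_zero, sub_zero, sub_add_cancel]

/-- The transvection as an element of the symplectic group. -/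
def ts (v : Fin n ⊕ Fin n → ℤ) (k : ℤ) : symplecticGroup (Fin n) ℤ := ⟨tm v k, tm_mem v k⟩

theorem ts_pow (v : Fin n ⊕ Fin n → ℤ) (k : ℕ) : ts v 1 ^ k = ts v k := by
  induction k with
  | zero =>
    apply Subtype.ext
    change 1 = tm v ((0 : ℕ) : ℤ)
    rw [tm, Nat.cast_zero, zero_smul, add_zero]
  | succ k ih =>
    rw [pow_succ, ih]
    apply Subtype.ext
    change tm v k * tm v 1 = tm v ((k + 1 : ℕ) : ℤ)
    rw [tm_mul, Nat.cast_add, Nat.cast_one]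

/-- An element of a finite index subgroup with finite conjugacy class commutes with a power of
every transvection. -/
theorem comm_of_finite (Γ : Subgroup (symplecticGroup (Fin n) ℤ)) [Γ.FiniteIndex] {g : Γ}
    (hfin : Set.Finite {y : Γ | ∃ h, y = h * g * h⁻¹}) (v : Fin n ⊕ Fin n → ℤ) :
    ∃ k : ℤ, k ≠ 0 ∧ (g : Matrix (Fin n ⊕ Fin n) (Fin n ⊕ Fin n) ℤ) * tm v k =
      tm v k * (g : Matrix (Fin n ⊕ Fin n) (Fin n ⊕ Fin n) ℤ) := by
  obtain ⟨d, hd0, -, hd⟩ := Subgroup.exists_pow_mem_of_index_ne_zero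
    (Subgroup.FiniteIndex.index_ne_zero (H := Γ)) (ts v 1)
  set h : ℕ → Γ := fun k => ⟨ts v 1 ^ d, hd⟩ ^ k with hh
  have hmaps : ∀ k : ℕ, h k * g * (h k)⁻¹ ∈ {y : Γ | ∃ h, y = h * g * h⁻¹} := fun k => ⟨_, rfl⟩
  obtain ⟨k, -, l, -, hkl, heq⟩ := Set.infinite_univ.exists_ne_map_eq_of_mapsTo
    (f := fun k : ℕ => h k * g * (h k)⁻¹) (fun k _ => hmaps k) hfin
  wlog hlt : k < l generalizing k l
  · exact this l k hkl.symm heq.symm (lt_of_le_of_ne (not_lt.mp hlt) hkl.symm)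
  obtain ⟨m, hm0, rfl⟩ : ∃ m, 0 < m ∧ l = k + m := ⟨l - k, by omega, by omega⟩
  have h1 : g * h m = h m * g := by
    have h2 : h (k + m) = h k * h m := pow_add _ _ _
    change h k * g * (h k)⁻¹ = h (k + m) * g * (h (k + m))⁻¹ at heq
    rw [h2] at heq
    have h3 : g = h m * g * (h m)⁻¹ := by
      have h4 : (h k)⁻¹ * (h k * g * (h k)⁻¹) * h k =
          (h k)⁻¹ * (h k * h m * g * (h k * h m)⁻¹) * h k := by rw [heq]
      have h5 : (h k)⁻¹ * (h k * g * (h k)⁻¹) * h k = g := by group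
      have h6 : (h k)⁻¹ * (h k * h m * g * (h k * h m)⁻¹) * h k = h m * g * (h m)⁻¹ := by group
      rw [h5, h6] at h4
      exact h4
    calc g * h m = (h m * g * (h m)⁻¹) * h m := by rw [← h3]
      _ = h m * g := by group
  refine ⟨((d * m : ℕ) : ℤ), by positivity, ?_⟩
  have h5 : (g : Matrix (Fin n ⊕ Fin n) (Fin n ⊕ Fin n) ℤ) *
      (h m : Matrix (Fin n ⊕ Fin n) (Fin n ⊕ Fin n) ℤ) =
      (h m : Matrix (Fin n ⊕ Fin n) (Fin n ⊕ Fin n) ℤ) *
      (g : Matrix (Fin n ⊕ Fin n) (Fin n ⊕ Fin n) ℤ) :=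
    congrArg (fun y : Γ => (y : Matrix (Fin n ⊕ Fin n) (Fin n ⊕ Fin n) ℤ)) h1
  have h6 : (h m : symplecticGroup (Fin n) ℤ) = ts v ((d * m : ℕ) : ℤ) := by
    rw [← ts_pow, pow_mul]
    rfl
  have h7 : (h m : Matrix (Fin n ⊕ Fin n) (Fin n ⊕ Fin n) ℤ) = tm v ((d * m : ℕ) : ℤ) :=
    congrArg (fun y : symplecticGroup (Fin n) ℤ => (y : Matrix (Fin n ⊕ Fin n) (Fin n ⊕ Fin n) ℤ))
      h6
  rw [h7] at h5
  exact h5

/-- A matrix commuting with a nontrivial power of the transvection of `v` maps `v` to a multiple. -/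
theorem par_of_comm {A : Matrix (Fin n ⊕ Fin n) (Fin n ⊕ Fin n) ℤ} {v : Fin n ⊕ Fin n → ℤ}
    (hv : v ≠ 0) {k : ℤ} (hk : k ≠ 0) (h : A * tm v k = tm v k * A) (i i' : Fin n ⊕ Fin n) :
    v i' * (A *ᵥ v) i = v i * (A *ᵥ v) i' := by
  have h1 : k • vecMulVec (A *ᵥ v) (v ᵥ* J (Fin n) ℤ) =
      k • vecMulVec v ((v ᵥ* J (Fin n) ℤ) ᵥ* A) := by
    rw [tm, Matrix.mul_add, Matrix.add_mul, Matrix.mul_one, Matrix.one_mul, Matrix.mul_smul,
      Matrix.smul_mul, mul_vecMulVec, vecMulVec_mul, add_right_inj] at h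
    exact h
  have h2 : vecMulVec (A *ᵥ v) (v ᵥ* J (Fin n) ℤ) = vecMulVec v ((v ᵥ* J (Fin n) ℤ) ᵥ* A) :=
    smul_right_injective _ hk h1
  have ha : v ᵥ* J (Fin n) ℤ ≠ 0 := by
    intro h0
    have := aJ v
    rw [h0, zero_vecMul] at this
    exact hv (neg_eq_zero.mp this.symm)
  obtain ⟨j, hj⟩ := Function.ne_iff.mp ha
  have e1 := congrFun (congrFun h2 i) j
  have e2 := congrFun (congrFun h2 i') j
  rw [vecMulVec_apply, vecMulVec_apply] at e1 e2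
  have hj' : (v ᵥ* J (Fin n) ℤ) j ≠ 0 := hj
  refine mul_right_cancel₀ hj' ?_
  calc v i' * (A *ᵥ v) i * (v ᵥ* J (Fin n) ℤ) j = v i' * ((A *ᵥ v) i * (v ᵥ* J (Fin n) ℤ) j) := by ring
    _ = v i * (v i' * ((v ᵥ* J (Fin n) ℤ) ᵥ* A) j) := by rw [e1]; ring
    _ = v i * (A *ᵥ v) i' * (v ᵥ* J (Fin n) ℤ) j := by rw [← e2]; ring

end SpT

/-- The finite index subgroups of `Sp_{2n}(ℤ)` without `-1` are ICC. -/
theorem icc_sp {n : ℕ} (Γ : Subgroup (symplecticGroup (Fin n) ℤ)) [Γ.FiniteIndex]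
    (hΓ : ∀ g ∈ Γ, (g : Matrix (Fin n ⊕ Fin n) (Fin n ⊕ Fin n) ℤ) ≠ -1) (g : Γ) (hg : g ≠ 1) :
    Set.Infinite {y : Γ | ∃ h, y = h * g * h⁻¹} := by
  intro hfin
  set A : Matrix (Fin n ⊕ Fin n) (Fin n ⊕ Fin n) ℤ :=
    ((g : symplecticGroup (Fin n) ℤ) : Matrix (Fin n ⊕ Fin n) (Fin n ⊕ Fin n) ℤ) with hA
  have hpar : ∀ v : Fin n ⊕ Fin n → ℤ, v ≠ 0 → ∀ i i', v i' * (A *ᵥ v) i = v i * (A *ᵥ v) i' := by
    intro v hv i i'
    obtain ⟨k, hk, h⟩ := SpT.comm_of_finite Γ hfin v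
    exact SpT.par_of_comm hv hk h i i'
  have hoff : ∀ i m, i ≠ m → A i m = 0 := by
    intro i m him
    have h0 : (Pi.single m 1 : Fin n ⊕ Fin n → ℤ) ≠ 0 := by
      intro h
      have := congrFun h m
      simp at this
    have h1 := hpar _ h0 i m
    rw [mulVec_single_one, Pi.single_eq_same, Pi.single_eq_of_ne him, zero_mul, one_mul] at h1
    exact h1
  have hdiag : ∀ m l, A m m = A l l := by
    intro m l
    by_cases hml : m = l
    · rw [hml]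
    have h0 : (Pi.single m 1 + Pi.single l 1 : Fin n ⊕ Fin n → ℤ) ≠ 0 := by
      intro h
      have := congrFun h m
      simp [Pi.single_eq_of_ne hml] at this
    have h1 := hpar _ h0 m l
    rw [mulVec_add, mulVec_single_one, mulVec_single_one] at h1
    simp only [Pi.add_apply, Pi.single_eq_same, Pi.single_eq_of_ne hml,
      Pi.single_eq_of_ne (Ne.symm hml), zero_add, add_zero, one_mul, col_apply] at h1
    rw [hoff m l hml, hoff l m (Ne.symm hml)] at h1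
    simpa using h1
  rcases n with _ | n
  · apply hg
    apply Subtype.ext
    apply Subtype.ext
    ext i
    exact (IsEmpty.false i).elim
  have hA0 : A = A (Sum.inl 0) (Sum.inl 0) • (1 : Matrix (Fin (n + 1) ⊕ Fin (n + 1))
      (Fin (n + 1) ⊕ Fin (n + 1)) ℤ) := by
    ext i j
    rw [Matrix.smul_apply, Matrix.one_apply, smul_eq_mul]
    split_ifs with hij
    · rw [← hij, mul_one]; exact hdiag _ _
    · rw [mul_zero]; exact hoff _ _ hij
  have hsp : A * J (Fin (n + 1)) ℤ * Aᵀ = J (Fin (n + 1)) ℤ :=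
    SymplecticGroup.mem_iff.mp (g : symplecticGroup (Fin (n + 1)) ℤ).2
  set c : ℤ := A (Sum.inl 0) (Sum.inl 0) with hc
  have hcc : c * c = 1 := by
    rw [hA0, transpose_smul, transpose_one, Matrix.smul_mul, Matrix.one_mul, Matrix.mul_smul,
      Matrix.mul_one, smul_smul] at hsp
    have h1 := congrFun (congrFun hsp (Sum.inl 0)) (Sum.inr 0)
    rw [Matrix.smul_apply, smul_eq_mul] at h1
    have h2 : J (Fin (n + 1)) ℤ (Sum.inl 0) (Sum.inr 0) = -1 := by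
      rw [Matrix.J, Matrix.fromBlocks_apply₁₂, Matrix.neg_apply, Matrix.one_apply_eq]
    rw [h2] at h1
    linarith
  rcases mul_self_eq_one_iff.mp hcc with h1 | h1
  · apply hg
    apply Subtype.ext
    apply Subtype.ext
    change A = 1
    rw [hA0, h1, one_smul]
  · apply hΓ _ g.2
    change A = -1
    rw [hA0, h1, neg_smul, one_smul]

end Vale.Agent.P092.H367
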