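import Vale.Agent.P092.R3.H367.Kaz

/-!
A nonzero cubic intertwiner bounds the fourth power sums of an amplified frame from below.
-/

set_option linter.all false

open scoped InnerProductSpace
open Filter Topology ContinuousLinearMap

namespace Vale.Agent.P092.H367

open Vale.Agent.P092.H160

section elem

variable {I Λ : Type} [Group Λ]

/-- Left translate of an index. -/
def lt1 (a : I × Λ) (s : Λ) : I × Λ := (a.1, a.2 * s)

/-- Left translate of a triple of indices. -/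
def lt3 (a : (I × Λ) × (I × Λ) × (I × Λ)) (s : Λ) : (I × Λ) × (I × Λ) × (I × Λ) :=
  (lt1 a.1 s, lt1 a.2.1 s, lt1 a.2.2 s)

theorem lt3_inj (a : (I × Λ) × (I × Λ) × (I × Λ)) : Function.Injective (lt3 a) := by
  intro s t h
  exact mul_left_cancel (congrArg (fun x : (I × Λ) × (I × Λ) × (I × Λ) => x.1.2) h)

open Classical in
theorem bes_EE (k : I × ((I × Λ) × (I × Λ) × (I × Λ))) : Bes 1 (fun x : I × Λ =>
    if x.1 = k.1 then (dl (lt3 k.2 x.2) : Ell2 ((I × Λ) × (I × Λ) × (I × Λ))) else 0) := by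
  intro s v
  rw [one_pow, one_mul]
  have h1 : ∀ x ∈ s, ‖⟪(if x.1 = k.1 then (dl (lt3 k.2 x.2) :
      Ell2 ((I × Λ) × (I × Λ) × (I × Λ))) else 0), v⟫_ℂ‖ ^ 2 =
      if x.1 = k.1 then ‖v (lt3 k.2 x.2)‖ ^ 2 else 0 := by
    intro x _
    split_ifs
    · rw [inner_dl]
    · rw [inner_zero_left, norm_zero, zero_pow two_ne_zero]
  rw [Finset.sum_congr rfl h1, ← Finset.sum_filter]
  have h2 : Set.InjOn (fun x : I × Λ => lt3 k.2 x.2) (s.filter fun x => x.1 = k.1 : Finset _) := by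
    rintro ⟨i, a⟩ hi ⟨j, b⟩ hj hab
    rw [Finset.mem_coe, Finset.mem_filter] at hi hj
    have h3 := lt3_inj k.2 hab
    have h4 : i = j := hi.2.trans hj.2.symm
    change a = b at h3
    rw [h3, h4]
  rw [← Finset.sum_image (f := fun y => ‖v y‖ ^ 2) h2]
  exact sum_sq_le v _

/-- The elementary equivariant operators. -/
noncomputable def EE (k : I × ((I × Λ) × (I × Λ) × (I × Λ))) :
    Ell2 (I × Λ) →L[ℂ] Ell2 ((I × Λ) × (I × Λ) × (I × Λ)) := opOf (bes_EE k)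

theorem EE_dl (k : I × ((I × Λ) × (I × Λ) × (I × Λ))) (x : I × Λ) [Decidable (x.1 = k.1)] :
    EE k (dl x) = if x.1 = k.1 then dl (lt3 k.2 x.2) else 0 := by
  rw [EE, opOf_dl]
  congr

theorem EE_eqv (k : I × ((I × Λ) × (I × Λ) × (I × Λ))) : Eqv (R3H I Λ) (EE k) := by
  classical
  intro s v
  have h : EE k ∘L Rr I s = R3H I Λ s ∘L EE k := by
    apply op_ext
    rintro ⟨i, x⟩
    rw [comp_apply, comp_apply, Rr_dl, EE_dl, EE_dl]
    split_ifs with h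
    · rw [lt3, lt3, R3_dl]
      simp only [lt1, mul_assoc]
    · rw [map_zero]
  exact congrArg (fun L : Ell2 (I × Λ) →L[ℂ] _ => L v) h

theorem EE_adj_apply (k : I × ((I × Λ) × (I × Λ) × (I × Λ)))
    (w : Ell2 ((I × Λ) × (I × Λ) × (I × Λ))) (x : I × Λ) [Decidable (x.1 = k.1)] :
    adjoint (EE k) w x = if x.1 = k.1 then w (lt3 k.2 x.2) else 0 := by
  rw [← inner_dl, adjoint_inner_right, EE_dl]
  split_ifs
  · rw [inner_dl]
  · rw [inner_zero_left]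

open Classical in
/-- The fourth powers along one left coset. -/
theorem mm_sum (y : Ell2 (I × Λ)) (j : I) (a : I × Λ) :
    (Summable fun x : I × Λ => if x.1 = j then ‖y (lt1 a x.2)‖ ^ 4 else 0) ∧
    ∑' x : I × Λ, (if x.1 = j then ‖y (lt1 a x.2)‖ ^ 4 else 0) ≤ ∑' x, ‖y x‖ ^ 4 := by
  have key : ∀ s : Finset (I × Λ), ∑ x ∈ s, (if x.1 = j then ‖y (lt1 a x.2)‖ ^ 4 else 0) ≤
      ∑' x, ‖y x‖ ^ 4 := by
    intro s
    rw [← Finset.sum_filter]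
    have h2 : Set.InjOn (fun x : I × Λ => lt1 a x.2) (s.filter fun x => x.1 = j : Finset _) := by
      rintro ⟨i, b⟩ hi ⟨i', b'⟩ hj hab
      rw [Finset.mem_coe, Finset.mem_filter] at hi hj
      have h3 : b = b' := mul_left_cancel (congrArg (fun x : I × Λ => x.2) hab)
      have h4 : i = i' := hi.2.trans hj.2.symm
      rw [h3, h4]
    rw [← Finset.sum_image (f := fun z => ‖y z‖ ^ 4) h2]
    exact (summable_four y).sum_le_tsum _ (fun _ _ => by positivity)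
  have hs : Summable fun x : I × Λ => if x.1 = j then ‖y (lt1 a x.2)‖ ^ 4 else 0 :=
    summable_of_sum_le (fun x => by split_ifs <;> positivity) key
  exact ⟨hs, hs.tsum_le_of_sum_le key⟩

theorem amgm4 (a b c d : ℝ) (ha : 0 ≤ a) (hb : 0 ≤ b) (hc : 0 ≤ c) (hd : 0 ≤ d) :
    a * (b * (c * d)) ≤ (a ^ 4 + b ^ 4 + c ^ 4 + d ^ 4) / 4 := by
  nlinarith [sq_nonneg (a * b - c * d), sq_nonneg (a ^ 2 - b ^ 2), sq_nonneg (c ^ 2 - d ^ 2)]

/-- The four-fold estimate. -/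
theorem four_le (k : I × ((I × Λ) × (I × Λ) × (I × Λ))) (x u v w : Ell2 (I × Λ)) {M : ℝ}
    (hx : ∑' z, ‖x z‖ ^ 4 ≤ M) (hu : ∑' z, ‖u z‖ ^ 4 ≤ M) (hv : ∑' z, ‖v z‖ ^ 4 ≤ M)
    (hw : ∑' z, ‖w z‖ ^ 4 ≤ M) :
    ‖⟪tv u (tv (cj v) w), EE k x⟫_ℂ‖ ≤ M := by
  classical
  rw [← adjoint_inner_left, inner_eq]
  obtain ⟨s1, t1⟩ := mm_sum u k.1 k.2.1
  obtain ⟨s2, t2⟩ := mm_sum v k.1 k.2.2.1
  obtain ⟨s3, t3⟩ := mm_sum w k.1 k.2.2.2
  have s0 := summable_four x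
  have hsum := (((s0.add s1).add s2).add s3).div_const 4
  have hb : ∀ z : I × Λ, ‖x z * (starRingEnd ℂ) (adjoint (EE k) (tv u (tv (cj v) w)) z)‖ ≤
      (‖x z‖ ^ 4 + (if z.1 = k.1 then ‖u (lt1 k.2.1 z.2)‖ ^ 4 else 0) +
        (if z.1 = k.1 then ‖v (lt1 k.2.2.1 z.2)‖ ^ 4 else 0) +
        (if z.1 = k.1 then ‖w (lt1 k.2.2.2 z.2)‖ ^ 4 else 0)) / 4 := by
    intro z
    rw [EE_adj_apply]
    split_ifs with h
    · rw [norm_mul, RCLike.norm_conj, tv_apply, tv_apply, norm_mul, norm_mul, cj_apply,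
        RCLike.norm_conj]
      exact amgm4 _ _ _ _ (norm_nonneg _) (norm_nonneg _) (norm_nonneg _) (norm_nonneg _)
    · rw [map_zero, mul_zero, norm_zero]
      positivity
  have h1 := tsum_of_norm_bounded hsum.hasSum hb
  refine h1.trans ?_
  rw [tsum_div_const, ((s0.add s1).add s2).tsum_add s3, (s0.add s1).tsum_add s2, s0.tsum_add s1]
  linarith

end elem

section low

variable {I Λ Γ : Type} [Fintype I] [Group Λ] [Group Γ]
  {p : Ell2 (I × Λ) →L[ℂ] Ell2 (I × Λ)} {α : Γ → (Ell2 (I × Λ) →L[ℂ] Ell2 (I × Λ))}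
  {T : Ell2 (I × Λ) →L[ℂ] Ell2 ((I × Λ) × (I × Λ) × (I × Λ))}

theorem q4_dl (hα : AFrame p α) (g : Γ) (x : I × Λ) :
    ∑' z, ‖α g (dl x) z‖ ^ 4 ≤ f4 (α g) := by
  obtain ⟨i, h⟩ := x
  have h1 : ∑' z, ‖α g (dl (i, h)) z‖ ^ 4 = ∑' z, ‖α g (dl (i, 1)) z‖ ^ 4 := by
    rw [(hα.eqv g).apply_dl, RrH_apply,
      ← (Equiv.prodCongr (Equiv.refl I) (Equiv.mulRight h⁻¹)).tsum_eq
      (fun z => ‖α g (dl (i, 1)) z‖ ^ 4)]
    refine tsum_congr fun z => ?_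
    obtain ⟨z1, z2⟩ := z
    rw [Rr_apply]
    rfl
  rw [h1]
  exact Finset.single_le_sum (f := fun i : I => ∑' z, ‖α g (dl (i, 1)) z‖ ^ 4)
    (fun _ _ => tsum_nonneg fun _ => by positivity) (Finset.mem_univ i)

theorem f4_nonneg (A : Ell2 (I × Λ) →L[ℂ] Ell2 (I × Λ)) : 0 ≤ f4 A :=
  Finset.sum_nonneg fun _ _ => tsum_nonneg fun _ => by positivity

theorem vec_EE (k : I × ((I × Λ) × (I × Λ) × (I × Λ))) : vec (EE k) = dl k := by
  classical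
  rw [vec_apply, Finset.sum_eq_single k.1]
  · rw [EE_dl, if_pos rfl]
    have h : lt3 k.2 1 = k.2 := by
      simp only [lt3, lt1, mul_one]
    rw [h, ← dl_prod]
  · intro j _ hj
    rw [EE_dl, if_neg hj, tv_zero_right]
  · intro h; exact absurd (Finset.mem_univ _) h

/-- `S ↦ vec (A S)` -/
noncomputable def vA {Y : Type} (A : Ell2 Y →L[ℂ] Ell2 Y) :
    (Ell2 (I × Λ) →L[ℂ] Ell2 Y) →ₗ[ℂ] Ell2 (I × Y) where
  toFun S := vec (A ∘L S)
  map_add' S T := by rw [comp_add, map_add]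
  map_smul' c S := by rw [comp_smul, map_smul]; rfl

/-- `S ↦ vec (S a)` -/
noncomputable def vB {Y : Type} (a : Ell2 (I × Λ) →L[ℂ] Ell2 (I × Λ)) :
    (Ell2 (I × Λ) →L[ℂ] Ell2 Y) →ₗ[ℂ] Ell2 (I × Y) where
  toFun S := vec (S ∘L a)
  map_add' S T := by rw [add_comp, map_add]
  map_smul' c S := by rw [smul_comp, map_smul]; rfl

theorem norm_vA_le (hα : AFrame p α) (y : Γ × Γ × Γ)
    (S : Ell2 (I × Λ) →L[ℂ] Ell2 ((I × Λ) × (I × Λ) × (I × Λ))) :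
    ‖vA (A3 α y) S‖ ≤ ‖vec S‖ := by
  have h : ‖vA (A3 α y) S‖ ^ 2 ≤ ‖vec S‖ ^ 2 := by
    change ‖vec (A3 α y ∘L S)‖ ^ 2 ≤ _
    rw [norm_vec, norm_vec]
    refine Finset.sum_le_sum fun i _ => ?_
    have h2 := hα.A3_norm_le y (S (dl (i, 1)))
    rw [comp_apply]
    gcongr
  exact (sq_le_sq₀ (norm_nonneg _) (norm_nonneg _)).mp h

theorem hsn_comp_alpha (hα : AFrame p α) (g : Γ)
    {S : Ell2 (I × Λ) →L[ℂ] Ell2 ((I × Λ) × (I × Λ) × (I × Λ))} (hS : Eqv (R3H I Λ) S) :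
    hsn (S ∘L α g) ≤ hsn S := by
  have h2 : hsn (S ∘L α g) = hsn (S ∘L p) := by
    have h3 : hs (S ∘L α g) (S ∘L α g) = hs S (S ∘L p) := by
      rw [hs_comp adjoint_R3 hS (hS.comp (hα.eqv _)) (hα.eqv _), hα.adj]
      congr 1
      ext1 v
      change S (α g (α g⁻¹ v)) = S (p v)
      rw [← mul_ap (α g), hα.mul_inv_self]
    have h4 : hs (S ∘L p) (S ∘L p) = hs S (S ∘L p) := by
      rw [hs_comp adjoint_R3 hS (hS.comp hα.eqv_p) hα.eqv_p, hα.p_adj]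
      congr 1
      ext1 v
      change S (p (p v)) = S (p v)
      rw [← mul_ap p p, hα.p_idem]
    rw [← h4, hs_self, hs_self] at h3
    exact_mod_cast h3
  rw [h2]
  exact hsn_mul_p hα adjoint_R3 hS

theorem norm_vB_le (hα : AFrame p α) (g : Γ)
    {S : Ell2 (I × Λ) →L[ℂ] Ell2 ((I × Λ) × (I × Λ) × (I × Λ))} (hS : Eqv (R3H I Λ) S) :
    ‖vB (α g) S‖ ≤ ‖vec S‖ := by
  have h : ‖vB (α g) S‖ ^ 2 ≤ ‖vec S‖ ^ 2 := by
    change ‖vec (S ∘L α g)‖ ^ 2 ≤ _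
    rw [norm_vec, norm_vec]
    exact hsn_comp_alpha hα g hS
  exact (sq_le_sq₀ (norm_nonneg _) (norm_nonneg _)).mp h

/-- The pairing of two elementary operators. -/
theorem pair_EE_le (hα : AFrame p α) (g : Γ) (k l : I × ((I × Λ) × (I × Λ) × (I × Λ))) :
    ‖⟪vA (A3 α (g, g, g)) (EE k), vB (α g) (EE l)⟫_ℂ‖ ≤ f4 (α g) := by
  classical
  change ‖⟪vec (A3 α (g, g, g) ∘L EE k), vec (EE l ∘L α g)⟫_ℂ‖ ≤ _
  rw [inner_vec, hs, Finset.sum_eq_single k.1]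
  · rw [comp_apply, comp_apply, EE_dl, if_pos rfl]
    have h : lt3 k.2 1 = k.2 := by
      simp only [lt3, lt1, mul_one]
    have e1 : A3 α (g, g, g) (dl (k.2.1, k.2.2.1, k.2.2.2)) =
        tv (α g (dl k.2.1)) (tv (cj (α g (dl k.2.2.1))) (α g (dl k.2.2.2))) := by
      change tens (α g) (tens (bar (α g)) (α g)) _ = _
      rw [tens_dl, tens_dl, bar_dl]
    rw [h]
    change ‖⟪A3 α (g, g, g) (dl (k.2.1, k.2.2.1, k.2.2.2)), _⟫_ℂ‖ ≤ _
    rw [e1]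
    exact four_le l _ _ _ _ (q4_dl hα g _) (q4_dl hα g _) (q4_dl hα g _) (q4_dl hα g _)
  · intro j _ hj
    rw [comp_apply, EE_dl, if_neg hj, map_zero, inner_zero_left]
  · intro h; exact absurd (Finset.mem_univ _) h

theorem pair_self (hα : AFrame p α) (hT : Itw3 α T) (g : Γ) :
    ⟪vA (A3 α (g, g, g)) T, vB (α g) T⟫_ℂ = (‖vec T‖ ^ 2 : ℝ) := by
  change ⟪vec (A3 α (g, g, g) ∘L T), vec (T ∘L α g)⟫_ℂ = _
  rw [hT.alpha hα, inner_vec, norm_vec, ← hs_self]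
  unfold hs
  refine Finset.sum_congr rfl fun i _ => ?_
  rw [comp_apply, ← adjoint_inner_right, hα.A3_adj, ← mul_ap, hα.A3_mul, inv_mul_cancel,
    hT.A3_one_ap hα]

theorem pair_sum_le (hα : AFrame p α) (g : Γ)
    (F : Finset (I × ((I × Λ) × (I × Λ) × (I × Λ)))) (c : I × ((I × Λ) × (I × Λ) × (I × Λ)) → ℂ) :
    ‖⟪vA (A3 α (g, g, g)) (∑ k ∈ F, c k • EE k), vB (α g) (∑ k ∈ F, c k • EE k)⟫_ℂ‖ ≤
      (∑ k ∈ F, ‖c k‖) ^ 2 * f4 (α g) := by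
  have e1 : ⟪vA (A3 α (g, g, g)) (∑ k ∈ F, c k • EE k), vB (α g) (∑ k ∈ F, c k • EE k)⟫_ℂ =
      ∑ k ∈ F, ∑ l ∈ F, (starRingEnd ℂ) (c k) * (c l *
        ⟪vA (A3 α (g, g, g)) (EE k), vB (α g) (EE l)⟫_ℂ) := by
    rw [map_sum, map_sum, sum_inner]
    refine Finset.sum_congr rfl fun k _ => ?_
    rw [inner_sum]
    refine Finset.sum_congr rfl fun l _ => ?_
    rw [map_smul, map_smul, inner_smul_left, inner_smul_right]
  rw [e1]
  calc _ ≤ ∑ k ∈ F, ∑ l ∈ F, ‖c k‖ * (‖c l‖ * f4 (α g)) := by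
        refine (norm_sum_le _ _).trans (Finset.sum_le_sum fun k _ => ?_)
        refine (norm_sum_le _ _).trans (Finset.sum_le_sum fun l _ => ?_)
        rw [norm_mul, norm_mul, RCLike.norm_conj]
        have := pair_EE_le hα g k l
        gcongr
    _ = _ := by
        rw [sq, Finset.sum_mul_sum, Finset.sum_mul]
        refine Finset.sum_congr rfl fun k _ => ?_
        rw [Finset.sum_mul]
        exact Finset.sum_congr rfl fun l _ => by ring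

theorem lower_one (hα : AFrame p α) (hT : Itw3 α T) (g : Γ)
    (F : Finset (I × ((I × Λ) × (I × Λ) × (I × Λ)))) (c : I × ((I × Λ) × (I × Λ) × (I × Λ)) → ℂ)
    {δ : ℝ} (hR : ‖vec (T - ∑ k ∈ F, c k • EE k)‖ ≤ δ) :
    ‖vec T‖ ^ 2 ≤ (∑ k ∈ F, ‖c k‖) ^ 2 * f4 (α g) + (‖vec T‖ + δ) * δ + δ * ‖vec T‖ := by
  have h3 := pair_sum_le hα g F c
  have he1 : Eqv (R3H I Λ) (∑ k ∈ F, c k • EE k) := Eqv.sum F fun k _ => (EE_eqv k).smul _
  generalize (∑ k ∈ F, c k • EE k : Ell2 (I × Λ) →L[ℂ] Ell2 ((I × Λ) × (I × Λ) × (I × Λ))) =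
    T1 at hR h3 he1
  have hδ0 : 0 ≤ δ := (norm_nonneg _).trans hR
  have hn1 : ‖vec T1‖ ≤ ‖vec T‖ + δ := by
    have h1 : vec T1 = vec T - vec (T - T1) := by rw [map_sub]; abel
    rw [h1]
    exact (norm_sub_le _ _).trans (by linarith)
  have h1 := pair_self hα hT g
  have h2 : ⟪vA (A3 α (g, g, g)) T, vB (α g) T⟫_ℂ =
      ⟪vA (A3 α (g, g, g)) T1, vB (α g) T1⟫_ℂ +
      ⟪vA (A3 α (g, g, g)) T1, vB (α g) (T - T1)⟫_ℂ +
      ⟪vA (A3 α (g, g, g)) (T - T1), vB (α g) T⟫_ℂ := by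
    rw [map_sub, map_sub, inner_sub_right, inner_sub_left]
    ring
  have h4 : ‖⟪vA (A3 α (g, g, g)) T1, vB (α g) (T - T1)⟫_ℂ‖ ≤ (‖vec T‖ + δ) * δ := by
    refine (norm_inner_le_norm _ _).trans ?_
    have a1 := norm_vA_le hα (g, g, g) T1
    have a2 := norm_vB_le hα g (hT.eqv.sub he1)
    exact mul_le_mul (a1.trans hn1) (a2.trans hR) (norm_nonneg _) (by positivity)
  have h5 : ‖⟪vA (A3 α (g, g, g)) (T - T1), vB (α g) T⟫_ℂ‖ ≤ δ * ‖vec T‖ := by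
    refine (norm_inner_le_norm _ _).trans ?_
    have a1 := norm_vA_le hα (g, g, g) (T - T1)
    have a2 := norm_vB_le hα g hT.eqv
    exact mul_le_mul (a1.trans hR) a2 (norm_nonneg _) hδ0
  have e1 : ‖⟪vA (A3 α (g, g, g)) T, vB (α g) T⟫_ℂ‖ = ‖vec T‖ ^ 2 := by
    rw [h1, Complex.norm_real, Real.norm_of_nonneg (by positivity)]
  rw [← e1, h2]
  refine (norm_add_le _ _).trans ?_
  exact add_le_add ((norm_add_le _ _).trans (add_le_add h3 h4)) h5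

theorem lower_arith {K δ C f : ℝ} (hK : 0 < K) (hδ0 : 0 < δ) (hδ1 : δ ≤ 1)
    (hδ2 : (2 * K + 1) * δ ≤ K ^ 2 / 2) (hf : 0 ≤ f)
    (h6 : K ^ 2 ≤ C ^ 2 * f + (K + δ) * δ + δ * K) : K ^ 2 / (2 * (C ^ 2 + 1)) ≤ f := by
  rw [div_le_iff₀ (by positivity)]
  nlinarith

/-- A nonzero cubic intertwiner bounds the fourth power sums from below. -/
theorem lower (hα : AFrame p α) (hT : Itw3 α T) (hT0 : T ≠ 0) :
    ∃ c : ℝ, 0 < c ∧ ∀ g, c ≤ f4 (α g) := by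
  have hKpos : 0 < ‖vec T‖ := by
    rw [norm_pos_iff]
    intro h
    apply hT0
    refine hsn_eq_zero hT.eqv ?_
    rw [← norm_vec, h, norm_zero, zero_pow two_ne_zero]
  obtain ⟨δ, hδpos, hδ1, hδ2⟩ : ∃ δ : ℝ, 0 < δ ∧ δ ≤ 1 ∧
      (2 * ‖vec T‖ + 1) * δ ≤ ‖vec T‖ ^ 2 / 2 := by
    refine ⟨min 1 (‖vec T‖ ^ 2 / (2 * (2 * ‖vec T‖ + 1))), lt_min one_pos (by positivity),
      min_le_left _ _, ?_⟩
    calc (2 * ‖vec T‖ + 1) * min 1 (‖vec T‖ ^ 2 / (2 * (2 * ‖vec T‖ + 1))) ≤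
        (2 * ‖vec T‖ + 1) * (‖vec T‖ ^ 2 / (2 * (2 * ‖vec T‖ + 1))) := by
          gcongr
          exact min_le_right _ _
      _ = ‖vec T‖ ^ 2 / 2 := by field_simp
  obtain ⟨F, hF⟩ := ((Metric.tendsto_nhds.mp (hasSum_dl (vec T))) δ hδpos).exists
  rw [dist_eq_norm] at hF
  have hR : ‖vec (T - ∑ k ∈ F, (vec T) k • EE k)‖ ≤ δ := by
    have hv1 : vec (∑ k ∈ F, (vec T) k • EE k) = ∑ k ∈ F, (vec T) k • dl k := by
      rw [map_sum]
      exact Finset.sum_congr rfl fun k _ => by rw [map_smul, vec_EE]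
    rw [map_sub, hv1, norm_sub_rev]
    exact hF.le
  exact ⟨‖vec T‖ ^ 2 / (2 * ((∑ k ∈ F, ‖(vec T) k‖) ^ 2 + 1)), by positivity, fun g =>
    lower_arith hKpos hδpos hδ1 hδ2 (f4_nonneg _) (lower_one hα hT g F _ hR)⟩

end low

end Vale.Agent.P092.H367
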