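import Vale.Agent.P092.R3.H381.Sub1
import Vale.Agent.P092.R3.H381.Low

/-!
A finite-dimensional space of cubic operators which contains all the conjugates of one nonzero
operator bounds the fourth power sums from below. Two ways to find such a space.
-/

set_option linter.all false

open scoped InnerProductSpace
open Filter Topology ContinuousLinearMap

namespace Vale.Agent.P092.H381

open Vale.Agent.P092.H160 hiding A3
open Vale.Agent.P092.H367 Sg

section low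

variable {I Λ Γ : Type} [Fintype I] [Group Λ] [Group Γ]
  {p : Ell2 (I × Λ) →L[ℂ] Ell2 (I × Λ)} {α : Γ → (Ell2 (I × Λ) →L[ℂ] Ell2 (I × Λ))}
  {S T : Ell2 (I × Λ) →L[ℂ] Ell2 ((I × Λ) × (I × Λ) × (I × Λ))}

theorem approx (S : Ell2 (I × Λ) →L[ℂ] Ell2 ((I × Λ) × (I × Λ) × (I × Λ))) {δ : ℝ}
    (hδ : 0 < δ) : ∃ (F : Finset (I × ((I × Λ) × (I × Λ) × (I × Λ))))
      (c : I × ((I × Λ) × (I × Λ) × (I × Λ)) → ℂ), ‖vec (S - ∑ k ∈ F, c k • EE k)‖ ≤ δ := by
  obtain ⟨F, hF⟩ := ((Metric.tendsto_nhds.mp (hasSum_dl (vec S))) δ hδ).exists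
  rw [dist_eq_norm] at hF
  refine ⟨F, fun k => (vec S) k, ?_⟩
  have hv1 : vec (∑ k ∈ F, (vec S) k • EE k) = ∑ k ∈ F, (vec S) k • dl k := by
    rw [map_sum]
    exact Finset.sum_congr rfl fun k _ => by rw [map_smul, vec_EE]
  rw [map_sub, hv1, norm_sub_rev]
  exact hF.le

theorem pair_sum2_le (hα : AFrame p α) (g : Γ)
    (F G : Finset (I × ((I × Λ) × (I × Λ) × (I × Λ))))
    (c d : I × ((I × Λ) × (I × Λ) × (I × Λ)) → ℂ) :
    ‖⟪vA (A3 α (g, g, g)) (∑ k ∈ F, c k • EE k), vB (α g) (∑ k ∈ G, d k • EE k)⟫_ℂ‖ ≤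
      (∑ k ∈ F, ‖c k‖) * (∑ k ∈ G, ‖d k‖) * f4 (α g) := by
  have e1 : ⟪vA (A3 α (g, g, g)) (∑ k ∈ F, c k • EE k), vB (α g) (∑ k ∈ G, d k • EE k)⟫_ℂ =
      ∑ k ∈ F, ∑ l ∈ G, (starRingEnd ℂ) (c k) * (d l *
        ⟪vA (A3 α (g, g, g)) (EE k), vB (α g) (EE l)⟫_ℂ) := by
    rw [map_sum, map_sum, sum_inner]
    refine Finset.sum_congr rfl fun k _ => ?_
    rw [inner_sum]
    refine Finset.sum_congr rfl fun l _ => ?_
    rw [map_smul, map_smul, inner_smul_left, inner_smul_right]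
  rw [e1]
  calc _ ≤ ∑ k ∈ F, ∑ l ∈ G, ‖c k‖ * (‖d l‖ * f4 (α g)) := by
        refine (norm_sum_le _ _).trans (Finset.sum_le_sum fun k _ => ?_)
        refine (norm_sum_le _ _).trans (Finset.sum_le_sum fun l _ => ?_)
        rw [norm_mul, norm_mul, RCLike.norm_conj]
        have := pair_EE_le hα g k l
        gcongr
    _ = _ := by
        rw [Finset.sum_mul_sum, Finset.sum_mul]
        refine Finset.sum_congr rfl fun k _ => ?_
        rw [Finset.sum_mul]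
        exact Finset.sum_congr rfl fun l _ => by ring

theorem hs_cg_eq (ha : AFrame p α) (hS : Eqv (R3H I Λ) S) (hT : Eqv (R3H I Λ) T) (g : Γ) :
    hs (cg α g S) T = ⟪vA (A3 α (g, g, g)) S, vB (α g) T⟫_ℂ := by
  have hE : Eqv (R3H I Λ) (A3 α (g, g, g) ∘L S) := hS.left fun s v => ha.A3_R3 _ s v
  have e1 : cg α g S = (A3 α (g, g, g) ∘L S) ∘L α g⁻¹ := rfl
  rw [e1, hs_comp adjoint_R3 hE hT (ha.eqv _), ha.adj, inv_inv, ← inner_vec]
  rfl

theorem pair_le (ha : AFrame p α) (hS : Eqv (R3H I Λ) S) (hT : Eqv (R3H I Λ) T) {ε : ℝ}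
    (hε : 0 < ε) : ∃ C : ℝ, 0 ≤ C ∧ ∀ g, ‖hs (cg α g S) T‖ ≤ C * f4 (α g) + ε := by
  obtain ⟨δ, hδ0, hδ1, hδ2⟩ : ∃ δ : ℝ, 0 < δ ∧ δ ≤ 1 ∧ (‖vec S‖ + ‖vec T‖ + 1) * δ ≤ ε := by
    refine ⟨min 1 (ε / (‖vec S‖ + ‖vec T‖ + 1)), lt_min one_pos (by positivity),
      min_le_left _ _, ?_⟩
    calc (‖vec S‖ + ‖vec T‖ + 1) * min 1 (ε / (‖vec S‖ + ‖vec T‖ + 1)) ≤
        (‖vec S‖ + ‖vec T‖ + 1) * (ε / (‖vec S‖ + ‖vec T‖ + 1)) := by
          gcongr
          exact min_le_right _ _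
      _ = ε := by field_simp
  obtain ⟨F, c, hF⟩ := approx S hδ0
  obtain ⟨G, d, hG⟩ := approx T hδ0
  refine ⟨(∑ k ∈ F, ‖c k‖) * (∑ k ∈ G, ‖d k‖), by positivity, fun g => ?_⟩
  have h3 := pair_sum2_le ha g F G c d
  have he1 : Eqv (R3H I Λ) (∑ k ∈ F, c k • EE k) := Eqv.sum F fun k _ => (EE_eqv k).smul _
  have he2 : Eqv (R3H I Λ) (∑ k ∈ G, d k • EE k) := Eqv.sum G fun k _ => (EE_eqv k).smul _
  generalize (∑ k ∈ F, c k • EE k : Ell2 (I × Λ) →L[ℂ] Ell2 ((I × Λ) × (I × Λ) × (I × Λ))) =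
    S1 at hF h3 he1
  generalize (∑ k ∈ G, d k • EE k : Ell2 (I × Λ) →L[ℂ] Ell2 ((I × Λ) × (I × Λ) × (I × Λ))) =
    T1 at hG h3 he2
  have hn1 : ‖vec S1‖ ≤ ‖vec S‖ + δ := by
    have h1 : vec S1 = vec S - vec (S - S1) := by rw [map_sub]; abel
    rw [h1]
    exact (norm_sub_le _ _).trans (by linarith)
  have h2 : ⟪vA (A3 α (g, g, g)) S, vB (α g) T⟫_ℂ =
      ⟪vA (A3 α (g, g, g)) S1, vB (α g) T1⟫_ℂ +
      ⟪vA (A3 α (g, g, g)) S1, vB (α g) (T - T1)⟫_ℂ +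
      ⟪vA (A3 α (g, g, g)) (S - S1), vB (α g) T⟫_ℂ := by
    rw [map_sub, map_sub, inner_sub_right, inner_sub_left]
    ring
  have h4 : ‖⟪vA (A3 α (g, g, g)) S1, vB (α g) (T - T1)⟫_ℂ‖ ≤ (‖vec S‖ + δ) * δ := by
    refine (norm_inner_le_norm _ _).trans ?_
    have a1 := norm_vA_le ha (g, g, g) S1
    have a2 := norm_vB_le ha g (hT.sub he2)
    exact mul_le_mul (a1.trans hn1) (a2.trans hG) (norm_nonneg _) (by positivity)
  have h5 : ‖⟪vA (A3 α (g, g, g)) (S - S1), vB (α g) T⟫_ℂ‖ ≤ δ * ‖vec T‖ := by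
    refine (norm_inner_le_norm _ _).trans ?_
    have a1 := norm_vA_le ha (g, g, g) (S - S1)
    have a2 := norm_vB_le ha g hT
    exact mul_le_mul (a1.trans hF) a2 (norm_nonneg _) hδ0.le
  have h6 : (‖vec S‖ + δ) * δ + δ * ‖vec T‖ ≤ ε := by
    refine le_trans ?_ hδ2
    nlinarith [norm_nonneg (vec S), norm_nonneg (vec T)]
  rw [hs_cg_eq ha hS hT, h2]
  calc _ ≤ ‖⟪vA (A3 α (g, g, g)) S1, vB (α g) T1⟫_ℂ‖ +
        ‖⟪vA (A3 α (g, g, g)) S1, vB (α g) (T - T1)⟫_ℂ‖ +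
        ‖⟪vA (A3 α (g, g, g)) (S - S1), vB (α g) T⟫_ℂ‖ :=
        (norm_add_le _ _).trans (add_le_add (norm_add_le _ _) le_rfl)
    _ ≤ _ := by linarith

variable {J : Type} [Fintype J]
  {X : J → (Ell2 (I × Λ) →L[ℂ] Ell2 ((I × Λ) × (I × Λ) × (I × Λ)))}

/-- A finite-dimensional space containing the conjugates of one nonzero operator gives a lower
bound. -/
theorem lower_fin (ha : AFrame p α) (hX : Ort p α X) (hS : Gd3 p α S) (hn : hsn S = 1)
    (hsp : ∀ g, cg α g S = ∑ a, hs (X a) (cg α g S) • X a) :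
    ∃ c : ℝ, 0 < c ∧ ∀ g, c ≤ f4 (α g) := by
  have hpar : ∀ g, ∑ a, ‖hs (cg α g S) (X a)‖ ^ 2 = 1 := by
    intro g
    have h1 : hs (cg α g S) (∑ a, hs (X a) (cg α g S) • X a) = ((1 : ℝ) : ℂ) := by
      rw [← hsp g, hs_self, hsn_cg ha hS, hn]
    rw [hs_sum] at h1
    have h2 : ∀ a, hs (X a) (cg α g S) * hs (cg α g S) (X a) =
        ((‖hs (cg α g S) (X a)‖ ^ 2 : ℝ) : ℂ) := by
      intro a
      rw [← hs_symm (cg α g S) (X a), mul_comm, Complex.mul_conj, Complex.normSq_eq_norm_sq]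
    rw [Finset.sum_congr rfl fun a _ => h2 a, ← Complex.ofReal_sum] at h1
    exact_mod_cast h1
  obtain ⟨m, hm⟩ : ∃ m : ℝ, m = Fintype.card J + 1 := ⟨_, rfl⟩
  have hm1 : 1 ≤ m := by rw [hm]; have : (0 : ℝ) ≤ Fintype.card J := by positivity
                         linarith
  obtain ⟨ε, hε⟩ : ∃ ε : ℝ, ε = 1 / (8 * m) := ⟨_, rfl⟩
  have hε0 : 0 < ε := by rw [hε]; positivity
  have hε1 : ε ≤ 1 := by
    rw [hε, div_le_one (by positivity)]
    linarith
  choose C hC0 hC using fun a => pair_le ha hS.eqv (hX.gd a).eqv hε0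
  obtain ⟨D, hD⟩ : ∃ D : ℝ, D = ∑ a, C a + 1 := ⟨_, rfl⟩
  have hD0 : 0 < D := by
    rw [hD]
    have := Finset.sum_nonneg fun a (_ : a ∈ Finset.univ) => hC0 a
    linarith
  refine ⟨ε / D, by positivity, fun g => ?_⟩
  by_contra hlt
  push Not at hlt
  have h1 : ∀ a, ‖hs (cg α g S) (X a)‖ ≤ 2 * ε := by
    intro a
    refine (hC a g).trans ?_
    have h2 : C a ≤ D := by
      rw [hD]
      have := Finset.single_le_sum (f := C) (fun a _ => hC0 a) (Finset.mem_univ a)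
      linarith
    have h3 : C a * f4 (α g) ≤ D * (ε / D) :=
      mul_le_mul h2 hlt.le (f4_nonneg _) hD0.le
    have h4 : D * (ε / D) = ε := by field_simp
    linarith
  have h5 : ∑ a, ‖hs (cg α g S) (X a)‖ ^ 2 ≤ ∑ a : J, (2 * ε) ^ 2 :=
    Finset.sum_le_sum fun a _ => pow_le_pow_left₀ (norm_nonneg _) (h1 a) 2
  rw [hpar g, Finset.sum_const, Finset.card_univ, nsmul_eq_mul] at h5
  have h6 : (Fintype.card J : ℝ) * (2 * ε) ^ 2 ≤ m * (4 * ε) := by
    have h7 : (2 * ε) ^ 2 ≤ 4 * ε := by nlinarith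
    have h8 : (Fintype.card J : ℝ) ≤ m := by rw [hm]; linarith
    exact mul_le_mul h8 h7 (by positivity) (by linarith)
  have h9 : m * (4 * ε) = 1 / 2 := by
    rw [hε]
    field_simp
    norm_num
  linarith

end low

section cases

variable {I Λ Γ : Type} [Fintype I] [Group Λ] [Group Γ]
  {p : Ell2 (I × Λ) →L[ℂ] Ell2 (I × Λ)} {α : Γ → (Ell2 (I × Λ) →L[ℂ] Ell2 (I × Λ))}
  {S T : Ell2 (I × Λ) →L[ℂ] Ell2 ((I × Λ) × (I × Λ) × (I × Λ))}

theorem cg_smul (g : Γ) (c : ℂ)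
    (T : Ell2 (I × Λ) →L[ℂ] Ell2 ((I × Λ) × (I × Λ) × (I × Λ))) :
    cg α g (c • T) = c • cg α g T := by
  ext1 v
  change A3 α (g, g, g) (c • T (α g⁻¹ v)) = c • A3 α (g, g, g) (T (α g⁻¹ v))
  rw [map_smul]

theorem cg_sum {J : Type} (g : Γ) (F : Finset J) (c : J → ℂ)
    (X : J → (Ell2 (I × Λ) →L[ℂ] Ell2 ((I × Λ) × (I × Λ) × (I × Λ)))) :
    cg α g (∑ a ∈ F, c a • X a) = ∑ a ∈ F, c a • cg α g (X a) := by
  ext1 v
  rw [cg_apply, sum_apply, sum_apply, map_sum]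
  refine Finset.sum_congr rfl fun a _ => ?_
  change A3 α (g, g, g) (c a • X a (α g⁻¹ v)) = c a • A3 α (g, g, g) (X a (α g⁻¹ v))
  rw [map_smul]

/-- The group of the elements which multiply `T` by a number of modulus one. -/
def Lg (ha : AFrame p α) (hT : Gd3 p α T) : Subgroup Γ where
  carrier := {g | ∃ c : ℂ, ‖c‖ = 1 ∧ cg α g T = c • T}
  mul_mem' := by
    rintro g h ⟨c, hc, e⟩ ⟨d, hd, e'⟩
    refine ⟨d * c, by rw [norm_mul, hc, hd, one_mul], ?_⟩
    rw [← cg_cg ha, e', cg_smul, e, smul_smul]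
  one_mem' := ⟨1, norm_one, by rw [hT.cg_one ha, one_smul]⟩
  inv_mem' := by
    rintro g ⟨c, hc, e⟩
    have hc0 : c ≠ 0 := by
      intro h
      rw [h, norm_zero] at hc
      exact zero_ne_one hc
    refine ⟨c⁻¹, by rw [norm_inv, hc, inv_one], ?_⟩
    have h1 : cg α g⁻¹ (cg α g T) = T := by
      rw [cg_cg ha, inv_mul_cancel, hT.cg_one ha]
    rw [e, cg_smul] at h1
    calc cg α g⁻¹ T = c⁻¹ • (c • cg α g⁻¹ T) := by rw [smul_smul, inv_mul_cancel₀ hc0, one_smul]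
      _ = _ := by rw [h1]

theorem mem_Lg (ha : AFrame p α) (hT : Gd3 p α T) {g : Γ} :
    g ∈ Lg ha hT ↔ ∃ c : ℂ, ‖c‖ = 1 ∧ cg α g T = c • T := Iff.rfl

/-- conjugation of the invariance -/
theorem cg_conj (ha : AFrame p α) {g k : Γ} {d : ℂ} (h : cg α (g⁻¹ * k * g) T = d • T) :
    cg α k (cg α g T) = d • cg α g T := by
  have e : k * g = g * (g⁻¹ * k * g) := by group
  rw [cg_cg ha, e, ← cg_cg ha, h, cg_smul]

/-- The first case. -/
theorem spread_case (ha : AFrame p α)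
    (bound : ∀ (J : Type) [Fintype J]
      (X : J → (Ell2 (I × Λ) →L[ℂ] Ell2 ((I × Λ) × (I × Λ) × (I × Λ)))), Ort p α X →
      (Fintype.card J : ℝ) * hsn p ^ 2 ≤ 1)
    {H : Subgroup Γ} (hH : Spread H) (ht : 1 < 2 * hsn p ^ 2) (hT : Gd3 p α T) (hn : hsn T = 1)
    (hinv : ∀ h ∈ H, cg α h T = T) (g : Γ) : ∃ c : ℂ, ‖c‖ = 1 ∧ cg α g T = c • T := by
  have key : Lg ha hT = ⊤ := by
    refine hH.2 _ (fun h hh => ⟨1, norm_one, by rw [hinv h hh, one_smul]⟩) fun g hg => ?_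
    have hX : Ort p α (fun _ : Unit => T) := by
      refine ⟨fun _ => hT, fun _ _ y hy => ?_, fun a b hab => absurd rfl hab, fun _ => hn⟩
      refine hs_zero ha hg hT hT (fun k hk => ?_) y hy
      obtain ⟨c, hc, e⟩ := (mem_Lg ha hT).mp hk.1
      exact ⟨c, c, hc, hc, e, e⟩
    have hcj : ∀ k ∈ Lg ha hT ⊓ conj g (Lg ha hT), ∃ d : ℂ, ‖d‖ = 1 ∧
        cg α k (cg α g T) = d • cg α g T := by
      intro k hk
      obtain ⟨d, hd, e⟩ := (mem_Lg ha hT).mp (mem_conj.mp hk.2)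
      exact ⟨d, hd, cg_conj ha e⟩
    have h1 := extend ha hX (hT.cg ha g) (fun _ y hy => ?_) (fun y hy => ?_)
    · rcases h1 with h1 | ⟨c, h1⟩
      · rw [Fintype.sum_unique] at h1
        refine ⟨_, ?_, h1⟩
        have h2 : ((hsn (cg α g T) : ℝ) : ℂ) = ((1 : ℝ) : ℂ) := by rw [hsn_cg ha hT, hn]
        rw [← hs_self] at h2
        generalize hs T (cg α g T) = c at h1
        rw [h1, hs_smul, ← hs_symm, hs_smul, map_mul, hs_symm, hs_self, hn, Complex.ofReal_one,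
          mul_one, Complex.mul_conj, Complex.normSq_eq_norm_sq] at h2
        have h3 : ‖c‖ ^ 2 = 1 := by exact_mod_cast h2
        exact (pow_eq_one_iff_of_nonneg (norm_nonneg c) two_ne_zero).mp h3
      · exfalso
        have h2 := bound _ _ h1
        rw [Fintype.card_option, Fintype.card_unit] at h2
        push_cast at h2
        linarith
    · refine hs_zero ha hg hT (hT.cg ha g) (fun k hk => ?_) y hy
      obtain ⟨c, hc, e⟩ := (mem_Lg ha hT).mp hk.1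
      obtain ⟨d, hd, e'⟩ := hcj k hk
      exact ⟨c, d, hc, hd, e, e'⟩
    · refine hs_zero ha hg (hT.cg ha g) (hT.cg ha g) (fun k hk => ?_) y hy
      obtain ⟨d, hd, e'⟩ := hcj k hk
      exact ⟨d, d, hd, hd, e', e'⟩
  have h : g ∈ Lg ha hT := by rw [key]; exact Subgroup.mem_top g
  exact h

theorem mem_inter {H : Subgroup Γ} {F : Finset Γ} {x : Γ} :
    x ∈ inter H F ↔ x ∈ H ∧ ∀ g ∈ F, g⁻¹ * x * g ∈ H := by
  unfold inter
  rw [Subgroup.mem_inf]
  simp only [Subgroup.mem_iInf, mem_conj]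

/-- The second case. -/
theorem fin_case (ha : AFrame p α)
    (bound : ∀ (J : Type) [Fintype J]
      (X : J → (Ell2 (I × Λ) →L[ℂ] Ell2 ((I × Λ) × (I × Λ) × (I × Λ)))), Ort p α X →
      (Fintype.card J : ℝ) * hsn p ^ 2 ≤ 1) (hp : 0 < hsn p)
    {H : Subgroup Γ} (hH : ∀ F : Finset Γ, F.card * hsn p ^ 2 ≤ 1 → RICC (inter H F))
    (hT : Gd3 p α T) (hn : hsn T = 1) (hinv : ∀ h ∈ H, cg α h T = T) :
    ∃ (J : Type) (_ : Fintype J)
      (X : J → (Ell2 (I × Λ) →L[ℂ] Ell2 ((I × Λ) × (I × Λ) × (I × Λ)))), Ort p α X ∧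
      ∀ g, cg α g T = ∑ a, hs (X a) (cg α g T) • X a := by
  classical
  by_contra hcon
  push Not at hcon
  have key : ∀ k : ℕ, ∃ (J : Type) (_ : Fintype J)
      (X : J → (Ell2 (I × Λ) →L[ℂ] Ell2 ((I × Λ) × (I × Λ) × (I × Λ)))) (F : Finset Γ),
      Ort p α X ∧ Fintype.card J = k + 1 ∧ F.card ≤ k ∧
      ∀ a, ∀ h ∈ inter H F, cg α h (X a) = X a := by
    intro k
    induction k with
    | zero =>
      refine ⟨Unit, inferInstance, fun _ => T, ∅, ?_, rfl, le_rfl, fun _ h hh =>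
        hinv h (mem_inter.mp hh).1⟩
      refine ⟨fun _ => hT, fun _ _ y hy => ?_, fun a b hab => absurd rfl hab, fun _ => hn⟩
      refine hs_zero ha (hH ∅ (by simp)) hT hT (fun k hk => ?_) y hy
      have h1 := hinv k (mem_inter.mp hk).1
      exact ⟨1, 1, norm_one, norm_one, by rw [h1, one_smul], by rw [h1, one_smul]⟩
    | succ k ih =>
      obtain ⟨J, hJ, X, F, hX, hc, hF, hfix⟩ := ih
      have hb := bound J X hX
      rw [hc] at hb
      push_cast at hb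
      obtain ⟨g, hg⟩ := hcon J hJ X hX
      have hF' : (insert g F).card ≤ k + 1 := (Finset.card_insert_le _ _).trans (by omega)
      have hF'' : ((insert g F).card : ℝ) * hsn p ^ 2 ≤ 1 := by
        refine le_trans ?_ hb
        have h1 : ((insert g F).card : ℝ) ≤ (k : ℝ) + 1 := by exact_mod_cast hF'
        gcongr
      have hR := hH _ hF''
      have hle : ∀ h ∈ inter H (insert g F), h ∈ inter H F := by
        intro h hh
        rw [mem_inter] at hh ⊢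
        exact ⟨hh.1, fun x hx => hh.2 x (Finset.mem_insert_of_mem hx)⟩
      have hXf : ∀ a, ∀ h ∈ inter H (insert g F), cg α h (X a) = X a := fun a h hh =>
        hfix a h (hle h hh)
      have hSf : ∀ h ∈ inter H (insert g F), cg α h (cg α g T) = cg α g T := by
        intro h hh
        have h1 := hinv _ ((mem_inter.mp hh).2 g (Finset.mem_insert_self _ _))
        have h2 := cg_conj ha (d := 1) (g := g) (k := h) (T := T) (by rw [h1, one_smul])
        rw [h2, one_smul]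
      have h1 := extend ha hX (hT.cg ha g) (fun a y hy => ?_) (fun y hy => ?_)
      · rcases h1 with h1 | ⟨c, h1⟩
        · exact absurd h1 hg
        · refine ⟨Option J, inferInstance, _, insert g F, h1, ?_, hF', ?_⟩
          · rw [Fintype.card_option, hc]
          · rintro (_ | a) h hh
            · change cg α h (c • rest X (cg α g T)) = c • rest X (cg α g T)
              rw [cg_smul]
              congr 1
              unfold rest
              rw [cg_sub, cg_sum, hSf h hh]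
              congr 1
              exact Finset.sum_congr rfl fun a _ => by rw [hXf a h hh]
            · exact hXf a h hh
      · refine hs_zero ha hR (hX.gd a) (hT.cg ha g) (fun k hk => ?_) y hy
        exact ⟨1, 1, norm_one, norm_one, by rw [hXf a k hk, one_smul], by rw [hSf k hk, one_smul]⟩
      · refine hs_zero ha hR (hT.cg ha g) (hT.cg ha g) (fun k hk => ?_) y hy
        exact ⟨1, 1, norm_one, norm_one, by rw [hSf k hk, one_smul], by rw [hSf k hk, one_smul]⟩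
  obtain ⟨k, hk⟩ := exists_nat_gt (1 / hsn p ^ 2)
  obtain ⟨J, hJ, X, F, hX, hc, -, -⟩ := key k
  have hb := bound J X hX
  rw [hc] at hb
  push_cast at hb
  rw [div_lt_iff₀ (by positivity)] at hk
  nlinarith [pow_pos hp 2]

end cases

end Vale.Agent.P092.H381
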