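import Vale.Agent.P092.R3.H381.Corner

/-!
P092, amplified Kazhdan gap, file C, second part (helper381): the trace of the corner and the
amplified frame of a `*`-isomorphism.
-/

set_option linter.all false

open scoped InnerProductSpace ComplexOrder
open Filter Topology ContinuousLinearMap

namespace Vale.Agent.P092.H367

open Vale.Agent.P092.H160

section tr

variable {I Λ : Type} [Fintype I] [Group Λ]

theorem Tr_addC (A B : Ell2 (I × Λ) →L[ℂ] Ell2 (I × Λ)) : Tr (A + B) = Tr A + Tr B := by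
  unfold Tr
  rw [← Finset.sum_add_distrib]
  refine Finset.sum_congr rfl fun i _ => ?_
  rw [ContinuousLinearMap.add_apply, inner_add_right]

theorem Tr_smulC (c : ℂ) (A : Ell2 (I × Λ) →L[ℂ] Ell2 (I × Λ)) : Tr (c • A) = c * Tr A := by
  unfold Tr
  rw [Finset.mul_sum]
  refine Finset.sum_congr rfl fun i _ => ?_
  change ⟪(dl (i, 1) : Ell2 (I × Λ)), c • A (dl (i, 1))⟫_ℂ = _
  rw [inner_smul_right]

end tr

section iso

variable {G : Type} [Group G] {I Λ : Type} [Fintype I] [Group Λ]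
  {p : Ell2 (I × Λ) →L[ℂ] Ell2 (I × Λ)} (θ : CIso G p)

theorem CIso.Tr_conj {T : Ell2 G →L[ℂ] Ell2 G} (hT : T ∈ LG G) (g : G) :
    Tr (θ.toFun (lam g * T * lam g⁻¹)) = Tr (θ.toFun T) := by
  have hg : (lam g : Ell2 G →L[ℂ] Ell2 G) ∈ LG G := lam_mem_LG g
  have hg' : (lam g⁻¹ : Ell2 G →L[ℂ] Ell2 G) ∈ LG G := lam_mem_LG g⁻¹
  rw [θ.map_mul _ (mul_mem hg hT) _ hg', trace_comm (θ.map_mem _ (mul_mem hg hT)).1
    (θ.map_mem _ hg').1, ← θ.map_mul _ hg' _ (mul_mem hg hT), ← mul_assoc, ← lam_mul,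
    inv_mul_cancel, lam_one, one_mul]

theorem conj_dl {T : Ell2 G →L[ℂ] Ell2 G} (hT : T ∈ LG G) (g : G) :
    (lam g * T * lam g⁻¹) (dl 1) = lam g (H108.rho g (T (dl 1))) := by
  change lam g (T (lam g⁻¹ (dl 1))) = _
  rw [lam_dl, mul_one, H108.apply_dl hT, inv_inv]

theorem CIso.Tr_zero (hG : ∀ g : G, g ≠ 1 → Set.Infinite {y : G | ∃ h, y = h * g * h⁻¹})
    (hp : adjoint p = p) (hpp : p * p = p) (hpe : Eqv (RrH I Λ) p)
    {T : Ell2 G →L[ℂ] Ell2 G} (hT : T ∈ LG G) (hT1 : ‖T‖ ≤ 1) (hT0 : (T (dl 1)) 1 = 0) :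
    Tr (θ.toFun T) = 0 := by
  by_contra hne
  obtain ⟨y, hyC, hyn⟩ := exists_hull_seq (dl 1 : Ell2 G) (fun g : G => lam g)
    (fun g : G => lam g⁻¹) (fun g h x => by
      change lam g * (lam h * x * lam h⁻¹) * lam g⁻¹ = lam (g * h) * x * lam (g * h)⁻¹
      rw [lam_mul, mul_inv_rev, lam_mul]
      simp only [mul_assoc]) T
    (fun y => y ∈ LG G ∧ ‖y‖ ≤ 1 ∧ Tr (θ.toFun y) = Tr (θ.toFun T) ∧ (y (dl 1)) 1 = 0)
    (by
      rintro x y ⟨hx, hx1, hx2, hx3⟩ ⟨hy, hy1, hy2, hy3⟩ a b ha hb hab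
      have hmx := (LG G).smul_mem hx (a : ℂ)
      have hmy := (LG G).smul_mem hy (b : ℂ)
      refine ⟨add_mem hmx hmy, ?_, ?_, ?_⟩
      · calc ‖(a : ℂ) • x + (b : ℂ) • y‖ ≤ ‖(a : ℂ) • x‖ + ‖(b : ℂ) • y‖ := norm_add_le _ _
          _ = a * ‖x‖ + b * ‖y‖ := by
              rw [norm_smul, norm_smul, Complex.norm_real, Complex.norm_real,
                Real.norm_of_nonneg ha, Real.norm_of_nonneg hb]
          _ ≤ a * 1 + b * 1 := by gcongr
          _ = 1 := by rw [← add_mul, hab, one_mul]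
      · rw [θ.map_add _ hmx _ hmy, θ.map_smul _ _ hx, θ.map_smul _ _ hy, Tr_addC, Tr_smulC,
          Tr_smulC, hx2, hy2, ← add_mul, ← Complex.ofReal_add, hab, Complex.ofReal_one, one_mul]
      · change (a : ℂ) * (x (dl 1)) 1 + (b : ℂ) * (y (dl 1)) 1 = 0
        rw [hx3, hy3, mul_zero, mul_zero, add_zero])
    (fun g => ⟨mul_mem (mul_mem (lam_mem_LG g) hT) (lam_mem_LG g⁻¹),
      (H108.norm_lam_mul_le g T).trans hT1, θ.Tr_conj hT g, by
        change ((lam g * T * lam g⁻¹) (dl 1)) 1 = 0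
        rw [conj_dl hT, lam_apply, H108.rho_apply, mul_one, inv_mul_cancel, hT0]⟩)
    (fun g x => lam g (H108.rho g x)) (fun g => (lam g).continuous.comp (H108.rho g).continuous)
    (fun g x => le_of_eq ((H108.norm_rei _ _).trans (H108.norm_rei _ _)))
    (fun g y hy => (conj_dl hy.1 g).symm)
    (fun ζ hζ hζ1 => H108.fixed_eq_zero hG hζ ((inner_dl 1 ζ).symm.trans hζ1))
    (fun y hy => (inner_dl 1 _).trans hy.2.2.2)
  have hpos : 0 < ‖Tr (θ.toFun T)‖ := norm_pos_iff.2 hne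
  obtain ⟨c, hc⟩ : ∃ c : ℝ, c = ‖Tr (θ.toFun T)‖ / (Fintype.card I + 1) := ⟨_, rfl⟩
  have hc0 : 0 < c := by rw [hc]; positivity
  have hi : ∀ n, ∃ i : I, c ≤ ‖θ.toFun (y n) (dl (i, 1))‖ := by
    intro n
    by_contra hcon
    push Not at hcon
    have h1 : ‖Tr (θ.toFun (y n))‖ ≤ ∑ i : I, c := by
      unfold Tr
      refine (norm_sum_le _ _).trans (Finset.sum_le_sum fun i _ => ?_)
      refine (norm_inner_le_norm _ _).trans ?_
      rw [norm_dl, one_mul]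
      exact (hcon i).le
    rw [(hyC n).2.2.1, Finset.sum_const, Finset.card_univ, nsmul_eq_mul] at h1
    have h2 : ‖Tr (θ.toFun T)‖ = c * (Fintype.card I + 1) := by
      rw [hc]
      field_simp
    nlinarith
  choose i hi using hi
  obtain ⟨j, hj⟩ := Finite.exists_infinite_fiber i
  have hfr : ∃ᶠ n in atTop, i n = j := by
    rw [Nat.frequently_atTop_iff_infinite]
    exact Set.infinite_coe_iff.1 hj
  obtain ⟨φ, hφ, hφj⟩ := extraction_of_frequently_atTop hfr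
  refine θ.normal_key hp hpp hpe (dl (j, 1)) (fun n => y (φ n)) (fun n => (hyC _).1)
    (fun n => (hyC _).2.1) (fun n => ?_) (c ^ 2) (by positivity) fun n => ?_
  · refine (hyn (φ n)).trans ?_
    exact pow_le_pow_of_le_one (by norm_num) (by norm_num) (hφ.id_le n)
  · have hm := (hyC (φ n)).1
    have h3 : inner ℂ (dl (j, 1) : Ell2 (I × Λ)) (θ.toFun (star (y (φ n)) * y (φ n)) (dl (j, 1))) =
        ((‖θ.toFun (y (φ n)) (dl (j, 1))‖ ^ 2 : ℝ) : ℂ) := by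
      rw [θ.map_mul _ (star_mem hm) _ hm, θ.map_star hm]
      change inner ℂ (dl (j, 1) : Ell2 (I × Λ))
        ((star (θ.toFun (y (φ n)))) (θ.toFun (y (φ n)) (dl (j, 1)))) = _
      rw [← H108.star_apply_inner, star_star, inner_self_eq_norm_sq_to_K]
      norm_cast
    rw [h3, Complex.ofReal_re]
    have h4 := hi (φ n)
    rw [hφj n] at h4
    gcongr

/-- the isomorphism multiplies the trace by `Tr p` -/
theorem CIso.Tr_eq (hG : ∀ g : G, g ≠ 1 → Set.Infinite {y : G | ∃ h, y = h * g * h⁻¹})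
    (hp : adjoint p = p) (hpp : p * p = p) (hpe : Eqv (RrH I Λ) p)
    {T : Ell2 G →L[ℂ] Ell2 G} (hT : T ∈ LG G) :
    Tr (θ.toFun T) = (T (dl 1)) 1 * Tr p := by
  obtain ⟨t, ht⟩ : ∃ t : ℂ, t = (T (dl 1)) 1 := ⟨_, rfl⟩
  obtain ⟨S, hS⟩ : ∃ S : Ell2 G →L[ℂ] Ell2 G, S = T - t • 1 := ⟨_, rfl⟩
  have h1M : (t • 1 : Ell2 G →L[ℂ] Ell2 G) ∈ LG G := (LG G).smul_mem (one_mem _) _
  have hSM : S ∈ LG G := by rw [hS]; exact sub_mem hT h1M
  have hS0 : (S (dl 1)) 1 = 0 := by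
    rw [hS]
    change (T (dl 1)) 1 - t * (dl 1 : Ell2 G) 1 = 0
    rw [dl_self, ← ht, mul_one, sub_self]
  obtain ⟨c, hc⟩ : ∃ c : ℝ, c = (‖S‖ + 1)⁻¹ := ⟨_, rfl⟩
  have hn : 0 < ‖S‖ + 1 := by positivity
  have hc0 : 0 < c := by rw [hc]; positivity
  have h1 := θ.Tr_zero hG hp hpp hpe ((LG G).smul_mem hSM (c : ℂ)) (by
    rw [norm_smul, Complex.norm_real, Real.norm_of_nonneg hc0.le, hc, inv_mul_le_iff₀ hn]
    linarith) (by
    change (c : ℂ) * (S (dl 1)) 1 = 0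
    rw [hS0, mul_zero])
  rw [θ.map_smul _ _ hSM, Tr_smulC, mul_eq_zero] at h1
  have h2 : Tr (θ.toFun S) = 0 := by
    rcases h1 with h1 | h1
    · exact absurd (Complex.ofReal_eq_zero.1 h1) hc0.ne'
    · exact h1
  have h3 : T = S + t • 1 := by rw [hS]; abel
  rw [← ht]
  conv_lhs => rw [h3]
  rw [θ.map_add _ hSM _ h1M, θ.map_smul _ _ (one_mem _), θ.map_one hp hpp hpe, Tr_addC, Tr_smulC,
    h2, zero_add]

theorem CIso.hsn_eq (hG : ∀ g : G, g ≠ 1 → Set.Infinite {y : G | ∃ h, y = h * g * h⁻¹})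
    (hp : adjoint p = p) (hpp : p * p = p) (hpe : Eqv (RrH I Λ) p)
    {T : Ell2 G →L[ℂ] Ell2 G} (hT : T ∈ LG G) :
    ((hsn (θ.toFun T) : ℝ) : ℂ) = ((‖T (dl 1)‖ ^ 2 : ℝ) : ℂ) * Tr p := by
  rw [← hs_self, hs_eq_Tr]
  have h1 : ContinuousLinearMap.adjoint (θ.toFun T) ∘L θ.toFun T =
      θ.toFun (star T * T) := by
    rw [θ.map_mul _ (star_mem hT) _ hT, θ.map_star hT]
    rfl
  rw [h1, θ.Tr_eq hG hp hpp hpe (mul_mem (star_mem hT) hT)]
  congr 1
  rw [← inner_dl]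
  change inner ℂ (dl 1 : Ell2 G) ((star T) (T (dl 1))) = _
  rw [← H108.star_apply_inner, star_star, inner_self_eq_norm_sq_to_K]
  norm_cast

/-- **the amplified frame of a `*`-isomorphism onto a corner** -/
theorem CIso.aframe (hG : ∀ g : G, g ≠ 1 → Set.Infinite {y : G | ∃ h, y = h * g * h⁻¹})
    (hp : adjoint p = p) (hpp : p * p = p) (hp0 : p ≠ 0) (hpe : Eqv (RrH I Λ) p) :
    AFrame p (fun g : G => θ.toFun (lam g)) where
  p_adj := hp
  p_idem := hpp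
  p_ne := hp0
  one := by
    change θ.toFun (lam 1) = p
    rw [lam_one, θ.map_one hp hpp hpe]
  mul g h := by
    change θ.toFun (lam (g * h)) = _
    rw [lam_mul, θ.map_mul _ (lam_mem_LG g) _ (lam_mem_LG h)]
  adj g := by
    change adjoint (θ.toFun (lam g)) = θ.toFun (lam g⁻¹)
    rw [← θ.map_adj _ (lam_mem_LG g), adjoint_lam]
  eqv g := (θ.map_mem _ (lam_mem_LG g)).1
  orth g hg := by
    change Tr (θ.toFun (lam g)) = 0
    rw [θ.Tr_eq hG hp hpp hpe (lam_mem_LG g), lam_dl, mul_one, dl_ne (Ne.symm hg), zero_mul]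
  tot A hA hA1 hA2 ε hε := by
    have hAC : InC p A := ⟨hA, hA1, hA2⟩
    obtain ⟨B, hB⟩ : ∃ B, B = θ.invFun A := ⟨_, rfl⟩
    have hBM : B ∈ LG G := by rw [hB]; exact θ.inv_mem A hAC
    have hBA : θ.toFun B = A := by rw [hB]; exact θ.right_inv A hAC
    have h1 := hasSum_dl (B (dl 1))
    obtain ⟨η, hη⟩ : ∃ η : ℝ, η = ε / (‖Tr p‖ + 1) := ⟨_, rfl⟩
    have hη0 : 0 < η := by rw [hη]; positivity
    have h2 : Tendsto (fun F : Finset G => ‖B (dl 1) - ∑ g ∈ F, (B (dl 1)) g • (dl g : Ell2 G)‖ ^ 2)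
        atTop (𝓝 0) := by
      have h3 : Tendsto (fun F : Finset G =>
          ‖B (dl 1) - ∑ g ∈ F, (B (dl 1)) g • (dl g : Ell2 G)‖ ^ 2)
          atTop (𝓝 (‖B (dl 1) - B (dl 1)‖ ^ 2)) := ((tendsto_const_nhds.sub h1).norm).pow 2
      rwa [sub_self, norm_zero, zero_pow two_ne_zero] at h3
    obtain ⟨F, hF⟩ := (h2.eventually (gt_mem_nhds hη0)).exists
    refine ⟨F, fun g => (B (dl 1)) g, ?_⟩
    have hlM : ∀ g ∈ F, ((B (dl 1)) g • lam g : Ell2 G →L[ℂ] Ell2 G) ∈ LG G :=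
      fun g _ => (LG G).smul_mem (lam_mem_LG g) _
    have hsM : (∑ g ∈ F, (B (dl 1)) g • lam g : Ell2 G →L[ℂ] Ell2 G) ∈ LG G := sum_mem hlM
    have h4 : A - ∑ g ∈ F, (B (dl 1)) g • θ.toFun (lam g) =
        θ.toFun (B - ∑ g ∈ F, (B (dl 1)) g • lam g) := by
      rw [θ.map_sub hBM hsM, θ.map_sum F hlM, hBA]
      congr 1
      refine Finset.sum_congr rfl fun g _ => ?_
      rw [θ.map_smul _ _ (lam_mem_LG g)]
    have h5 := θ.hsn_eq hG hp hpp hpe (sub_mem hBM hsM)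
    have h6 : (B - ∑ g ∈ F, (B (dl 1)) g • lam g : Ell2 G →L[ℂ] Ell2 G) (dl 1) =
        B (dl 1) - ∑ g ∈ F, (B (dl 1)) g • (dl g : Ell2 G) := by
      rw [ContinuousLinearMap.sub_apply, ContinuousLinearMap.sum_apply]
      congr 1
      refine Finset.sum_congr rfl fun g _ => ?_
      change (B (dl 1)) g • lam g (dl 1) = _
      rw [lam_dl, mul_one]
    rw [h6] at h5
    have h7 : hsn (θ.toFun (B - ∑ g ∈ F, (B (dl 1)) g • lam g)) =
        ‖B (dl 1) - ∑ g ∈ F, (B (dl 1)) g • (dl g : Ell2 G)‖ ^ 2 * ‖Tr p‖ := by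
      have h8 := congrArg norm h5
      rw [Complex.norm_real, norm_mul, Complex.norm_real, Real.norm_of_nonneg (hsn_nonneg _),
        Real.norm_of_nonneg (by positivity)] at h8
      exact h8
    change hsn (A - ∑ g ∈ F, (B (dl 1)) g • θ.toFun (lam g)) ≤ ε
    rw [h4, h7]
    calc _ ≤ η * ‖Tr p‖ := by gcongr
      _ ≤ η * (‖Tr p‖ + 1) := by gcongr; linarith
      _ = ε := by rw [hη]; field_simp

end iso

end Vale.Agent.P092.H367
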