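import Vale.Agent.P092.R3.H423.Sub
import Vale.Agent.P092.R3.H547.Lam

/-!
Without operators intertwining on a subgroup, the fourth power sums are simultaneously small on
finitely many two-sided translates of one element of the subgroup.
-/

set_option linter.all false

open scoped InnerProductSpace
open Filter Topology ContinuousLinearMap

namespace Vale.Agent.P092.H381

open Vale.Agent.P092.H160 hiding A3
open Vale.Agent.P092.H367 Vale.Agent.P092.H423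

section small

variable {I Λ Γ : Type} [Fintype I] [Group Λ] [Group Γ]
  {p : Ell2 (I × Λ) →L[ℂ] Ell2 (I × Λ)} {α : Γ → (Ell2 (I × Λ) →L[ℂ] Ell2 (I × Λ))}

theorem inner_vT (hα : AFrame p α) (a h b : Γ) :
    ⟪vc (vT α) a⁻¹, vc (vT α) (h * b)⟫_ℂ = (f4 (α (a * h * b)) : ℂ) := by
  rw [inner_vc]
  have h1 := gramT hα a a⁻¹ (h * b)
  rw [mul_inv_cancel, ← mul_assoc] at h1
  rw [← h1, vT, vT, coeff_f4 hα]

theorem small_of_no (hα : AFrame p α) {A : Subgroup Γ} (hno : ∀ T, ItwH α A T → T = 0)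
    (E : Finset Γ) {ε : ℝ} (hε : 0 < ε) :
    ∃ h ∈ A, ∀ a ∈ E, ∀ b ∈ E, f4 (α (a * h * b)) < ε := by
  by_contra hcon
  push Not at hcon
  have hv := gramT hα
  have hz : ∀ b : Γ, ∀ ε > (0 : ℝ), ∃ c : A →₀ ℂ, (c.sum fun _ a => a) = 1 ∧
      ‖Finsupp.linearCombination ℂ (fun g : A => vT α (g * b)) c‖ ≤ ε := by
    intro b
    have h0 := (itwA_or_zero hα A b).resolve_left (by
      rintro ⟨T, hT, hne⟩
      exact hne (hno T hT))
    exact smallA A b h0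
  obtain ⟨x, hx⟩ : ∃ x : HC (vT α), x = ∑ a ∈ E, vc (vT α) a⁻¹ := ⟨_, rfl⟩
  obtain ⟨y, hy⟩ : ∃ y : HC (vT α), y = ∑ b ∈ E, vc (vT α) b := ⟨_, rfl⟩
  have hxy : ∀ h : Γ, ⟪x, piC hv h y⟫_ℂ = ((∑ a ∈ E, ∑ b ∈ E, f4 (α (a * h * b)) : ℝ) : ℂ) := by
    intro h
    rw [hx, hy, map_sum, sum_inner, Complex.ofReal_sum]
    refine Finset.sum_congr rfl fun a _ => ?_
    rw [inner_sum, Complex.ofReal_sum]
    refine Finset.sum_congr rfl fun b _ => ?_
    rw [← inner_vT hα]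
    congr 1
    exact UC_vc hv h b
  have hge : ∀ h ∈ A, ε ≤ ∑ a ∈ E, ∑ b ∈ E, f4 (α (a * h * b)) := by
    intro h hh
    obtain ⟨a, ha, b, hb, h1⟩ := hcon h hh
    refine h1.trans ?_
    refine le_trans ?_ (Finset.single_le_sum (f := fun a => ∑ b ∈ E, f4 (α (a * h * b)))
      (fun _ _ => Finset.sum_nonneg fun _ _ => f4_nonneg _) ha)
    exact Finset.single_le_sum (f := fun b => f4 (α (a * h * b)))
      (fun _ _ => f4_nonneg _) hb
  obtain ⟨ζ, hζ, hw⟩ := L547.exists_weights_gen (G := A) (fun g : A => piC hv (g : Γ))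
    (fun g h => (piC hv).map_mul (g : Γ) (h : Γ))
    (fun g w => (H885.u_norm (piC_adj hv) (g : Γ) w).le) y
  have hζ0 : ζ = 0 := no_inv hv A hz fun g hg => hζ ⟨g, hg⟩
  obtain ⟨J, hJ, c, g, hc0, hc1, hd⟩ := hw (ε / (2 * (‖x‖ + 1))) (by positivity)
  rw [hζ0, sub_zero] at hd
  have h1 : ⟪x, ∑ j, (c j : ℂ) • piC hv (g j : Γ) y⟫_ℂ =
      ((∑ j, c j * ∑ a ∈ E, ∑ b ∈ E, f4 (α (a * (g j : Γ) * b)) : ℝ) : ℂ) := by
    rw [inner_sum, Complex.ofReal_sum]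
    refine Finset.sum_congr rfl fun j _ => ?_
    have h6 : ⟪x, (c j : ℂ) • piC hv (g j : Γ) y⟫_ℂ = (c j : ℂ) * ⟪x, piC hv (g j : Γ) y⟫_ℂ :=
      inner_smul_right x (piC hv (g j : Γ) y) (c j : ℂ)
    rw [h6, hxy, Complex.ofReal_mul]
  have h2 : ε ≤ ∑ j, c j * ∑ a ∈ E, ∑ b ∈ E, f4 (α (a * (g j : Γ) * b)) := by
    calc ε = ∑ j, c j * ε := by rw [← Finset.sum_mul, hc1, one_mul]
      _ ≤ _ := Finset.sum_le_sum fun j _ =>
        mul_le_mul_of_nonneg_left (hge _ (g j).2) (hc0 j)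
  have h3 := norm_inner_le_norm (𝕜 := ℂ) x (∑ j, (c j : ℂ) • piC hv (g j : Γ) y)
  rw [h1, Complex.norm_real, Real.norm_of_nonneg (hε.le.trans h2)] at h3
  have h4 : ‖x‖ * ‖∑ j, (c j : ℂ) • piC hv (g j : Γ) y‖ ≤
      (‖x‖ + 1) * (ε / (2 * (‖x‖ + 1))) := by
    gcongr
    linarith
  have h5 : (‖x‖ + 1) * (ε / (2 * (‖x‖ + 1))) = ε / 2 := by field_simp
  linarith

end small

end Vale.Agent.P092.H381
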