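import Vale.Agent.P092.R3.H381.Sub3
import Vale.Agent.P092.R3.H381.Sub6
import Vale.Agent.P092.R3.H423.StHt
import Vale.Agent.P092.R3.H423.SubHom
import Vale.Agent.P092.R3.H367.MatBri
import Vale.Agent.P092.R3.H547.Tight
import Vale.Agent.P092.R3.H547.Dim2

/-!
The dichotomy for subgroups, in elementary form.
-/

set_option linter.all false

open scoped InnerProductSpace
open Filter Topology ContinuousLinearMap

namespace Vale.Agent.P092.H381

open Vale.Agent.P092.H160 hiding A3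
open Vale.Agent.P092.H367 Vale.Agent.P092.H423 Sg

theorem dim_bound' {I Λ Γ : Type} [Fintype I] [Group Λ] [Group Γ]
    {p : Ell2 (I × Λ) →L[ℂ] Ell2 (I × Λ)} {α : Γ → (Ell2 (I × Λ) →L[ℂ] Ell2 (I × Λ))}
    (ha : AFrame p α)
    (hL : ∀ g : Λ, g ≠ 1 → Set.Infinite {y : Λ | ∃ h, y = h * g * h⁻¹})
    (J : Type) [Fintype J]
    (X : J → (Ell2 (I × Λ) →L[ℂ] Ell2 ((I × Λ) × (I × Λ) × (I × Λ)))) (hX : Ort p α X) :
    (Fintype.card J : ℝ) * hsn p ^ 2 ≤ 1 := by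
  classical
  obtain ⟨k, v, hv, hpv, hvv⟩ := H547.exists_tight hL ha.p_adj ha.p_idem ha.eqv_p ha.p_ne
  have h1 : ∀ j, A3 α 1 ∘L X j = X j := fun j => by
    ext1 w
    exact (hX.gd j).lp w
  refine H547.dim_bound ha v hv hpv hvv X (fun j => (hX.gd j).eqv) (fun j => by
    ext1 w
    exact (hX.gd j).rp w) h1 (fun a b y hy => ?_) hX.one
  by_cases h : y = 1
  · subst h
    rw [h1]
    exact hX.ort a b (hy.resolve_right fun h => h rfl)
  · exact hX.off a b y h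

/-- **The dichotomy for subgroups.** -/
theorem sub_all {Γ Λ : Type} [Group Γ] [Group Λ] (hL : Mt.ICC Λ) {n : ℕ} {p : Mt.Mat n Λ}
    (hp : Mt.IsProj p) (θ : Mt.AmpIso Γ Λ n p) :
    (Mt.Canon θ ∧ Mt.trM p = 1 ∧
      ∃ c : ℝ, 0 < c ∧ ∀ g, c ≤ Mt.four (θ.toFun (H160.St.u g))) ∨
    ∀ (H : Type) [Group H] (φ : H →* Γ) (A : Subgroup H), Sg.Adm (A.map φ) (Mt.trM p).re →
      Mt.SubDecay θ φ A ∧ ∀ (E : Finset Γ) (ε : ℝ), 0 < ε → ∃ h ∈ A, ∀ a ∈ E, ∀ b ∈ E,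
        Mt.four (θ.toFun (H160.St.u (a * φ h * b))) < ε := by
  by_cases hcan : Mt.Canon θ ∧ Mt.trM p = 1 ∧
      ∃ c : ℝ, 0 < c ∧ ∀ g, c ≤ Mt.four (θ.toFun (H160.St.u g))
  · exact Or.inl hcan
  refine Or.inr fun H _ φ A hA => ?_
  have hG := ricc_icc (adm_ricc hA)
  have ha := aframe_of hG (isProj_opM hp) (ofMt θ)
  have hF : ∀ g, f4 ((ofMt θ).toFun (H160.St.u g)) = Mt.four (θ.toFun (H160.St.u g)) := fun g => by
    rw [← four_eq ((inM_iff _).mpr (ha.eqv g)), ofMt_apply, four_opM]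
  have hFp : f4 (opM p) = Mt.four p := by
    rw [← four_eq (isProj_opM hp).mem, four_opM]
  have ht : (Mt.trM p).re = hsn (opM p) := by
    rw [← trM_opM, trM_eq, H781.Tr_p ha, Complex.ofReal_re]
  rw [ht] at hA
  rcases dich_ops ha hL (dim_bound' ha hL) hA with hc | hno
  · exfalso
    apply hcan
    have h1 := canonAmp_of_canW (ofMt θ) hc
    have h2 := H423.trM_of_canonAmp (ofMt θ) h1
    rw [trM_opM] at h2
    refine ⟨(canon_iff θ).mpr h1, h2, ?_⟩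
    obtain ⟨c, hc0, h3⟩ := canW_lower ha hc
    exact ⟨c, hc0, fun g => by rw [← hF]; exact h3 g⟩
  · refine ⟨?_, fun E ε hε => ?_⟩
    · have hd := decay_hom ha φ hno
      simp only [hF, hFp] at hd
      exact hd
    · obtain ⟨_, ⟨h, hh, rfl⟩, h1⟩ := small_of_no ha hno E hε
      refine ⟨h, hh, fun a haE b hb => ?_⟩
      rw [← hF]
      exact h1 a haE b hb

end Vale.Agent.P092.H381
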