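import Vale.Agent.P092.R3.H367.StMat

/-!
Definitions used in the statement for subgroups (P092): relatively ICC subgroups, the closure
condition, decay along a subgroup.
-/

namespace Vale.Agent.P092.H381.Sg

open Vale.Agent.P092.H367 Vale.Agent.P092.H160.St Vale.Agent.P092.H885

variable {Γ : Type} [Group Γ]

/-- `H` is relatively ICC in `Γ`: for every `g ≠ 1` in `Γ` the set `{h g h⁻¹ : h ∈ H}` is
infinite. -/
def RICC (H : Subgroup Γ) : Prop :=
  ∀ g : Γ, g ≠ 1 → Set.Infinite {y : Γ | ∃ h ∈ H, y = h * g * h⁻¹}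

/-- The conjugate `g H g⁻¹`. -/
def conj (g : Γ) (H : Subgroup Γ) : Subgroup Γ := H.map (MulAut.conj g).toMonoidHom

/-- `H` is relatively ICC, and `Γ` is the only subgroup `L ⊇ H` which contains every `g ∈ Γ` such
that `L ∩ g L g⁻¹` is relatively ICC. (It is enough that `Γ` is generated by the `g` such that
`H ∩ g H g⁻¹` is relatively ICC.) -/
def Spread (H : Subgroup Γ) : Prop :=
  RICC H ∧ ∀ L : Subgroup Γ, H ≤ L → (∀ g, RICC (L ⊓ conj g L) → g ∈ L) → L = ⊤

/-- The intersection of `H` and of the conjugates `g H g⁻¹`, `g ∈ F`. -/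
def inter (H : Subgroup Γ) (F : Finset Γ) : Subgroup Γ := H ⊓ ⨅ g ∈ F, conj g H

/-- The condition on the subgroup `H` and on the number `t`: either `2 t² > 1` and `H` is
relatively ICC with the closure property `Spread`, or the intersections of `H` with at most
`1 / t²` conjugates of `H` are relatively ICC (for instance `H` is relatively ICC and normal, or
`H = Γ` is ICC). -/
def Adm (H : Subgroup Γ) (t : ℝ) : Prop :=
  (1 < 2 * t ^ 2 ∧ Spread H) ∨ ∀ F : Finset Γ, F.card * t ^ 2 ≤ 1 → RICC (inter H F)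

end Vale.Agent.P092.H381.Sg
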