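import Vale.Agent.P092.R3.H367.Kaz
import Vale.Agent.P092.R3.H781.Gam0
import Vale.Agent.P092.R3.H381.StSub

/-!
Operators which are invariant under a relatively ICC subgroup: orthogonality of their translates,
orthonormal families.
-/

set_option linter.all false

open scoped InnerProductSpace
open Filter Topology ContinuousLinearMap

namespace Vale.Agent.P092.H381

open Vale.Agent.P092.H160 hiding A3
open Vale.Agent.P092.H367 Sg

section grp

variable {Γ : Type} [Group Γ]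

theorem mem_conj {g x : Γ} {H : Subgroup Γ} : x ∈ conj g H ↔ g⁻¹ * x * g ∈ H := by
  unfold conj
  rw [Subgroup.mem_map]
  constructor
  · rintro ⟨y, hy, rfl⟩
    change g⁻¹ * (g * y * g⁻¹) * g ∈ H
    have : g⁻¹ * (g * y * g⁻¹) * g = y := by group
    rw [this]
    exact hy
  · intro h
    refine ⟨_, h, ?_⟩
    change g * (g⁻¹ * x * g) * g⁻¹ = x
    group

theorem ricc_mono {H L : Subgroup Γ} (h : RICC H) (hl : H ≤ L) : RICC L := by
  intro g hg
  refine (h g hg).mono ?_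
  rintro y ⟨x, hx, rfl⟩
  exact ⟨x, hl hx, rfl⟩

theorem ricc_icc {H : Subgroup Γ} (h : RICC H) :
    ∀ g : Γ, g ≠ 1 → Set.Infinite {y : Γ | ∃ h, y = h * g * h⁻¹} := by
  intro g hg
  refine (h g hg).mono ?_
  rintro y ⟨x, hx, rfl⟩
  exact ⟨x, rfl⟩

theorem icc3H {H : Subgroup Γ} (hH : RICC H) (x : Γ × Γ × Γ) (hx : x ≠ 1) :
    Set.Infinite {y : Γ × Γ × Γ | ∃ h ∈ H, y = (h, h, h) * x * (h, h, h)⁻¹} := by
  intro hfin
  obtain ⟨a, b, c⟩ := x
  have h1 : a = 1 := by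
    by_contra h
    refine hH a h ((hfin.image Prod.fst).subset ?_)
    rintro _ ⟨h, hh, rfl⟩
    exact ⟨_, ⟨h, hh, rfl⟩, rfl⟩
  have h2 : b = 1 := by
    by_contra h
    refine hH b h ((hfin.image (fun p => p.2.1)).subset ?_)
    rintro _ ⟨h, hh, rfl⟩
    exact ⟨_, ⟨h, hh, rfl⟩, rfl⟩
  have h3 : c = 1 := by
    by_contra h
    refine hH c h ((hfin.image (fun p => p.2.2)).subset ?_)
    rintro _ ⟨h, hh, rfl⟩
    exact ⟨_, ⟨h, hh, rfl⟩, rfl⟩
  exact hx (by rw [h1, h2, h3]; rfl)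

end grp

section mix

variable {I Λ Γ : Type} [Fintype I] [Group Λ] [Group Γ]
  {p : Ell2 (I × Λ) →L[ℂ] Ell2 (I × Λ)} {α : Γ → (Ell2 (I × Λ) →L[ℂ] Ell2 (I × Λ))}

/-- Equivariant operators from the corner to the cube of the corner. -/
structure Gd3 (p : Ell2 (I × Λ) →L[ℂ] Ell2 (I × Λ)) (α : Γ → (Ell2 (I × Λ) →L[ℂ] Ell2 (I × Λ)))
    (T : Ell2 (I × Λ) →L[ℂ] Ell2 ((I × Λ) × (I × Λ) × (I × Λ))) : Prop where
  eqv : Eqv (R3H I Λ) T
  rp : ∀ v, T (p v) = T v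
  lp : ∀ v, A3 α 1 (T v) = T v

variable {S T : Ell2 (I × Λ) →L[ℂ] Ell2 ((I × Λ) × (I × Λ) × (I × Λ))}

theorem Gd3.lc (hS : Gd3 p α S) (hT : Gd3 p α T) (a b : ℂ) : Gd3 p α (a • S + b • T) where
  eqv := (hS.eqv.smul a).add (hT.eqv.smul b)
  rp v := by
    change a • S (p v) + b • T (p v) = a • S v + b • T v
    rw [hS.rp, hT.rp]
  lp v := by
    change A3 α 1 (a • S v + b • T v) = a • S v + b • T v
    rw [map_add, map_smul, map_smul, hS.lp, hT.lp]

theorem Gd3.cg (ha : AFrame p α) (hT : Gd3 p α T) (g : Γ) : Gd3 p α (cg α g T) where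
  eqv := cg_eqv ha g hT.eqv
  rp v := by
    rw [cg_apply, cg_apply, ← mul_ap (α g⁻¹) p, ha.mul_p]
  lp v := by
    rw [cg_apply, ← mul_ap (A3 α 1), ha.A3_mul, one_mul]

theorem Gd3.cg_one (ha : AFrame p α) (hT : Gd3 p α T) : H367.cg α 1 T = T := by
  ext1 v
  rw [cg_apply, inv_one, ha.one, hT.rp]
  exact hT.lp v

theorem Gd3.of_cg_one (ha : AFrame p α) (hE : Eqv (R3H I Λ) T) (h : H367.cg α 1 T = T) :
    Gd3 p α T where
  eqv := hE
  rp v := by
    rw [← h, cg_apply, cg_apply, ← mul_ap (α 1⁻¹) p, ha.mul_p]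
  lp v := by
    rw [← h, cg_apply, ← mul_ap (A3 α 1), ha.A3_mul, one_mul]

theorem hs_left (ha : AFrame p α) (y : Γ × Γ × Γ)
    (S T : Ell2 (I × Λ) →L[ℂ] Ell2 ((I × Λ) × (I × Λ) × (I × Λ))) :
    hs (A3 α y ∘L S) T = hs S (A3 α y⁻¹ ∘L T) := by
  unfold hs
  refine Finset.sum_congr rfl fun i _ => ?_
  change ⟪A3 α y (S (dl (i, 1))), T (dl (i, 1))⟫_ℂ = ⟪S (dl (i, 1)), A3 α y⁻¹ (T (dl (i, 1)))⟫_ℂ
  rw [← adjoint_inner_right, ha.A3_adj]

theorem hs_lc (S T T' : Ell2 (I × Λ) →L[ℂ] Ell2 ((I × Λ) × (I × Λ) × (I × Λ))) (a b : ℂ) :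
    hs S (a • T + b • T') = a * hs S T + b * hs S T' := by
  rw [← inner_vec, ← inner_vec, ← inner_vec, map_add, map_smul, map_smul, inner_add_right,
    inner_smul_right, inner_smul_right]

theorem hs_smul (S T : Ell2 (I × Λ) →L[ℂ] Ell2 ((I × Λ) × (I × Λ) × (I × Λ))) (a : ℂ) :
    hs S (a • T) = a * hs S T := by
  rw [← inner_vec, ← inner_vec, map_smul, inner_smul_right]

theorem hs_symm (S T : Ell2 (I × Λ) →L[ℂ] Ell2 ((I × Λ) × (I × Λ) × (I × Λ))) :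
    (starRingEnd ℂ) (hs S T) = hs T S := by
  rw [← inner_vec, ← inner_vec, inner_conj_symm]

theorem A3_lc (y : Γ × Γ × Γ) (S T : Ell2 (I × Λ) →L[ℂ] Ell2 ((I × Λ) × (I × Λ) × (I × Λ)))
    (a b : ℂ) : A3 α y ∘L (a • S + b • T) = a • (A3 α y ∘L S) + b • (A3 α y ∘L T) := by
  ext1 v
  change A3 α y (a • S v + b • T v) = a • A3 α y (S v) + b • A3 α y (T v)
  rw [map_add, map_smul, map_smul]

theorem hs_cg (ha : AFrame p α) (hS : Gd3 p α S) (hT : Gd3 p α T) (g : Γ) (y : Γ × Γ × Γ) :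
    hs (cg α g S) (A3 α ((g, g, g) * y * (g, g, g)⁻¹) ∘L cg α g T) = hs S (A3 α y ∘L T) := by
  have hE : Eqv (R3H I Λ) (A3 α (g, g, g) ∘L S) := hS.eqv.left fun s v => ha.A3_R3 _ s v
  have hE2 : Eqv (R3H I Λ) (A3 α ((g, g, g) * y * (g, g, g)⁻¹) ∘L cg α g T) :=
    (cg_eqv ha g hT.eqv).left fun s v => ha.A3_R3 _ s v
  have e1 : cg α g S = (A3 α (g, g, g) ∘L S) ∘L α g⁻¹ := rfl
  rw [e1, hs_comp adjoint_R3 hE hE2 (ha.eqv _), ha.adj, inv_inv, hs_left ha]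
  congr 1
  ext1 v
  change A3 α (g, g, g)⁻¹ (A3 α ((g, g, g) * y * (g, g, g)⁻¹)
    (A3 α (g, g, g) (T (α g⁻¹ (α g v))))) = A3 α y (T v)
  rw [← mul_ap (A3 α _) (A3 α (g, g, g)), ha.A3_mul, ← mul_ap, ha.A3_mul, ← mul_ap (α g⁻¹),
    ha.inv_mul_self, hT.rp]
  congr 2
  group

theorem hs_cg_cg (ha : AFrame p α) (hS : Gd3 p α S) (hT : Gd3 p α T) (g : Γ) :
    hs (cg α g S) (cg α g T) = hs S T := by
  have h := hs_cg ha hS hT g 1
  have e1 : (g, g, g) * (1 : Γ × Γ × Γ) * (g, g, g)⁻¹ = 1 := by group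
  rw [e1] at h
  have e2 : A3 α 1 ∘L cg α g T = cg α g T := by
    ext1 v
    exact (hT.cg ha g).lp v
  have e3 : A3 α 1 ∘L T = T := by
    ext1 v
    exact hT.lp v
  rw [e2, e3] at h
  exact h

theorem hsn_cg (ha : AFrame p α) (hT : Gd3 p α T) (g : Γ) : hsn (cg α g T) = hsn T := by
  have h := hs_cg_cg ha hT hT g
  rw [hs_self, hs_self] at h
  exact_mod_cast h

theorem hs_tendsto (ha : AFrame p α)
    (S T : Ell2 (I × Λ) →L[ℂ] Ell2 ((I × Λ) × (I × Λ) × (I × Λ))) :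
    Tendsto (fun y : Γ × Γ × Γ => hs S (A3 α y ∘L T)) cofinite (𝓝 0) := by
  have h1 : Tendsto (fun y : Γ × Γ × Γ => ∑ i : I, ⟪S (dl (i, 1)), A3 α y (T (dl (i, 1)))⟫_ℂ)
      cofinite (𝓝 (∑ i : I, (0 : ℂ))) :=
    tendsto_finsetSum _ fun i _ => H781.A3_mixing ha _ _
  rw [Finset.sum_const_zero] at h1
  exact h1

/-- Translates by different elements are orthogonal. -/
theorem hs_zero (ha : AFrame p α) {H : Subgroup Γ} (hH : RICC H) (hS : Gd3 p α S)
    (hT : Gd3 p α T) (h : ∀ g ∈ H, ∃ c d : ℂ, ‖c‖ = 1 ∧ ‖d‖ = 1 ∧ cg α g S = c • S ∧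
      cg α g T = d • T) (y : Γ × Γ × Γ) (hy : y ≠ 1) : hs S (A3 α y ∘L T) = 0 := by
  by_contra hne
  have h2 := (hs_tendsto ha S T).norm
  rw [norm_zero] at h2
  have hpos : 0 < ‖hs S (A3 α y ∘L T)‖ := norm_pos_iff.mpr hne
  have h3 := h2.eventually (gt_mem_nhds hpos)
  rw [Filter.eventually_cofinite] at h3
  refine icc3H hH y hy (h3.subset ?_)
  rintro z ⟨k, hk, rfl⟩
  obtain ⟨c, d, hc, hd, e1, e2⟩ := h k hk
  change ¬ (‖hs S (A3 α ((k, k, k) * y * (k, k, k)⁻¹) ∘L T)‖ < ‖hs S (A3 α y ∘L T)‖)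
  have h5 := hs_cg ha hS hT k y
  have h6 : hs (c • S) (A3 α ((k, k, k) * y * (k, k, k)⁻¹) ∘L (d • T)) =
      (starRingEnd ℂ) c * (d * hs S (A3 α ((k, k, k) * y * (k, k, k)⁻¹) ∘L T)) := by
    have e3 : A3 α ((k, k, k) * y * (k, k, k)⁻¹) ∘L (d • T) =
        d • (A3 α ((k, k, k) * y * (k, k, k)⁻¹) ∘L T) := by
      ext1 v
      change A3 α _ (d • T v) = d • A3 α _ (T v)
      rw [map_smul]
    rw [e3, hs_smul, ← hs_symm, hs_smul, map_mul, hs_symm]
    ring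
  rw [e1, e2, h6] at h5
  rw [← h5, norm_mul, norm_mul, RCLike.norm_conj, hc, hd, one_mul, one_mul]
  exact lt_irrefl _

/-! ### Orthonormal families -/

/-- Families whose translates form an orthonormal family. -/
structure Ort {J : Type} (p : Ell2 (I × Λ) →L[ℂ] Ell2 (I × Λ))
    (α : Γ → (Ell2 (I × Λ) →L[ℂ] Ell2 (I × Λ)))
    (X : J → (Ell2 (I × Λ) →L[ℂ] Ell2 ((I × Λ) × (I × Λ) × (I × Λ)))) : Prop where
  gd : ∀ j, Gd3 p α (X j)
  off : ∀ a b y, y ≠ 1 → hs (X a) (A3 α y ∘L X b) = 0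
  ort : ∀ a b, a ≠ b → hs (X a) (X b) = 0
  one : ∀ a, hsn (X a) = 1

theorem off_symm (ha : AFrame p α)
    (h : ∀ y : Γ × Γ × Γ, y ≠ 1 → hs S (A3 α y ∘L T) = 0) (y : Γ × Γ × Γ) (hy : y ≠ 1) :
    hs T (A3 α y ∘L S) = 0 := by
  rw [← hs_symm, hs_left ha, h _ (inv_ne_one.mpr hy), map_zero]

variable {J : Type} [Fintype J]
  {X : J → (Ell2 (I × Λ) →L[ℂ] Ell2 ((I × Λ) × (I × Λ) × (I × Λ)))}

omit [Fintype J] in
theorem gd_sum (hX : ∀ j, Gd3 p α (X j)) (F : Finset J) (c : J → ℂ) :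
    Gd3 p α (∑ j ∈ F, c j • X j) := by
  classical
  induction F using Finset.induction_on with
  | empty =>
    rw [Finset.sum_empty]
    exact ⟨Eqv.zero, fun v => rfl, fun v => by rw [zero_apply, map_zero]⟩
  | insert a s ha ih =>
    rw [Finset.sum_insert ha]
    have h := (hX a).lc ih (c a) 1
    rw [one_smul] at h
    exact h

/-- The part of `S` orthogonal to the family. -/
noncomputable def rest (X : J → (Ell2 (I × Λ) →L[ℂ] Ell2 ((I × Λ) × (I × Λ) × (I × Λ))))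
    (S : Ell2 (I × Λ) →L[ℂ] Ell2 ((I × Λ) × (I × Λ) × (I × Λ))) :
    Ell2 (I × Λ) →L[ℂ] Ell2 ((I × Λ) × (I × Λ) × (I × Λ)) := S - ∑ a, hs (X a) S • X a

theorem hs_sum (S : Ell2 (I × Λ) →L[ℂ] Ell2 ((I × Λ) × (I × Λ) × (I × Λ))) (c : J → ℂ) :
    hs S (∑ a, c a • X a) = ∑ a, c a * hs S (X a) := by
  rw [← inner_vec, map_sum, inner_sum]
  refine Finset.sum_congr rfl fun a _ => ?_
  rw [map_smul, inner_smul_right, inner_vec]

theorem hs_rest (S R : Ell2 (I × Λ) →L[ℂ] Ell2 ((I × Λ) × (I × Λ) × (I × Λ))) :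
    hs R (rest X S) = hs R S - ∑ a, hs (X a) S * hs R (X a) := by
  unfold rest
  rw [← hs_sum, ← inner_vec, map_sub, inner_sub_right, inner_vec, inner_vec]

theorem A3_rest (y : Γ × Γ × Γ)
    (S R : Ell2 (I × Λ) →L[ℂ] Ell2 ((I × Λ) × (I × Λ) × (I × Λ))) :
    hs R (A3 α y ∘L rest X S) = hs R (A3 α y ∘L S) - ∑ a, hs (X a) S * hs R (A3 α y ∘L X a) := by
  have h1 : A3 α y ∘L rest X S = A3 α y ∘L S - ∑ a, hs (X a) S • (A3 α y ∘L X a) := by
    unfold rest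
    ext1 v
    change A3 α y ((S - ∑ a, hs (X a) S • X a) v) = _
    rw [sub_apply, sub_apply, map_sub, sum_apply, sum_apply, map_sum]
    congr 1
    refine Finset.sum_congr rfl fun a _ => ?_
    change A3 α y (hs (X a) S • X a v) = hs (X a) S • A3 α y (X a v)
    rw [map_smul]
  rw [h1, ← inner_vec, map_sub, inner_sub_right, inner_vec, inner_vec, hs_sum]

theorem ort_rest (hX : Ort p α X)
    (S : Ell2 (I × Λ) →L[ℂ] Ell2 ((I × Λ) × (I × Λ) × (I × Λ))) (b : J) :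
    hs (X b) (rest X S) = 0 := by
  rw [hs_rest, Finset.sum_eq_single b]
  · rw [hs_self, hX.one, Complex.ofReal_one, mul_one, sub_self]
  · intro a _ ha
    rw [hX.ort b a ha.symm, mul_zero]
  · intro h; exact absurd (Finset.mem_univ b) h

/-- Either `S` is in the span of the family or the family can be extended. -/
theorem extend (ha : AFrame p α) (hX : Ort p α X) (hS : Gd3 p α S)
    (hXS : ∀ a y, y ≠ 1 → hs (X a) (A3 α y ∘L S) = 0)
    (hSS : ∀ y, y ≠ 1 → hs S (A3 α y ∘L S) = 0) :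
    S = ∑ a, hs (X a) S • X a ∨
      ∃ c : ℂ, Ort p α (fun o : Option J => o.elim (c • rest X S) X) := by
  have hR : Gd3 p α (rest X S) := by
    have h := hS.lc (gd_sum hX.gd Finset.univ fun a => hs (X a) S) 1 (-1)
    rw [one_smul, neg_smul, one_smul, ← sub_eq_add_neg] at h
    exact h
  by_cases h0 : rest X S = 0
  · left
    unfold rest at h0
    exact sub_eq_zero.mp h0
  · right
    have hpos : 0 < hsn (rest X S) :=
      lt_of_le_of_ne (hsn_nonneg _) fun h => h0 (hsn_eq_zero hR.eqv h.symm)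
    have hXR : ∀ a y, y ≠ 1 → hs (X a) (A3 α y ∘L rest X S) = 0 := by
      intro a y hy
      rw [A3_rest, hXS a y hy, Finset.sum_eq_zero, sub_zero]
      intro b _
      rw [hX.off a b y hy, mul_zero]
    have hSR : ∀ y, y ≠ 1 → hs S (A3 α y ∘L rest X S) = 0 := by
      intro y hy
      rw [A3_rest, hSS y hy, Finset.sum_eq_zero, sub_zero]
      intro b _
      rw [off_symm ha (hXS b) y hy, mul_zero]
    have hRR : ∀ y, y ≠ 1 → hs (rest X S) (A3 α y ∘L rest X S) = 0 := by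
      intro y hy
      rw [A3_rest, off_symm ha hSR y hy, Finset.sum_eq_zero, sub_zero]
      intro b _
      rw [off_symm ha (hXR b) y hy, mul_zero]
    have hsc : ∀ (c : ℂ) (y : Γ × Γ × Γ)
        (R R' : Ell2 (I × Λ) →L[ℂ] Ell2 ((I × Λ) × (I × Λ) × (I × Λ))),
        hs R (A3 α y ∘L R') = 0 → hs R (A3 α y ∘L (c • R')) = 0 := by
      intro c y R R' h
      have e3 : A3 α y ∘L (c • R') = c • (A3 α y ∘L R') := by
        ext1 v
        change A3 α _ (c • R' v) = c • A3 α _ (R' v)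
        rw [map_smul]
      rw [e3, hs_smul, h, mul_zero]
    obtain ⟨c, hc⟩ : ∃ c : ℂ, c = (((Real.sqrt (hsn (rest X S)))⁻¹ : ℝ) : ℂ) := ⟨_, rfl⟩
    have hc1 : ∀ y, y ≠ 1 → hs (c • rest X S) (A3 α y ∘L (c • rest X S)) = 0 := by
      intro y hy
      refine hsc _ _ _ _ ?_
      refine off_symm ha (fun y hy => hsc _ _ _ _ (hRR y hy)) y hy
    refine ⟨c, ⟨?_, ?_, ?_, ?_⟩⟩
    · rintro (_ | j)
      · have h := hR.lc hR c 0
        rw [zero_smul, add_zero] at h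
        exact h
      · exact hX.gd j
    · rintro (_ | a) (_ | b) y hy
      · exact hc1 y hy
      · exact off_symm ha (fun y hy => hsc _ _ _ _ (hXR b y hy)) y hy
      · exact hsc _ _ _ _ (hXR a y hy)
      · exact hX.off a b y hy
    · rintro (_ | a) (_ | b) hab
      · exact absurd rfl hab
      · change hs (c • rest X S) (X b) = 0
        rw [← hs_symm, hs_smul, ort_rest hX, mul_zero, map_zero]
      · change hs (X a) (c • rest X S) = 0
        rw [hs_smul, ort_rest hX, mul_zero]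
      · exact hX.ort a b fun h => hab (by rw [h])
    · rintro (_ | a)
      · change hsn (c • rest X S) = 1
        have h1 : ((hsn (c • rest X S) : ℝ) : ℂ) = ((1 : ℝ) : ℂ) := by
          rw [← hs_self, hs_smul, ← hs_symm, hs_smul, map_mul, hs_symm, hs_self, hc,
            Complex.conj_ofReal, ← Complex.ofReal_mul, ← Complex.ofReal_mul]
          congr 1
          rw [← mul_assoc, ← mul_inv, Real.mul_self_sqrt hpos.le, inv_mul_cancel₀ hpos.ne']
        exact_mod_cast h1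
      · exact hX.one a

end mix

end Vale.Agent.P092.H381
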