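import Mathlib.Analysis.InnerProductSpace.Basic
import Vale.Agent.P092.H885.KDefs

/-!
A group with a Kazhdan pair has one for every nonempty finite generating set.
-/

set_option linter.all false

namespace Vale.Agent.P092.H367

open Vale.Agent.P092.H885

section disp

variable {Γ : Type} [Group Γ] {H : Type} [NormedAddCommGroup H] [InnerProductSpace ℂ H]
  (π : URep Γ H)

theorem urep_sub (g : Γ) (v w : H) : π.act g (v - w) = π.act g v - π.act g w := by
  have h := π.act_add g (v - w) w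
  rw [sub_add_cancel] at h
  rw [h, add_sub_cancel_right]

theorem urep_zero (g : Γ) : π.act g 0 = 0 := by
  have h := urep_sub π g 0 0
  rwa [sub_self, sub_self] at h

theorem urep_disp_mul (g h : Γ) (v : H) :
    ‖π.act (g * h) v - v‖ ≤ ‖π.act g v - v‖ + ‖π.act h v - v‖ := by
  have e : π.act (g * h) v - v = π.act g (π.act h v - v) + (π.act g v - v) := by
    rw [π.act_mul, urep_sub]
    abel
  rw [e]
  refine (norm_add_le _ _).trans ?_
  rw [π.norm_act, add_comm]

theorem urep_disp_inv (g : Γ) (v : H) : ‖π.act g⁻¹ v - v‖ = ‖π.act g v - v‖ := by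
  rw [← π.norm_act g (π.act g⁻¹ v - v), urep_sub, ← π.act_mul, mul_inv_cancel, π.act_one,
    norm_sub_rev]

end disp

variable {Γ : Type} [Group Γ]

theorem word_urep (Q : Set Γ) {g : Γ} (hg : g ∈ Subgroup.closure Q) :
    ∃ C : ℕ, ∀ (H : Type) [NormedAddCommGroup H] [InnerProductSpace ℂ H] (π : URep Γ H) (v : H)
      (c : ℝ), (∀ t ∈ Q, ‖π.act t v - v‖ ≤ c) → ‖π.act g v - v‖ ≤ C * c := by
  induction hg using Subgroup.closure_induction with
  | mem s hs =>
    refine ⟨1, fun H _ _ π v c h => ?_⟩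
    rw [Nat.cast_one, one_mul]; exact h s hs
  | one =>
    refine ⟨0, fun H _ _ π v c h => ?_⟩
    rw [π.act_one, sub_self, norm_zero, Nat.cast_zero, zero_mul]
  | mul a b _ _ iha ihb =>
    obtain ⟨C1, h1⟩ := iha
    obtain ⟨C2, h2⟩ := ihb
    refine ⟨C1 + C2, fun H _ _ π v c h => ?_⟩
    refine (urep_disp_mul π a b v).trans ?_
    push_cast
    have := h1 H π v c h
    have := h2 H π v c h
    linarith
  | inv a _ ih =>
    obtain ⟨C, h1⟩ := ih
    refine ⟨C, fun H _ _ π v c h => ?_⟩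
    rw [urep_disp_inv]
    exact h1 H π v c h

/-- A Kazhdan pair for every nonempty finite generating set. -/
theorem kazhdan_gen (h : ∃ (Q : Finset Γ) (ε : ℝ), IsKazhdanPair Γ Q ε) {Q : Finset Γ}
    (hQ : Q.Nonempty) (hgen : Subgroup.closure (Q : Set Γ) = ⊤) :
    ∃ ε : ℝ, IsKazhdanPair Γ Q ε := by
  obtain ⟨Q0, ε0, hε0, hK⟩ := h
  have hex : ∀ s : Γ, ∃ C : ℕ, ∀ (H : Type) [NormedAddCommGroup H] [InnerProductSpace ℂ H]
      (π : URep Γ H) (v : H) (c : ℝ), (∀ t ∈ (Q : Set Γ), ‖π.act t v - v‖ ≤ c) →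
      ‖π.act s v - v‖ ≤ C * c := fun s =>
    word_urep (Q : Set Γ) (by rw [hgen]; trivial)
  choose C hC using hex
  set D : ℕ := ∑ s ∈ Q0, C s with hD
  have hD0 : (0 : ℝ) ≤ D := Nat.cast_nonneg _
  refine ⟨ε0 / (D + 1), by positivity, fun H _ _ _ π hπ v => ?_⟩
  by_contra hcon
  push Not at hcon
  obtain ⟨t, ht⟩ := hQ
  have hv0 : 0 < ‖v‖ := by
    have h1 := (norm_nonneg _).trans_lt (hcon t ht)
    by_contra h2
    have h3 : ‖v‖ = 0 := le_antisymm (not_lt.mp h2) (norm_nonneg _)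
    rw [h3, mul_zero] at h1
    exact lt_irrefl _ h1
  obtain ⟨s, hs, h1⟩ := hK H π hπ v
  have h2 := hC s H π v (ε0 / (D + 1) * ‖v‖) (fun t ht => (hcon t ht).le)
  have h3 : (C s : ℝ) ≤ D := by
    have h4 : C s ≤ D := Finset.single_le_sum (f := C) (fun _ _ => Nat.zero_le _) hs
    exact_mod_cast h4
  have h5 : (C s : ℝ) * (ε0 / (D + 1) * ‖v‖) ≤ D * (ε0 / (D + 1) * ‖v‖) := by gcongr
  have h6 : (D : ℝ) * (ε0 / (D + 1) * ‖v‖) < ε0 * ‖v‖ := by
    have e : (D : ℝ) * (ε0 / (D + 1) * ‖v‖) = (D / (D + 1)) * (ε0 * ‖v‖) := by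
      field_simp
    rw [e]
    have h7 : (D : ℝ) / (D + 1) < 1 := by
      rw [div_lt_one (by positivity)]
      linarith
    have h8 : 0 < ε0 * ‖v‖ := by positivity
    calc _ < 1 * (ε0 * ‖v‖) := by gcongr
      _ = _ := one_mul _
  linarith

/-- The set of a Kazhdan pair is nonempty. -/
theorem kazhdan_nonempty {Q : Finset Γ} {ε : ℝ} (h : IsKazhdanPair Γ Q ε) : Q.Nonempty := by
  obtain ⟨s, hs, -⟩ := h.2 PUnit
    { act := fun _ v => v
      act_add := fun _ _ _ => rfl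
      act_smul := fun _ _ _ => rfl
      norm_act := fun _ _ => rfl
      act_one := fun _ => rfl
      act_mul := fun _ _ _ => rfl } (fun _ _ => Subsingleton.elim _ _) 0
  exact ⟨s, hs⟩

end Vale.Agent.P092.H367
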