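import Vale.Agent.P092.R2.H32.T0
import Vale.Agent.P092.H350.BG
import Vale.Agent.P092.H350.LinAlg
import Vale.Agent.P092.H885.KDefs

/-!
Property (T) of `SL_n(ℤ)`, `n ≥ 3`, in the form of a Kazhdan pair.
-/

set_option linter.all false

open Matrix
open scoped Pointwise

namespace Vale.Agent.P092.H367.SlnT

open Vale.Agent.P092.R2.H32 Vale.Agent.P092.H885

variable {n : ℕ}

/-- `1 + k E_ij` -/
def es (i j : Fin n) (hij : i ≠ j) (k : ℤ) : SpecialLinearGroup (Fin n) ℤ :=
  ⟨transvection i j k, det_transvection_of_ne i j hij k⟩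

theorem es_val (i j : Fin n) (hij : i ≠ j) (k : ℤ) :
    ((es i j hij k : SpecialLinearGroup (Fin n) ℤ) : Matrix (Fin n) (Fin n) ℤ) =
      transvection i j k := rfl

theorem sext {a b : SpecialLinearGroup (Fin n) ℤ}
    (h : (a : Matrix (Fin n) (Fin n) ℤ) = (b : Matrix (Fin n) (Fin n) ℤ)) : a = b :=
  Subtype.ext h

theorem smul_val (a b : SpecialLinearGroup (Fin n) ℤ) :
    ((a * b : SpecialLinearGroup (Fin n) ℤ) : Matrix (Fin n) (Fin n) ℤ) =
      (a : Matrix (Fin n) (Fin n) ℤ) * (b : Matrix (Fin n) (Fin n) ℤ) := rfl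

theorem es_add {i j : Fin n} (hij : i ≠ j) (k l : ℤ) :
    es i j hij (k + l) = es i j hij k * es i j hij l := by
  apply sext
  rw [smul_val, es_val, es_val, es_val, transvection_mul_transvection_same _ _ hij]

theorem es_zero {i j : Fin n} (hij : i ≠ j) : es i j hij 0 = 1 := by
  apply sext
  rw [es_val, transvection_zero]
  rfl

theorem es_zpow {i j : Fin n} (hij : i ≠ j) (k m : ℤ) : es i j hij k ^ m = es i j hij (m * k) := by
  let f : Multiplicative ℤ →* SpecialLinearGroup (Fin n) ℤ :=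
    { toFun := fun k => es i j hij k.toAdd
      map_one' := es_zero hij
      map_mul' := fun k l => es_add hij _ _ }
  have h := map_zpow f (Multiplicative.ofAdd k) m
  have e : f (Multiplicative.ofAdd k ^ m) = es i j hij (m * k) := by
    rw [← ofAdd_zsmul, smul_eq_mul]
    rfl
  rw [e] at h
  exact h.symm

theorem es_pow {i j : Fin n} (hij : i ≠ j) (k : ℤ) (m : ℕ) :
    es i j hij k ^ m = es i j hij (m * k) := by
  rw [← zpow_natCast, es_zpow]

theorem es_comm_left {i j l : Fin n} (hij : i ≠ j) (hil : i ≠ l) (k m : ℤ) :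
    es i j hij k * es i l hil m = es i l hil m * es i j hij k := by
  apply sext
  rw [smul_val, smul_val, es_val, es_val]
  simp only [transvection, Matrix.mul_add, Matrix.add_mul, Matrix.one_mul, Matrix.mul_one,
    single_mul_single_of_ne _ _ _ _ hij.symm, single_mul_single_of_ne _ _ _ _ hil.symm]
  abel

theorem es_comm_right {i j l : Fin n} (hil : i ≠ l) (hjl : j ≠ l) (k m : ℤ) :
    es i l hil k * es j l hjl m = es j l hjl m * es i l hil k := by
  apply sext
  rw [smul_val, smul_val, es_val, es_val]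
  simp only [transvection, Matrix.mul_add, Matrix.add_mul, Matrix.one_mul, Matrix.mul_one,
    single_mul_single_of_ne _ _ _ _ hil.symm, single_mul_single_of_ne _ _ _ _ hjl.symm]
  abel

theorem es_rel {i j l : Fin n} (hij : i ≠ j) (hjl : j ≠ l) (hil : i ≠ l) (k m : ℤ) :
    es i j hij k * es j l hjl m = es j l hjl m * es i l hil (k * m) * es i j hij k := by
  apply sext
  rw [smul_val, smul_val, smul_val, es_val, es_val, es_val]
  simp only [transvection, Matrix.mul_add, Matrix.add_mul, Matrix.one_mul, Matrix.mul_one,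
    single_mul_single_same, single_mul_single_of_ne _ _ _ _ hjl.symm,
    single_mul_single_of_ne _ _ _ _ hij.symm, single_mul_single_of_ne _ _ _ _ hil.symm]
  simp only [single_mul_single_of_ne _ _ _ _ hil.symm, Matrix.zero_mul]
  abel

theorem rel_es {i j l : Fin n} (hij : i ≠ j) (hjl : j ≠ l) (hil : i ≠ l) :
    Rel (es i l hil 1) (es j l hjl 1) (es i j hij 3) (es j i hij.symm 3) where
  xy := by rw [es_comm_right]
  ax := by rw [es_comm_left]
  ay := by
    rw [es_pow, es_rel hij hjl hil]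
    norm_num
  by' := by rw [es_comm_left]
  bx := by
    rw [es_pow, es_rel hij.symm hil hjl]
    norm_num

/-- The elementary matrices with entry `1`. -/
def Qs (n : ℕ) : Set (SpecialLinearGroup (Fin n) ℤ) :=
  Set.range fun p : {p : Fin n × Fin n // p.1 ≠ p.2} => es p.1.1 p.1.2 p.2 1

theorem Qs_finite (n : ℕ) : (Qs n).Finite := Set.finite_range _

theorem ub_es1 {i j : Fin n} (hij : i ≠ j) : UB (Qs n) {es i j hij 1} :=
  UB.self.mono (Set.singleton_subset_iff.mpr ⟨⟨(i, j), hij⟩, rfl⟩)

theorem ub_es3 {i j : Fin n} (hij : i ≠ j) : UB (Qs n) {es i j hij 3} := by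
  have h := ((ub_es1 hij).mul (ub_es1 hij)).mul (ub_es1 hij)
  refine h.mono (Set.singleton_subset_iff.mpr ?_)
  refine Set.mem_mul.mpr ⟨_, Set.mem_mul.mpr ⟨_, rfl, _, rfl, rfl⟩, _, rfl, ?_⟩
  rw [← es_add, ← es_add]
  norm_num

theorem ub_es (hn : 3 ≤ n) {i l : Fin n} (hil : i ≠ l) :
    UB (Qs n) (Set.range fun k : ℤ => es i l hil k) := by
  obtain ⟨j, hji, hjl⟩ := H350.exists_third hn i l
  refine (UB.rel (rel_es hji.symm hjl hil) (ub_es1 _) (ub_es1 _) (ub_es3 _) (ub_es3 _)).mono ?_
  rintro _ ⟨k, rfl⟩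
  have e : es i l hil k = es i l hil 1 ^ k := by
    rw [es_zpow, mul_one]
  simp only [e]
  exact Subgroup.zpow_mem _ (Subgroup.subset_closure (by simp)) _

theorem ub_univ (hn : 3 ≤ n) : UB (Qs n) Set.univ := by
  obtain ⟨N, hN⟩ := H350.bounded_generation n hn
  have hE : UB (Qs n) (⋃ p : {p : Fin n × Fin n // p.1 ≠ p.2},
      Set.range fun k : ℤ => es p.1.1 p.1.2 p.2 k) := UB.iUnion fun p => ub_es hn p.2
  refine (hE.list N).mono ?_
  intro h _
  obtain ⟨l, hl, hprod⟩ := hN h
  refine ⟨l.map fun t => es t.i t.j t.hij t.c, by simpa using hl, ?_, ?_⟩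
  · intro x hx
    obtain ⟨t, -, rfl⟩ := List.mem_map.mp hx
    exact Set.mem_iUnion.mpr ⟨⟨(t.i, t.j), t.hij⟩, ⟨t.c, rfl⟩⟩
  · apply sext
    refine Eq.trans ?_ hprod
    clear hprod hl
    induction l with
    | nil => simp
    | cons t l ih =>
      simp only [List.map_cons, List.prod_cons, smul_val]
      rw [ih]
      rfl

theorem propT_sln (hn : 3 ≤ n) : PropT (SpecialLinearGroup (Fin n) ℤ) := by
  have h : UB ((Qs_finite n).toFinset : Set (SpecialLinearGroup (Fin n) ℤ)) Set.univ := by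
    rw [Set.Finite.coe_toFinset]
    exact ub_univ hn
  exact PropT.of_UB h

/-- The unitary of a group element in a unitary representation. -/
noncomputable def unit {G H : Type} [Group G] [NormedAddCommGroup H] [InnerProductSpace ℂ H]
    (π : URep G H) (g : G) : H ≃ₗᵢ[ℂ] H where
  toFun := π.act g
  invFun := π.act g⁻¹
  map_add' := π.act_add g
  map_smul' := π.act_smul g
  left_inv v := by
    rw [← π.act_mul, inv_mul_cancel, π.act_one]
  right_inv v := by
    rw [← π.act_mul, mul_inv_cancel, π.act_one]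
  norm_map' := π.norm_act g

/-- The two formulations of property (T). -/
theorem kazhdan_of_propT {G : Type} [Group G] (h : PropT G) :
    ∃ (Q : Finset G) (ε : ℝ), IsKazhdanPair G Q ε := by
  classical
  obtain ⟨Q, ε, hε, h⟩ := h
  refine ⟨insert 1 Q, ε, hε, fun H _ _ _ π hπ v => ?_⟩
  by_cases hv : v = 0
  · refine ⟨1, Finset.mem_insert_self _ _, ?_⟩
    rw [hv, norm_zero, mul_zero]
    exact norm_nonneg _
  · by_contra hcon
    push Not at hcon
    let ρ : G →* (H ≃ₗᵢ[ℂ] H) :=
      { toFun := fun g => unit π g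
        map_one' := by
          ext w
          exact π.act_one w
        map_mul' := fun g k => by
          ext w
          exact π.act_mul g k w }
    obtain ⟨η, hη, hinv⟩ := h H ρ v hv fun s hs => (hcon s (Finset.mem_insert_of_mem hs)).le
    exact hη (hπ η fun g => hinv g)

end Vale.Agent.P092.H367.SlnT

namespace Vale.Agent.P092.H367

/-- Property (T) of `SL_n(ℤ)`, `n ≥ 3`. -/
theorem kazhdan_sln {n : ℕ} (hn : 3 ≤ n) :
    ∃ (Q : Finset (Matrix.SpecialLinearGroup (Fin n) ℤ)) (ε : ℝ),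
      H885.IsKazhdanPair (Matrix.SpecialLinearGroup (Fin n) ℤ) Q ε :=
  SlnT.kazhdan_of_propT (SlnT.propT_sln hn)

end Vale.Agent.P092.H367
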