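import Vale.Agent.P092.R3.H367.Proj
import Vale.Agent.P092.R3.H367.UniPowG
import Vale.Agent.P092.R3.H381.Sub2

/-!
Subgroups `Γ` of `G` modulo its centre containing a finite index subgroup of the image of `G(ℤ)`,
given by an injective homomorphism `q`: commensuration, the relative ICC property, admissibility.
-/

set_option linter.all false

open Matrix

namespace Vale.Agent.P092.H381.Adj

open Vale.Agent.P092.H381.Sg Vale.Agent.P092.H367

section general

variable {G GZ Γ : Type} [Group G] [Group GZ] [Group Γ] {i : GZ →* G}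
  {q : Γ →* G ⧸ Subgroup.center G}

/-- The homomorphism `G(ℤ) → G ⧸ centre`. -/
abbrev pin (i : GZ →* G) : GZ →* G ⧸ Subgroup.center G :=
  (QuotientGroup.mk' (Subgroup.center G)).comp i

theorem exists_jj (hq : Function.Injective q) : ∃ jj : q.range.comap (pin i) →* Γ,
    ∀ l, q (jj l) = pin i l := by
  have hex : ∀ l : q.range.comap (pin i), ∃ k : Γ, q k = pin i l := fun l => l.2
  choose k hk using hex
  exact ⟨{ toFun := k
           map_one' := by
            apply hq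
            rw [hk, map_one]
            exact map_one (pin i)
           map_mul' := fun a b => by
            apply hq
            rw [map_mul, hk, hk, hk]
            exact map_mul (pin i) _ _ }, hk⟩

variable (hq : Function.Injective q) (hfi : (q.range.comap (pin i)).FiniteIndex)
  (horb : ∀ (L : Subgroup GZ) [L.FiniteIndex] (X : G), X ∉ Subgroup.center G →
    {y : G ⧸ Subgroup.center G | ∃ l ∈ L, y = QuotientGroup.mk (i l * X * (i l)⁻¹)}.Infinite)
  (hconj : ∀ g : Γ, ∃ (X : G) (C : Subgroup GZ), QuotientGroup.mk X = q g ∧ C.FiniteIndex ∧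
    ∀ l ∈ C, X⁻¹ * i l * X ∈ i.range)

include hq hfi horb hconj in
theorem rel_icc (S : Finset Γ) (x : Γ) (hx : x ≠ 1) :
    {y : Γ | ∃ k : Γ, (∀ g ∈ S, g⁻¹ * k * g ∈ Proj.HP i q) ∧ y = k * x * k⁻¹}.Infinite := by
  choose lf C hlf hCf hC using hconj
  haveI : (⨅ g : S, C g).FiniteIndex := Subgroup.finiteIndex_iInf fun g => hCf g
  haveI := hfi
  have hX : lf x ∉ Subgroup.center G := by
    intro h
    apply hx
    apply hq
    rw [map_one, ← hlf x]
    exact (QuotientGroup.eq_one_iff _).mpr h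
  have h := horb ((q.range.comap (pin i)) ⊓ ⨅ g : S, C g) (lf x) hX
  intro hfin
  refine h ((hfin.image q).subset ?_)
  rintro y ⟨l, hl, rfl⟩
  obtain ⟨k, hk⟩ := (Subgroup.mem_inf.mp hl).1
  have hl2 := (Subgroup.mem_inf.mp hl).2
  refine ⟨k * x * k⁻¹, ⟨k, fun g hg => ?_, rfl⟩, ?_⟩
  · obtain ⟨l', hl'⟩ := hC g l (Subgroup.mem_iInf.mp hl2 ⟨g, hg⟩)
    change q (g⁻¹ * k * g) ∈ (pin i).range
    refine ⟨l', ?_⟩
    rw [map_mul, map_mul, map_inv, hk, ← hlf]
    change QuotientGroup.mk (i l') = _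
    rw [hl']
    rfl
  · rw [map_mul, map_mul, map_inv, hk, ← hlf]
    rfl

include hq hfi horb hconj in
theorem adm (t : ℝ) : Adm (Proj.HP i q) t := by
  classical
  exact adm_of_set (rel_icc hq hfi horb hconj) t

variable {jj : q.range.comap (pin i) →* Γ}

include hq horb in
theorem ricc_sub (hjj : ∀ l, q (jj l) = pin i l) (L : Subgroup GZ) [L.FiniteIndex]
    (hL : L ≤ q.range.comap (pin i)) : RICC (jj.comp (Subgroup.inclusion hL)).range := by
  intro g hg hfin
  obtain ⟨X, hX⟩ := QuotientGroup.mk_surjective (q g)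
  have hXc : X ∉ Subgroup.center G := by
    intro h
    apply hg
    apply hq
    rw [← hX, map_one]
    exact (QuotientGroup.eq_one_iff X).mpr h
  refine horb L X hXc ((hfin.image q).subset ?_)
  rintro y ⟨l, hl, rfl⟩
  refine ⟨jj ⟨l, hL hl⟩ * g * (jj ⟨l, hL hl⟩)⁻¹, ⟨jj ⟨l, hL hl⟩, ⟨⟨l, hl⟩, rfl⟩, rfl⟩, ?_⟩
  rw [map_mul, map_mul, map_inv, hjj, ← hX]
  rfl

include hq horb hfi in
theorem ricc_p (hjj : ∀ l, q (jj l) = pin i l) : RICC jj.range := by
  intro g hg hfin
  obtain ⟨X, hX⟩ := QuotientGroup.mk_surjective (q g)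
  have hXc : X ∉ Subgroup.center G := by
    intro h
    apply hg
    apply hq
    rw [← hX, map_one]
    exact (QuotientGroup.eq_one_iff X).mpr h
  haveI := hfi
  refine horb (q.range.comap (pin i)) X hXc ((hfin.image q).subset ?_)
  rintro y ⟨l, hl, rfl⟩
  refine ⟨jj ⟨l, hl⟩ * g * (jj ⟨l, hl⟩)⁻¹, ⟨jj ⟨l, hl⟩, ⟨⟨l, hl⟩, rfl⟩, rfl⟩, ?_⟩
  rw [map_mul, map_mul, map_inv, hjj, ← hX]
  rfl

include hq hfi hconj in
theorem comm_p (hjj : ∀ l, q (jj l) = pin i l) (g : Γ) :
    (conj g jj.range).relIndex jj.range ≠ 0 := by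
  obtain ⟨X, C, hX, hCf, hc⟩ := hconj g
  haveI := hCf
  have hF : (C.subgroupOf (q.range.comap (pin i))).FiniteIndex :=
    Subgroup.instFiniteIndex_subgroupOf _ _
  have hle : C.subgroupOf (q.range.comap (pin i)) ≤ (conj g jj.range).comap jj := by
    intro l hl
    rw [Subgroup.mem_comap]
    refine H381.mem_conj.mpr ?_
    obtain ⟨l', hl'⟩ := hc _ hl
    have h1 : q (g⁻¹ * jj l * g) = pin i l' := by
      rw [map_mul, map_mul, map_inv, hjj, ← hX]
      change _ = QuotientGroup.mk (i l')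
      rw [hl']
      rfl
    refine ⟨⟨l', ⟨_, h1⟩⟩, hq ?_⟩
    rw [hjj, h1]
  have h1 : ((conj g jj.range).comap jj).index ≠ 0 :=
    (Subgroup.finiteIndex_of_le hle).index_ne_zero
  rwa [Subgroup.index_comap] at h1

include hq hfi hconj in
theorem comm_sub (hjj : ∀ l, q (jj l) = pin i l) (L : Subgroup GZ) [hLf : L.FiniteIndex]
    (hL : L ≤ q.range.comap (pin i)) (g : Γ) :
    (conj g (jj.comp (Subgroup.inclusion hL)).range).relIndex
      (jj.comp (Subgroup.inclusion hL)).range ≠ 0 := by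
  obtain ⟨K, hK⟩ : ∃ K : Subgroup Γ, K = (jj.comp (Subgroup.inclusion hL)).range := ⟨_, rfl⟩
  rw [← hK]
  have hKle : K ≤ jj.range := by
    rw [hK]
    rintro _ ⟨l, rfl⟩
    exact ⟨_, rfl⟩
  have h1 : K.relIndex jj.range ≠ 0 := by
    rw [← Subgroup.index_comap]
    have hF : (L.subgroupOf (q.range.comap (pin i))).FiniteIndex :=
      Subgroup.instFiniteIndex_subgroupOf _ _
    have hle : L.subgroupOf (q.range.comap (pin i)) ≤ K.comap jj := by
      intro l hl
      rw [Subgroup.mem_comap, hK]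
      exact ⟨⟨l, hl⟩, rfl⟩
    exact (Subgroup.finiteIndex_of_le hle).index_ne_zero
  have h2 : (conj g K).relIndex (conj g jj.range) ≠ 0 := by
    unfold conj
    rw [← Subgroup.relIndex_comap, Subgroup.comap_map_eq_self_of_injective
      (MulAut.conj g).injective]
    exact h1
  have h3 : (conj g jj.range).relIndex K ≠ 0 := fun h =>
    comm_p hq hfi hconj hjj g (Subgroup.relIndex_eq_zero_of_le_right hKle h)
  exact Subgroup.relIndex_ne_zero_trans h2 h3

end general

section lin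

variable {ι : Type} [Fintype ι] [DecidableEq ι]

theorem central_scalar {z : GL ι ℚ} (hz : z ∈ Subgroup.center (GL ι ℚ)) :
    ∃ c : ℚ, (z : Matrix ι ι ℚ) = c • (1 : Matrix ι ι ℚ) := by
  obtain ⟨c, hc⟩ := Matrix.GeneralLinearGroup.mem_center_iff_val_mem_range_scalar.mp hz
  refine ⟨c, ?_⟩
  rw [← hc, Matrix.scalar_apply, Matrix.smul_one_eq_diagonal]

theorem scalar_central {z : GL ι ℚ} {c : ℚ} (h : (z : Matrix ι ι ℚ) = c • (1 : Matrix ι ι ℚ)) :
    z ∈ Subgroup.center (GL ι ℚ) := by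
  rw [Subgroup.mem_center_iff]
  intro g
  apply Units.ext
  change (g : Matrix ι ι ℚ) * (z : Matrix ι ι ℚ) = (z : Matrix ι ι ℚ) * (g : Matrix ι ι ℚ)
  rw [h, Matrix.mul_smul, Matrix.smul_mul, Matrix.mul_one, Matrix.one_mul]

/-- A central element of determinant one has square one. -/
theorem central_sq [Nonempty ι] {z : GL ι ℚ} (hz : z ∈ Subgroup.center (GL ι ℚ))
    (hd : (z : Matrix ι ι ℚ).det = 1) : z * z = 1 := by
  obtain ⟨c, hc⟩ := central_scalar hz
  have h1 : c ^ Fintype.card ι = 1 := by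
    rw [hc, Matrix.det_smul, Matrix.det_one, mul_one] at hd
    exact hd
  have h2 : |c| ^ Fintype.card ι = 1 := by rw [← abs_pow, h1, abs_one]
  have h3 : |c| = 1 := (pow_eq_one_iff_of_nonneg (abs_nonneg _) Fintype.card_ne_zero).mp h2
  have h4 : c * c = 1 := by rw [← abs_mul_abs_self, h3, one_mul]
  apply Units.ext
  change (z : Matrix ι ι ℚ) * (z : Matrix ι ι ℚ) = 1
  rw [hc, Matrix.smul_mul, Matrix.one_mul, smul_smul, h4, one_smul]

/-- If `w X w⁻¹` and `X` are equal modulo the centre, `w²` commutes with `X`. -/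
theorem comm_sq [Nonempty ι] {X w : GL ι ℚ}
    (h : (QuotientGroup.mk (w * X) : GL ι ℚ ⧸ Subgroup.center (GL ι ℚ)) =
      QuotientGroup.mk (X * w)) : w * w * X = X * (w * w) := by
  obtain ⟨z, hz⟩ : ∃ z, z = (w * X)⁻¹ * (X * w) := ⟨_, rfl⟩
  have hzc : z ∈ Subgroup.center (GL ι ℚ) := by
    rw [hz]
    exact QuotientGroup.eq.mp h
  have hzz : z * z = 1 := by
    refine central_sq hzc ?_
    rw [hz]
    have h1 : Matrix.GeneralLinearGroup.det ((w * X)⁻¹ * (X * w)) = 1 := by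
      rw [map_mul, map_inv, map_mul, map_mul, mul_comm (Matrix.GeneralLinearGroup.det w),
        inv_mul_cancel]
    exact congrArg Units.val h1
  have h5 : X * w = w * X * z := by
    rw [hz]
    group
  have h6 := Subgroup.mem_center_iff.mp hzc
  calc w * w * X
      = w * w * X * (z * z) := by rw [hzz, mul_one]
    _ = w * (w * X * z) * z := by group
    _ = w * (X * w) * z := by rw [← h5]
    _ = (w * X) * (w * z) := by group
    _ = (w * X) * (z * w) := by rw [h6]
    _ = (w * X * z) * w := by group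
    _ = (X * w) * w := by rw [← h5]
    _ = X * (w * w) := by group

/-- A finite orbit modulo the centre. -/
theorem comm_of_proj [Nonempty ι] {X u : GL ι ℚ} {T : Set (GL ι ℚ ⧸ Subgroup.center (GL ι ℚ))}
    (hT : T.Finite) (h : ∀ k : ℕ, QuotientGroup.mk (u ^ k * X * (u ^ k)⁻¹) ∈ T) :
    ∃ m : ℕ, 0 < m ∧ u ^ m * X = X * u ^ m := by
  obtain ⟨k, -, l, -, hkl, heq⟩ := Set.infinite_univ.exists_ne_map_eq_of_mapsTo
    (f := fun k : ℕ => (QuotientGroup.mk (u ^ k * X * (u ^ k)⁻¹) :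
      GL ι ℚ ⧸ Subgroup.center (GL ι ℚ))) (fun k _ => h k) hT
  wlog hlt : k < l generalizing k l
  · exact this l k hkl.symm heq.symm (lt_of_le_of_ne (not_lt.mp hlt) hkl.symm)
  obtain ⟨m, hm0, rfl⟩ : ∃ m, 0 < m ∧ l = k + m := ⟨l - k, by omega, by omega⟩
  refine ⟨m + m, by omega, ?_⟩
  rw [pow_add]
  apply comm_sq
  have h1 : (u ^ k * X * (u ^ k)⁻¹)⁻¹ * (u ^ (k + m) * X * (u ^ (k + m))⁻¹) ∈
      Subgroup.center (GL ι ℚ) := QuotientGroup.eq.mp heq
  rw [pow_add] at h1
  refine (QuotientGroup.eq.mpr ?_ : (QuotientGroup.mk (X * u ^ m) :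
    GL ι ℚ ⧸ Subgroup.center (GL ι ℚ)) = QuotientGroup.mk (u ^ m * X)).symm
  obtain ⟨z, hz⟩ : ∃ z, z = (u ^ k * X * (u ^ k)⁻¹)⁻¹ * (u ^ k * u ^ m * X * (u ^ k * u ^ m)⁻¹) :=
    ⟨_, rfl⟩
  rw [← hz] at h1
  have h2 := Subgroup.mem_center_iff.mp h1
  have h3 : (X * u ^ m)⁻¹ * (u ^ m * X) = z := by
    have h4 : (u ^ m)⁻¹ * ((u ^ k)⁻¹ * z * u ^ k) * u ^ m = (X * u ^ m)⁻¹ * (u ^ m * X) := by
      rw [hz]
      group
    rw [← h4, mul_assoc (u ^ k)⁻¹, ← h2, inv_mul_cancel_left, mul_assoc (u ^ m)⁻¹, ← h2,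
      inv_mul_cancel_left]
  rw [h3]
  exact h1

/-- The determinant of a unipotent matrix. -/
theorem det_unipotent {Y : Matrix ι ι ℚ} (h : IsNilpotent (Y - 1)) : Y.det = 1 := by
  have h1 : IsNilpotent (1 - Y) := by
    rw [← neg_sub]
    exact h.neg
  have h2 := (Matrix.isNilpotent_charpoly_sub_pow_of_isNilpotent h1).eq_zero
  have h3 := congrArg (Polynomial.eval 1) (sub_eq_zero.mp h2)
  rw [Matrix.eval_charpoly, Polynomial.eval_pow, Polynomial.eval_X, one_pow] at h3
  simpa using h3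

end lin

end Vale.Agent.P092.H381.Adj
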