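import Vale.Agent.P092.R3.H367.CommQ

/-!
Subgroups of `PSL_N(ℚ)`, the quotient of `SL_N(ℚ)` by its centre, commensurable with the image of
`SL_N(ℤ)`, `N ≥ 3`: an isomorphism onto a corner of matrices over `L(Λ)` is canonical, or the
heights vanish on average along every element with a nontrivial unipotent power.
-/

set_option linter.all false

open Matrix

namespace Vale.Agent.P092.H381.PL

open Vale.Agent.P092.H381.Sg Vale.Agent.P092.H367

variable {N : ℕ}

theorem center_pm (hN : 2 ≤ N) {z : SpecialLinearGroup (Fin N) ℚ}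
    (hz : z ∈ Subgroup.center (SpecialLinearGroup (Fin N) ℚ)) :
    z = 1 ∨ (z : Matrix (Fin N) (Fin N) ℚ) = -1 := by
  by_contra hcon
  push Not at hcon
  refine SArith.orbit_infinite hN (⊤ : Subgroup (SpecialLinearGroup (Fin N) ℤ)) hcon.1 hcon.2 ?_
  refine (Set.finite_singleton z).subset ?_
  rintro y ⟨l, -, rfl⟩
  rw [Set.mem_singleton_iff, Subgroup.mem_center_iff.mp hz, mul_inv_cancel_right]

theorem pm_center {z : SpecialLinearGroup (Fin N) ℚ}
    (hz : z = 1 ∨ (z : Matrix (Fin N) (Fin N) ℚ) = -1) :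
    z ∈ Subgroup.center (SpecialLinearGroup (Fin N) ℚ) := by
  rcases hz with rfl | hz
  · exact Subgroup.one_mem _
  · rw [Subgroup.mem_center_iff]
    intro g
    apply Subtype.ext
    change (g : Matrix (Fin N) (Fin N) ℚ) * z = z * g
    rw [hz, Matrix.mul_neg, Matrix.neg_mul, Matrix.mul_one, Matrix.one_mul]

theorem center_finite (hN : 2 ≤ N) : (Subgroup.center (SpecialLinearGroup (Fin N) ℚ) :
    Set (SpecialLinearGroup (Fin N) ℚ)).Finite := by
  have h : ({x | x = 1 ∨ x = -1} : Set (Matrix (Fin N) (Fin N) ℚ)).Finite := by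
    refine (Set.toFinite {1, -1}).subset ?_
    intro x hx
    exact hx
  refine (h.preimage (f := fun z : SpecialLinearGroup (Fin N) ℚ =>
    (z : Matrix (Fin N) (Fin N) ℚ)) Subtype.val_injective.injOn).subset ?_
  intro z hz
  rcases center_pm hN hz with h | h
  · left
    change (z : Matrix (Fin N) (Fin N) ℚ) = 1
    rw [h]
    rfl
  · exact Or.inr h

theorem fibre_finite (hN : 2 ≤ N) {T : Set (SpecialLinearGroup (Fin N) ℚ ⧸
      Subgroup.center (SpecialLinearGroup (Fin N) ℚ))} (hT : T.Finite) :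
    ((QuotientGroup.mk : SpecialLinearGroup (Fin N) ℚ → SpecialLinearGroup (Fin N) ℚ ⧸
      Subgroup.center (SpecialLinearGroup (Fin N) ℚ)) ⁻¹' T).Finite := by
  refine Set.Finite.preimage' hT fun b _ => ?_
  obtain ⟨y, rfl⟩ := QuotientGroup.mk_surjective b
  refine ((center_finite hN).image fun z => y * z).subset ?_
  intro w hw
  have h1 : y⁻¹ * w ∈ Subgroup.center (SpecialLinearGroup (Fin N) ℚ) :=
    QuotientGroup.eq.mp (Eq.symm hw)
  exact ⟨y⁻¹ * w, h1, by simp⟩

variable {Γ : Type} [Group Γ] {q : Γ →* SpecialLinearGroup (Fin N) ℚ ⧸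
  Subgroup.center (SpecialLinearGroup (Fin N) ℚ)}

/-- The homomorphism `SL_N(ℤ) → PSL_N(ℚ)`. -/
abbrev pinc (N : ℕ) : SpecialLinearGroup (Fin N) ℤ →* SpecialLinearGroup (Fin N) ℚ ⧸
    Subgroup.center (SpecialLinearGroup (Fin N) ℚ) :=
  (QuotientGroup.mk' (Subgroup.center (SpecialLinearGroup (Fin N) ℚ))).comp (SArith.inc N)

theorem exists_jj (hq : Function.Injective q) : ∃ jj : q.range.comap (pinc N) →* Γ,
    ∀ l, q (jj l) = pinc N l := by
  have hex : ∀ l : q.range.comap (pinc N), ∃ k : Γ, q k = pinc N l := fun l => l.2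
  choose k hk using hex
  exact ⟨{ toFun := k
           map_one' := by
            apply hq
            rw [hk, map_one]
            exact map_one (pinc N)
           map_mul' := fun a b => by
            apply hq
            rw [map_mul, hk, hk, hk]
            exact map_mul (pinc N) _ _ }, hk⟩

variable {jj : q.range.comap (pinc N) →* Γ}

theorem comm_p (hq : Function.Injective q) (hfi : (q.range.comap (pinc N)).FiniteIndex)
    (hjj : ∀ l, q (jj l) = pinc N l) (g : Γ) : (conj g jj.range).relIndex jj.range ≠ 0 := by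
  obtain ⟨X, hX⟩ := QuotientGroup.mk_surjective (q g)
  obtain ⟨n, hn, hc⟩ := SArith.conj_mem X
  haveI : NeZero n := ⟨hn.ne'⟩
  have hF : ((SArith.cong N n).subgroupOf (q.range.comap (pinc N))).FiniteIndex :=
    Subgroup.instFiniteIndex_subgroupOf _ _
  have hle : (SArith.cong N n).subgroupOf (q.range.comap (pinc N)) ≤
      (conj g jj.range).comap jj := by
    intro l hl
    rw [Subgroup.mem_comap]
    refine H381.mem_conj.mpr ?_
    obtain ⟨l', hl'⟩ := hc _ hl
    have h1 : q (g⁻¹ * jj l * g) = pinc N l' := by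
      rw [map_mul, map_mul, map_inv, hjj, ← hX]
      change _ = QuotientGroup.mk (SArith.inc N l')
      rw [hl']
      rfl
    refine ⟨⟨l', ⟨_, h1⟩⟩, hq ?_⟩
    rw [hjj, h1]
  have h1 : ((conj g jj.range).comap jj).index ≠ 0 :=
    (Subgroup.finiteIndex_of_le hle).index_ne_zero
  rwa [Subgroup.index_comap] at h1

/-- The integral elements of level 3. -/
abbrev G3 (q : Γ →* SpecialLinearGroup (Fin N) ℚ ⧸
    Subgroup.center (SpecialLinearGroup (Fin N) ℚ)) : Subgroup (SpecialLinearGroup (Fin N) ℤ) :=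
  q.range.comap (pinc N) ⊓ SArith.cong N 3

theorem inj3 (hN : 2 ≤ N) (hjj : ∀ l, q (jj l) = pinc N l) :
    Function.Injective (jj.comp (Subgroup.inclusion
      (inf_le_left : G3 q ≤ q.range.comap (pinc N)))) := by
  rw [← MonoidHom.ker_eq_bot_iff, Subgroup.eq_bot_iff_forall]
  intro l hl
  have h1 : jj (Subgroup.inclusion (inf_le_left : G3 q ≤ q.range.comap (pinc N)) l) = 1 := hl
  have h2 : pinc N (l : SpecialLinearGroup (Fin N) ℤ) = 1 := by
    have h3 := hjj (Subgroup.inclusion (inf_le_left : G3 q ≤ q.range.comap (pinc N)) l)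
    rw [h1, map_one] at h3
    exact h3.symm
  have h3 : SArith.inc N (l : SpecialLinearGroup (Fin N) ℤ) ∈
      Subgroup.center (SpecialLinearGroup (Fin N) ℚ) := (QuotientGroup.eq_one_iff _).mp h2
  rcases center_pm hN h3 with h | h
  · apply Subtype.ext
    apply inc_inj
    rw [h]
    exact (map_one (SArith.inc N)).symm
  · exfalso
    have h4 : ((l : SpecialLinearGroup (Fin N) ℤ) : Matrix (Fin N) (Fin N) ℤ) = -1 := by
      apply SArith.map_inj
      have h5 : (-1 : Matrix (Fin N) (Fin N) ℤ).map (Int.cast : ℤ → ℚ) = -1 := by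
        ext i j
        by_cases hij : i = j
        · subst hij; simp
        · simp [Matrix.one_apply_ne hij]
      rw [h5]
      exact h
    obtain ⟨B, hB⟩ := SArith.mem_cong (Subgroup.mem_inf.mp l.2).2
    rw [h4] at hB
    have h5 := congrFun (congrFun hB ⟨0, by omega⟩) ⟨0, by omega⟩
    rw [Matrix.neg_apply, Matrix.add_apply, Matrix.smul_apply, Matrix.one_apply_eq,
      smul_eq_mul] at h5
    push_cast at h5
    omega

theorem ricc3 (hN : 2 ≤ N) (hq : Function.Injective q)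
    (hfi : (q.range.comap (pinc N)).FiniteIndex)
    (hjj : ∀ l, q (jj l) = pinc N l) : RICC (jj.comp (Subgroup.inclusion
      (inf_le_left : G3 q ≤ q.range.comap (pinc N)))).range := by
  intro g hg hfin
  obtain ⟨X, hX⟩ := QuotientGroup.mk_surjective (q g)
  have hXc : X ∉ Subgroup.center (SpecialLinearGroup (Fin N) ℚ) := by
    intro h
    apply hg
    apply hq
    rw [← hX, map_one]
    exact (QuotientGroup.eq_one_iff X).mpr h
  haveI := hfi
  haveI : NeZero (3 : ℕ) := ⟨by norm_num⟩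
  haveI : (G3 q).FiniteIndex := inferInstance
  refine SArith.orbit_infinite hN (G3 q) (x := X)
    (fun h => hXc (pm_center (Or.inl h))) (fun h => hXc (pm_center (Or.inr h))) ?_
  refine (fibre_finite hN (hfin.image q)).subset ?_
  rintro y ⟨l, hl, rfl⟩
  refine ⟨jj ⟨l, (Subgroup.mem_inf.mp hl).1⟩ * g * (jj ⟨l, (Subgroup.mem_inf.mp hl).1⟩)⁻¹,
    ⟨jj ⟨l, (Subgroup.mem_inf.mp hl).1⟩, ⟨⟨l, hl⟩, rfl⟩, rfl⟩, ?_⟩
  rw [map_mul, map_mul, map_inv, hjj, ← hX]
  rfl

theorem comm3 (hq : Function.Injective q) (hfi : (q.range.comap (pinc N)).FiniteIndex)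
    (hjj : ∀ l, q (jj l) = pinc N l) (g : Γ) :
    (conj g (jj.comp (Subgroup.inclusion
      (inf_le_left : G3 q ≤ q.range.comap (pinc N)))).range).relIndex (jj.comp
      (Subgroup.inclusion (inf_le_left : G3 q ≤ q.range.comap (pinc N)))).range ≠ 0 := by
  obtain ⟨K, hK⟩ : ∃ K : Subgroup Γ, K = (jj.comp (Subgroup.inclusion
      (inf_le_left : G3 q ≤ q.range.comap (pinc N)))).range := ⟨_, rfl⟩
  rw [← hK]
  haveI : NeZero (3 : ℕ) := ⟨by norm_num⟩
  have hKle : K ≤ jj.range := by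
    rw [hK]
    rintro _ ⟨l, rfl⟩
    exact ⟨_, rfl⟩
  have h1 : K.relIndex jj.range ≠ 0 := by
    rw [← Subgroup.index_comap]
    have hF : ((SArith.cong N 3).subgroupOf (q.range.comap (pinc N))).FiniteIndex :=
      Subgroup.instFiniteIndex_subgroupOf _ _
    have hle : (SArith.cong N 3).subgroupOf (q.range.comap (pinc N)) ≤ K.comap jj := by
      intro l hl
      rw [Subgroup.mem_comap, hK]
      exact ⟨⟨l, Subgroup.mem_inf.mpr ⟨l.2, hl⟩⟩, rfl⟩
    exact (Subgroup.finiteIndex_of_le hle).index_ne_zero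
  have h2 : (conj g K).relIndex (conj g jj.range) ≠ 0 := by
    unfold conj
    rw [← Subgroup.relIndex_comap, Subgroup.comap_map_eq_self_of_injective
      (MulAut.conj g).injective]
    exact h1
  have h3 : (conj g jj.range).relIndex K ≠ 0 := fun h =>
    comm_p hq hfi hjj g (Subgroup.relIndex_eq_zero_of_le_right hKle h)
  exact Subgroup.relIndex_ne_zero_trans h2 h3

/-- A nontrivial unipotent matrix in `SL_N(ℚ)` has a nontrivial integral unipotent power. -/
theorem int_pow {Y : SpecialLinearGroup (Fin N) ℚ} (hY : Y ≠ 1)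
    (hnil : IsNilpotent ((Y : Matrix (Fin N) (Fin N) ℚ) - 1))
    (L : Subgroup (SpecialLinearGroup (Fin N) ℤ)) [L.FiniteIndex] :
    ∃ (m : ℕ) (b : SpecialLinearGroup (Fin N) ℤ), SArith.inc N b = Y ^ m ∧ b ≠ 1 ∧
      IsNilpotent ((b : Matrix (Fin N) (Fin N) ℤ) - 1) ∧ b ∈ L := by
  obtain ⟨M, hM⟩ : ∃ M : Matrix (Fin N) (Fin N) ℚ,
    M = (Y : Matrix (Fin N) (Fin N) ℚ) - 1 := ⟨_, rfl⟩
  rw [← hM] at hnil
  have hxM : (Y : Matrix (Fin N) (Fin N) ℚ) = 1 + M := by rw [hM]; abel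
  obtain ⟨m₀, hm₀, B₀, hB₀⟩ := SArith.exists_int_pow hnil
  have hM0 : M ≠ 0 := by
    intro h0
    apply hY
    apply Subtype.ext
    rw [hxM, h0, add_zero]
    rfl
  have hpow₀ : ((Y ^ m₀ : SpecialLinearGroup (Fin N) ℚ) : Matrix (Fin N) (Fin N) ℚ) =
      B₀.map (Int.cast : ℤ → ℚ) := by
    rw [hB₀, ← hxM]
    rfl
  have hdet : B₀.det = 1 := by
    have h1 : ((B₀.det : ℤ) : ℚ) = 1 := by
      have h2 := RingHom.map_det (Int.castRingHom ℚ) B₀
      have h3 : (RingHom.mapMatrix (m := Fin N) (Int.castRingHom ℚ)) B₀ =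
          B₀.map (Int.cast : ℤ → ℚ) := rfl
      rw [h3, ← hpow₀] at h2
      have h4 : ((Y ^ m₀ : SpecialLinearGroup (Fin N) ℚ) : Matrix (Fin N) (Fin N) ℚ).det = 1 :=
        (Y ^ m₀).2
      rw [h4] at h2
      exact h2
    exact_mod_cast h1
  obtain ⟨b₀, hb₀⟩ : ∃ b : SpecialLinearGroup (Fin N) ℤ,
      (b : Matrix (Fin N) (Fin N) ℤ) = B₀ := ⟨⟨B₀, hdet⟩, rfl⟩
  have hinc₀ : SArith.inc N b₀ = Y ^ m₀ := by
    apply Subtype.ext
    change (b₀ : Matrix (Fin N) (Fin N) ℤ).map (Int.cast : ℤ → ℚ) = _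
    rw [hb₀]
    exact hpow₀.symm
  obtain ⟨e, he0, -, he⟩ := Subgroup.exists_pow_mem_of_index_ne_zero
    (Subgroup.FiniteIndex.index_ne_zero (H := L)) b₀
  obtain ⟨m, hmdef⟩ : ∃ m : ℕ, m = m₀ * e := ⟨_, rfl⟩
  have hm : 0 < m := by rw [hmdef]; exact Nat.mul_pos hm₀ he0
  obtain ⟨b, hbdef⟩ : ∃ b : SpecialLinearGroup (Fin N) ℤ, b = b₀ ^ e := ⟨_, rfl⟩
  have hinc : SArith.inc N b = Y ^ m := by
    rw [hbdef, map_pow, hinc₀, ← pow_mul, hmdef]
  have hbM : (b : Matrix (Fin N) (Fin N) ℤ).map (Int.cast : ℤ → ℚ) = (1 + M) ^ m := by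
    have := congrArg (fun y : SpecialLinearGroup (Fin N) ℚ =>
      (y : Matrix (Fin N) (Fin N) ℚ)) hinc
    rw [← hxM]
    exact this
  refine ⟨m, b, hinc, ?_, ?_, by rw [hbdef]; exact he⟩
  · intro h2
    rw [h2, map_one] at hinc
    apply SArith.pow_ne_one hnil hM0 hm
    rw [← hxM]
    exact congrArg (fun y : SpecialLinearGroup (Fin N) ℚ =>
      (y : Matrix (Fin N) (Fin N) ℚ)) hinc.symm
  · have h1 : IsNilpotent (((1 : Matrix (Fin N) (Fin N) ℚ) + M) ^ m - 1) := by
      have hcomm : Commute M (∑ i ∈ Finset.range m, (1 + M) ^ i) := by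
        refine Commute.sum_right _ _ _ fun i _ => ?_
        exact ((Commute.one_right M).add_right (Commute.refl M)).pow_right i
      have h2 := mul_geom_sum (1 + M) m
      rw [add_sub_cancel_left] at h2
      rw [← h2]
      exact hcomm.isNilpotent_mul_right hnil
    obtain ⟨r, hr⟩ := h1
    refine ⟨r, ?_⟩
    apply SArith.map_inj
    have h3 : (((b : Matrix (Fin N) (Fin N) ℤ) - 1) ^ r).map (Int.cast : ℤ → ℚ) =
        ((b : Matrix (Fin N) (Fin N) ℤ).map (Int.cast : ℤ → ℚ) - 1) ^ r := by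
      have h4 := map_pow (RingHom.mapMatrix (m := Fin N) (Int.castRingHom ℚ))
        ((b : Matrix (Fin N) (Fin N) ℤ) - 1) r
      rw [map_sub, map_one] at h4
      exact h4
    rw [h3, hbM, hr]
    ext a b
    simp

end Vale.Agent.P092.H381.PL

namespace Vale.Agent.P092.H381

open Vale.Agent.P092.H381.Sg Vale.Agent.P092.H367

/-- The dichotomy for corners of matrices over `L(Λ)`, for subgroups of `PSL_N(ℚ)`. -/
theorem canon_or_heights_psl {N : ℕ} {Γ : Type} [Group Γ] (hN : 3 ≤ N)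
    (q : Γ →* SpecialLinearGroup (Fin N) ℚ ⧸ Subgroup.center (SpecialLinearGroup (Fin N) ℚ))
    (hq : Function.Injective q)
    (hfi : (q.range.comap ((QuotientGroup.mk'
      (Subgroup.center (SpecialLinearGroup (Fin N) ℚ))).comp (SArith.inc N))).FiniteIndex)
    {Λ : Type} [Group Λ] (hL : Mt.ICC Λ)
    {n : ℕ} {p : Mt.Mat n Λ} (hp : Mt.IsProj p) (θ : Mt.AmpIso Γ Λ n p) :
    (Mt.Canon θ ∧ Mt.trM p = 1) ∨
      ∀ (x : Γ) (k : ℕ) (Y : SpecialLinearGroup (Fin N) ℚ), q (x ^ k) = QuotientGroup.mk Y →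
      Y ≠ 1 → IsNilpotent ((Y : Matrix (Fin N) (Fin N) ℚ) - 1) → Mt.HV θ x := by
  obtain ⟨jj, hjj⟩ := PL.exists_jj hq
  haveI := hfi
  haveI : NeZero (3 : ℕ) := ⟨by norm_num⟩
  haveI : (PL.G3 q).FiniteIndex := inferInstance
  rcases R2.H289.canon_or_heightsc hN (PL.G3 q) (jj.comp (Subgroup.inclusion
      (inf_le_left : PL.G3 q ≤ q.range.comap (PL.pinc N)))) (PL.inj3 (by omega) hjj)
    (PL.ricc3 (by omega) hq hfi hjj) (PL.comm3 hq hfi hjj) hL hp θ with h | h
  · exact Or.inl h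
  right
  intro x k Y hxY hY hnil
  obtain ⟨m, b, hb, hb1, hbn, hbL⟩ := PL.int_pow hY hnil (PL.G3 q)
  have h1 : q (x ^ (k * m)) = PL.pinc N b := by
    rw [pow_mul, map_pow, hxY]
    change _ = QuotientGroup.mk (SArith.inc N b)
    rw [hb]
    rfl
  refine h x (k * m) ⟨b, hbL⟩ (hq ?_) (fun h2 => hb1 (congrArg Subtype.val h2)) hbn
  rw [h1]
  exact (hjj ⟨b, (Subgroup.mem_inf.mp hbL).1⟩).symm

/-- Subgroups of `PSL_N(ℚ)` commensurable with the image of `SL_N(ℤ)` are ICC. -/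
theorem icc_psl {N : ℕ} {Γ : Type} [Group Γ] (hN : 2 ≤ N)
    (q : Γ →* SpecialLinearGroup (Fin N) ℚ ⧸ Subgroup.center (SpecialLinearGroup (Fin N) ℚ))
    (hq : Function.Injective q)
    (hfi : (q.range.comap ((QuotientGroup.mk'
      (Subgroup.center (SpecialLinearGroup (Fin N) ℚ))).comp (SArith.inc N))).FiniteIndex) :
    Mt.ICC Γ := by
  obtain ⟨jj, hjj⟩ := PL.exists_jj hq
  exact ricc_icc (PL.ricc3 hN hq hfi hjj)

end Vale.Agent.P092.H381
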