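import Vale.Agent.P092.R3.H381.StAdj
import Vale.Agent.P092.R3.H367.StProj
import Vale.Agent.P092.R3.H367.StGapH

/-!
Admissibility of the integral elements and the uniform gap.
-/

namespace Vale.Agent.P092.H381.Adj

open Vale.Agent.P092.H367

/-- The integral elements of the groups `Arith i P` are admissible, and the gap is uniform. -/
def Unif {G GZ : Type} [Group G] [Group GZ] (i : GZ →* G) (P : G → Prop) : Prop :=
  ∀ (Γ : Type) [Group Γ] (q : Γ →* G ⧸ Subgroup.center G), Arith i P q →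
    (∀ t, Sg.Adm (Proj.HP i q) t) ∧
    ∀ Q : Finset (Proj.HP i q), Q.Nonempty →
      Subgroup.closure (Q : Set (Proj.HP i q)) = ⊤ →
      ∃ δ : ℝ, 0 < δ ∧ δ < 1 ∧ Mt.UGapH Γ (Proj.HP i q) Q δ

end Vale.Agent.P092.H381.Adj
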