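import Vale.Agent.P092.R3.H381.AdjGen
import Vale.Agent.P092.R3.H381.StUnif
import Vale.Agent.P092.R3.H381.PSlQ

/-!
Subgroups of `PGL_N(ℚ)` commensurable with the image of `SL_N(ℤ)`, `N ≥ 3`: an isomorphism onto a
corner of matrices over `L(Λ)` is canonical, or the heights vanish on average along every element
with a nontrivial unipotent power; the integral elements are admissible with Kazhdan pairs.
-/

set_option linter.all false

open Matrix

namespace Vale.Agent.P092.H381.AdjL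

open Vale.Agent.P092.H381.Sg Vale.Agent.P092.H367 Vale.Agent.P092.H885

variable {N : ℕ}

/-- The homomorphism `SL_N(ℤ) → GL_N(ℚ)`. -/
abbrev ginc (N : ℕ) : SpecialLinearGroup (Fin N) ℤ →* GL (Fin N) ℚ := Adj.incL N

theorem ginc_val (l : SpecialLinearGroup (Fin N) ℤ) :
    ((ginc N l : GL (Fin N) ℚ) : Matrix (Fin N) (Fin N) ℚ) =
      (l : Matrix (Fin N) (Fin N) ℤ).map (Int.cast : ℤ → ℚ) := rfl

theorem ginc_inj : Function.Injective (ginc N) := by
  intro a b h
  apply Subtype.ext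
  apply SArith.map_inj
  rw [← ginc_val, ← ginc_val, h]

/-- A matrix commuting with nontrivial transvections is scalar. -/
theorem scalar_of_comm (hN : 2 ≤ N) {A : Matrix (Fin N) (Fin N) ℚ}
    (hcom : ∀ i j : Fin N, i ≠ j → ∃ c : ℚ, c ≠ 0 ∧
      A * transvection i j c = transvection i j c * A) :
    ∃ r : ℚ, A = r • (1 : Matrix (Fin N) (Fin N) ℚ) := by
  have hs : ∀ i j : Fin N, i ≠ j → ∃ c : ℚ, c ≠ 0 ∧
      A * Matrix.single i j c = Matrix.single i j c * A := by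
    intro i j hij
    obtain ⟨c, hc, h⟩ := hcom i j hij
    refine ⟨c, hc, ?_⟩
    rw [transvection, Matrix.mul_add, Matrix.add_mul, Matrix.mul_one, Matrix.one_mul,
      add_right_inj] at h
    exact h
  have hoff : ∀ a i : Fin N, a ≠ i → A a i = 0 := by
    intro a i hai
    obtain ⟨c, hc, h⟩ := hs i a hai.symm
    have h3 := congrFun (congrFun h a) a
    rw [Matrix.mul_single_apply_same, Matrix.single_mul_apply_of_ne _ _ _ _ _ hai] at h3
    exact (mul_eq_zero.mp h3).resolve_right hc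
  have hdiag : ∀ i j : Fin N, A i i = A j j := by
    intro i j
    by_cases hij : i = j
    · rw [hij]
    obtain ⟨c, hc, h⟩ := hs i j hij
    have h3 := congrFun (congrFun h i) j
    rw [Matrix.mul_single_apply_same, Matrix.single_mul_apply_same] at h3
    have h4 : c * (A i i - A j j) = 0 := by rw [mul_sub, ← h3]; ring
    exact sub_eq_zero.mp ((mul_eq_zero.mp h4).resolve_left hc)
  have i0 : Fin N := ⟨0, by omega⟩
  refine ⟨A i0 i0, ?_⟩
  ext i j
  by_cases hij : i = j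
  · subst hij
    rw [Matrix.smul_apply, Matrix.one_apply_eq, smul_eq_mul, mul_one]
    exact hdiag _ _
  · rw [Matrix.smul_apply, Matrix.one_apply_ne hij, smul_zero]
    exact hoff _ _ hij

/-- Orbits modulo the centre under finite index subgroups of `SL_N(ℤ)` are infinite. -/
theorem horb (hN : 2 ≤ N) (L : Subgroup (SpecialLinearGroup (Fin N) ℤ)) [L.FiniteIndex]
    (X : GL (Fin N) ℚ) (hX : X ∉ Subgroup.center (GL (Fin N) ℚ)) :
    {y : GL (Fin N) ℚ ⧸ Subgroup.center (GL (Fin N) ℚ) |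
      ∃ l ∈ L, y = QuotientGroup.mk (ginc N l * X * (ginc N l)⁻¹)}.Infinite := by
  intro hfin
  haveI : Nonempty (Fin N) := ⟨⟨0, by omega⟩⟩
  apply hX
  have hcom : ∀ i j : Fin N, i ≠ j → ∃ c : ℚ, c ≠ 0 ∧
      (X : Matrix (Fin N) (Fin N) ℚ) * transvection i j c =
        transvection i j c * (X : Matrix (Fin N) (Fin N) ℚ) := by
    intro i j hij
    obtain ⟨d, hd0, -, hd⟩ := Subgroup.exists_pow_mem_of_index_ne_zero
      (Subgroup.FiniteIndex.index_ne_zero (H := L)) (SlnT.es i j hij 1)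
    obtain ⟨m, hm0, hm⟩ := Adj.comm_of_proj (X := X) (u := ginc N (SlnT.es i j hij 1 ^ d)) hfin
      (fun k => ⟨(SlnT.es i j hij 1 ^ d) ^ k, L.pow_mem hd k, by rw [map_pow (ginc N) _ k]⟩)
    have h7 : (SlnT.es i j hij 1 ^ d) ^ m = SlnT.es i j hij ((d * m : ℕ) : ℤ) := by
      rw [← pow_mul, SlnT.es_pow, mul_one]
    rw [← map_pow, h7] at hm
    have h8 : ((ginc N (SlnT.es i j hij ((d * m : ℕ) : ℤ)) : GL (Fin N) ℚ) :
        Matrix (Fin N) (Fin N) ℚ) = transvection i j ((d * m : ℕ) : ℚ) := by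
      rw [ginc_val, SlnT.es_val, transvection, transvection]
      ext a b
      simp [Matrix.single_apply, Matrix.one_apply]
    have h5 : ((ginc N (SlnT.es i j hij ((d * m : ℕ) : ℤ)) : GL (Fin N) ℚ) :
        Matrix (Fin N) (Fin N) ℚ) * (X : Matrix (Fin N) (Fin N) ℚ) =
        (X : Matrix (Fin N) (Fin N) ℚ) *
          ((ginc N (SlnT.es i j hij ((d * m : ℕ) : ℤ)) : GL (Fin N) ℚ) :
        Matrix (Fin N) (Fin N) ℚ) := congrArg Units.val hm
    rw [h8] at h5
    exact ⟨((d * m : ℕ) : ℚ), by positivity, h5.symm⟩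
  obtain ⟨r, hr⟩ := scalar_of_comm hN hcom
  exact Adj.scalar_central hr

/-- `X⁻¹ l X` is integral for `l` in a congruence subgroup. -/
theorem conj_mem (g : GL (Fin N) ℚ) : ∃ n : ℕ, 0 < n ∧
    ∀ l ∈ SArith.cong N n, g⁻¹ * ginc N l * g ∈ (ginc N).range := by
  obtain ⟨d, hd, A, hA⟩ := SArith.exists_denom (g : Matrix (Fin N) (Fin N) ℚ)
  obtain ⟨e, he, A', hA'⟩ := SArith.exists_denom ((g⁻¹ : GL (Fin N) ℚ) :
    Matrix (Fin N) (Fin N) ℚ)
  refine ⟨d * e, Nat.mul_pos hd he, fun l hl => ?_⟩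
  obtain ⟨B, hB⟩ := SArith.mem_cong hl
  have hgg : ((g⁻¹ : GL (Fin N) ℚ) : Matrix (Fin N) (Fin N) ℚ) *
      (g : Matrix (Fin N) (Fin N) ℚ) = 1 :=
    congrArg Units.val (inv_mul_cancel g)
  have key : (1 + A' * B * A).map (Int.cast : ℤ → ℚ) =
      ((g⁻¹ * ginc N l * g : GL (Fin N) ℚ) : Matrix (Fin N) (Fin N) ℚ) := by
    have e1 : ((g⁻¹ * ginc N l * g : GL (Fin N) ℚ) : Matrix (Fin N) (Fin N) ℚ) =
        ((g⁻¹ : GL (Fin N) ℚ) : Matrix (Fin N) (Fin N) ℚ) *
          (l : Matrix (Fin N) (Fin N) ℤ).map (Int.cast : ℤ → ℚ) *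
          (g : Matrix (Fin N) (Fin N) ℚ) := rfl
    have e2 : (l : Matrix (Fin N) (Fin N) ℤ).map (Int.cast : ℤ → ℚ) =
        1 + ((d : ℚ) * e) • B.map (Int.cast : ℤ → ℚ) := by
      rw [hB]
      ext i j
      rw [Matrix.map_apply, Matrix.add_apply, Matrix.smul_apply, Matrix.add_apply,
        Matrix.smul_apply, Matrix.map_apply, smul_eq_mul, smul_eq_mul, Int.cast_add, Int.cast_mul]
      push_cast
      congr 1
      by_cases hij : i = j
      · subst hij
        simp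
      · simp [Matrix.one_apply_ne hij]
    have e3 : (1 + A' * B * A).map (Int.cast : ℤ → ℚ) =
        1 + A'.map (Int.cast : ℤ → ℚ) * B.map (Int.cast : ℤ → ℚ) *
          A.map (Int.cast : ℤ → ℚ) := by
      have := (RingHom.mapMatrix (m := Fin N) (Int.castRingHom ℚ)).map_add 1 (A' * B * A)
      rw [map_one, map_mul, map_mul] at this
      exact this
    rw [e1, e2, e3, hA, hA', Matrix.mul_add, Matrix.add_mul, Matrix.mul_one, hgg]
    congr 1
    simp only [Matrix.smul_mul, Matrix.mul_smul, smul_smul]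
  have hdet : (1 + A' * B * A).det = 1 := by
    have h1 : ((1 + A' * B * A).det : ℚ) = 1 := by
      have h2 := (RingHom.map_det (Int.castRingHom ℚ) (1 + A' * B * A))
      have h3 : (RingHom.mapMatrix (m := Fin N) (Int.castRingHom ℚ)) (1 + A' * B * A) =
          (1 + A' * B * A).map (Int.cast : ℤ → ℚ) := rfl
      rw [h3, key] at h2
      have h4 : ((g⁻¹ * ginc N l * g : GL (Fin N) ℚ) : Matrix (Fin N) (Fin N) ℚ).det = 1 := by
        have h5 : Matrix.GeneralLinearGroup.det (g⁻¹ * ginc N l * g) =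
            Matrix.GeneralLinearGroup.det (ginc N l) := by
          rw [map_mul, map_mul, map_inv, mul_comm _ (Matrix.GeneralLinearGroup.det (ginc N l)),
            inv_mul_cancel_right]
        have h6 := congrArg Units.val h5
        have h7 : ((ginc N l : GL (Fin N) ℚ) : Matrix (Fin N) (Fin N) ℚ).det = 1 :=
          (SArith.inc N l).2
        exact h6.trans h7
      rw [h4] at h2
      exact h2
    exact_mod_cast h1
  refine ⟨⟨1 + A' * B * A, hdet⟩, ?_⟩
  apply Units.ext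
  exact key

theorem hconj {Γ : Type} [Group Γ] (q : Γ →* GL (Fin N) ℚ ⧸ Subgroup.center (GL (Fin N) ℚ))
    (g : Γ) : ∃ (X : GL (Fin N) ℚ) (C : Subgroup (SpecialLinearGroup (Fin N) ℤ)),
      QuotientGroup.mk X = q g ∧ C.FiniteIndex ∧ ∀ l ∈ C, X⁻¹ * ginc N l * X ∈ (ginc N).range := by
  obtain ⟨X, hX⟩ := QuotientGroup.mk_surjective (q g)
  obtain ⟨n, hn, h⟩ := conj_mem X
  haveI : NeZero n := ⟨hn.ne'⟩
  exact ⟨X, SArith.cong N n, hX, inferInstance, h⟩

variable {Γ : Type} [Group Γ] {q : Γ →* GL (Fin N) ℚ ⧸ Subgroup.center (GL (Fin N) ℚ)}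
  {jj : q.range.comap (Adj.pin (ginc N)) →* Γ}

/-- The integral elements of level 3. -/
abbrev G3 (q : Γ →* GL (Fin N) ℚ ⧸ Subgroup.center (GL (Fin N) ℚ)) :
    Subgroup (SpecialLinearGroup (Fin N) ℤ) :=
  q.range.comap (Adj.pin (ginc N)) ⊓ SArith.cong N 3

theorem inj3 (hN : 2 ≤ N) (hjj : ∀ l, q (jj l) = Adj.pin (ginc N) l) :
    Function.Injective (jj.comp (Subgroup.inclusion
      (inf_le_left : G3 q ≤ q.range.comap (Adj.pin (ginc N))))) := by
  haveI : Nonempty (Fin N) := ⟨⟨0, by omega⟩⟩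
  rw [← MonoidHom.ker_eq_bot_iff, Subgroup.eq_bot_iff_forall]
  intro l hl
  have h1 : jj (Subgroup.inclusion
    (inf_le_left : G3 q ≤ q.range.comap (Adj.pin (ginc N))) l) = 1 := hl
  have h2 : Adj.pin (ginc N) (l : SpecialLinearGroup (Fin N) ℤ) = 1 := by
    have h3 := hjj (Subgroup.inclusion (inf_le_left : G3 q ≤ q.range.comap (Adj.pin (ginc N))) l)
    rw [h1, map_one] at h3
    exact h3.symm
  have h3 : ginc N (l : SpecialLinearGroup (Fin N) ℤ) ∈ Subgroup.center (GL (Fin N) ℚ) :=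
    (QuotientGroup.eq_one_iff _).mp h2
  have h4 : SArith.inc N (l : SpecialLinearGroup (Fin N) ℤ) ∈
      Subgroup.center (SpecialLinearGroup (Fin N) ℚ) := by
    obtain ⟨c, hc⟩ := Adj.central_scalar h3
    rw [Subgroup.mem_center_iff]
    intro g
    apply Subtype.ext
    change (g : Matrix (Fin N) (Fin N) ℚ) *
      ((ginc N (l : SpecialLinearGroup (Fin N) ℤ) : GL (Fin N) ℚ) : Matrix (Fin N) (Fin N) ℚ) =
      ((ginc N (l : SpecialLinearGroup (Fin N) ℤ) : GL (Fin N) ℚ) : Matrix (Fin N) (Fin N) ℚ) *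
      (g : Matrix (Fin N) (Fin N) ℚ)
    rw [hc, Matrix.mul_smul, Matrix.smul_mul, Matrix.mul_one, Matrix.one_mul]
  rcases PL.center_pm hN h4 with h | h
  · apply Subtype.ext
    apply inc_inj
    rw [h]
    exact (map_one (SArith.inc N)).symm
  · exfalso
    have h4 : ((l : SpecialLinearGroup (Fin N) ℤ) : Matrix (Fin N) (Fin N) ℤ) = -1 := by
      apply SArith.map_inj
      have h5 : (-1 : Matrix (Fin N) (Fin N) ℤ).map (Int.cast : ℤ → ℚ) = -1 := by
        ext i j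
        by_cases hij : i = j
        · subst hij; simp
        · simp [Matrix.one_apply_ne hij]
      rw [h5]
      exact h
    obtain ⟨B, hB⟩ := SArith.mem_cong (Subgroup.mem_inf.mp l.2).2
    rw [h4] at hB
    have h5 := congrFun (congrFun hB ⟨0, by omega⟩) ⟨0, by omega⟩
    rw [Matrix.neg_apply, Matrix.add_apply, Matrix.smul_apply, Matrix.one_apply_eq,
      smul_eq_mul] at h5
    push_cast at h5
    omega

end Vale.Agent.P092.H381.AdjL

namespace Vale.Agent.P092.H381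

open Vale.Agent.P092.H381.Sg Vale.Agent.P092.H367 Vale.Agent.P092.H885

/-- The dichotomy for corners of matrices over `L(Λ)`, for subgroups of `PGL_N(ℚ)`. -/
theorem canon_or_heights_pgl {N : ℕ} {Γ : Type} [Group Γ] (hN : 3 ≤ N)
    (q : Γ →* GL (Fin N) ℚ ⧸ Subgroup.center (GL (Fin N) ℚ)) (hq : Function.Injective q)
    (hfi : (q.range.comap ((QuotientGroup.mk' (Subgroup.center (GL (Fin N) ℚ))).comp
      (AdjL.ginc N))).FiniteIndex)
    {Λ : Type} [Group Λ] (hL : Mt.ICC Λ)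
    {n : ℕ} {p : Mt.Mat n Λ} (hp : Mt.IsProj p) (θ : Mt.AmpIso Γ Λ n p) :
    (Mt.Canon θ ∧ Mt.trM p = 1) ∨
      ∀ (x : Γ) (k : ℕ) (Y : GL (Fin N) ℚ), q (x ^ k) = QuotientGroup.mk Y →
      Y ≠ 1 → IsNilpotent ((Y : Matrix (Fin N) (Fin N) ℚ) - 1) → Mt.HV θ x := by
  obtain ⟨jj, hjj⟩ := Adj.exists_jj (i := AdjL.ginc N) hq
  haveI := hfi
  haveI : NeZero (3 : ℕ) := ⟨by norm_num⟩
  haveI : (AdjL.G3 q).FiniteIndex := inferInstance
  rcases R2.H289.canon_or_heightsc hN (AdjL.G3 q) (jj.comp (Subgroup.inclusion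
      (inf_le_left : AdjL.G3 q ≤ q.range.comap (Adj.pin (AdjL.ginc N)))))
    (AdjL.inj3 (by omega) hjj)
    (Adj.ricc_sub hq (AdjL.horb (by omega)) hjj _ _)
    (Adj.comm_sub hq hfi (AdjL.hconj q) hjj _ _) hL hp θ with h | h
  · exact Or.inl h
  right
  intro x k Y hxY hY hnil
  obtain ⟨Y', hY'⟩ : ∃ Y' : SpecialLinearGroup (Fin N) ℚ,
      (Y' : Matrix (Fin N) (Fin N) ℚ) = (Y : Matrix (Fin N) (Fin N) ℚ) :=
    ⟨⟨_, Adj.det_unipotent hnil⟩, rfl⟩
  have hY1 : Y' ≠ 1 := by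
    intro h0
    apply hY
    apply Units.ext
    rw [← hY', h0]
    rfl
  obtain ⟨m, b, hb, hb1, hbn, hbL⟩ := PL.int_pow (L := AdjL.G3 q) hY1 (by rw [hY']; exact hnil)
  have hbY : AdjL.ginc N b = Y ^ m := by
    apply Units.ext
    change ((SArith.inc N b : SpecialLinearGroup (Fin N) ℚ) : Matrix (Fin N) (Fin N) ℚ) = _
    rw [hb]
    change (Y' : Matrix (Fin N) (Fin N) ℚ) ^ m = _
    rw [hY']
    exact (Units.val_pow_eq_pow_val Y m).symm
  have h1 : q (x ^ (k * m)) = Adj.pin (AdjL.ginc N) b := by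
    rw [pow_mul, map_pow, hxY]
    change _ = QuotientGroup.mk (AdjL.ginc N b)
    rw [hbY]
    rfl
  refine h x (k * m) ⟨b, hbL⟩ (hq ?_) (fun h2 => hb1 (congrArg Subtype.val h2)) hbn
  rw [h1]
  exact (hjj ⟨b, (Subgroup.mem_inf.mp hbL).1⟩).symm

/-- Subgroups of `PGL_N(ℚ)` commensurable with the image of `SL_N(ℤ)` are ICC. -/
theorem icc_pgl {N : ℕ} {Γ : Type} [Group Γ] (hN : 2 ≤ N)
    (q : Γ →* GL (Fin N) ℚ ⧸ Subgroup.center (GL (Fin N) ℚ)) (hq : Function.Injective q)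
    (hfi : (q.range.comap ((QuotientGroup.mk' (Subgroup.center (GL (Fin N) ℚ))).comp
      (AdjL.ginc N))).FiniteIndex) : Mt.ICC Γ := by
  obtain ⟨jj, hjj⟩ := Adj.exists_jj (i := AdjL.ginc N) hq
  exact ricc_icc (Adj.ricc_p hq hfi (AdjL.horb hN) hjj)

/-- Groups of rational matrices modulo scalars. -/
theorem unif_L {N : ℕ} (hN : 3 ≤ N) (hS : ∀ (Γ : Type) [Group Γ], SubAll Γ) :
    Adj.Unif (Adj.incL N) (fun _ => True) := by
  intro Γ _ q hq
  have hA := Adj.adm hq.1 hq.2.2 (AdjL.horb (by omega)) (AdjL.hconj q)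
  exact ⟨hA, fun Q hQ hgen =>
    uniformH (hS Γ) hA (Proj.kazhdan (AdjL.ginc N) q hq.1 hq.2.2 (kazhdan_sln hN)) hQ hgen⟩

end Vale.Agent.P092.H381
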