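import Vale.Agent.P092.R3.H381.AdjGen
import Vale.Agent.P092.R3.H381.StUnif
import Vale.Agent.P092.R2.H289.PSpQ

/-!
Subgroups of `PGSp_{2N}(ℚ)` (rational similitudes modulo scalars) commensurable with the image of
`Sp_{2N}(ℤ)`, `N ≥ 3`: an isomorphism onto a corner of matrices over `L(Λ)` is canonical, or the
heights vanish on average along every element with a nontrivial unipotent power; the integral
elements are admissible with Kazhdan pairs.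
-/

set_option linter.all false

open Matrix

namespace Vale.Agent.P092.R2.H289.Spn.AQ

open Vale.Agent.P092.H381.Sg Vale.Agent.P092.H367 Vale.Agent.P092.H885 Vale.Agent.P092.H381

variable {N : ℕ}

/-- The homomorphism `Sp_{2N}(ℤ) → GL_{2N}(ℚ)`. -/
abbrev ginc (N : ℕ) : symplecticGroup (Fin N) ℤ →* GL (Fin N ⊕ Fin N) ℚ := Adj.incS N

theorem ginc_val (l : symplecticGroup (Fin N) ℤ) :
    ((ginc N l : GL (Fin N ⊕ Fin N) ℚ) : Matrix (Fin N ⊕ Fin N) (Fin N ⊕ Fin N) ℚ) =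
      (l : Matrix (Fin N ⊕ Fin N) (Fin N ⊕ Fin N) ℤ).map (Int.cast : ℤ → ℚ) := rfl

/-- A matrix preserving all lines is scalar. -/
theorem scalar_of_par (hN : 1 ≤ N) {A : Matrix (Fin N ⊕ Fin N) (Fin N ⊕ Fin N) ℚ}
    (hpar : ∀ v : Fin N ⊕ Fin N → ℤ, v ≠ 0 → ∀ i i',
      SpArith.qv v i' * (A *ᵥ SpArith.qv v) i = SpArith.qv v i * (A *ᵥ SpArith.qv v) i') :
    ∃ r : ℚ, A = r • (1 : Matrix (Fin N ⊕ Fin N) (Fin N ⊕ Fin N) ℚ) := by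
  have hoff : ∀ i m, i ≠ m → A i m = 0 := by
    intro i m him
    have h0 : (Pi.single m 1 : Fin N ⊕ Fin N → ℤ) ≠ 0 := by
      intro h
      have := congrFun h m
      simp at this
    have h3 : SpArith.qv (Pi.single m 1 : Fin N ⊕ Fin N → ℤ) = Pi.single m 1 := by
      ext a
      by_cases ha : a = m
      · subst ha; simp [SpArith.qv]
      · simp [SpArith.qv, Pi.single_eq_of_ne ha]
    have h1 := hpar _ h0 i m
    rw [h3, mulVec_single_one, Pi.single_eq_same, Pi.single_eq_of_ne him, zero_mul, one_mul] at h1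
    exact h1
  have hdiag : ∀ m l, A m m = A l l := by
    intro m l
    by_cases hml : m = l
    · rw [hml]
    have h0 : (Pi.single m 1 + Pi.single l 1 : Fin N ⊕ Fin N → ℤ) ≠ 0 := by
      intro h
      have := congrFun h m
      simp [Pi.single_eq_of_ne hml] at this
    have h3 : SpArith.qv (Pi.single m 1 + Pi.single l 1 : Fin N ⊕ Fin N → ℤ) =
        Pi.single m 1 + Pi.single l 1 := by
      ext a
      by_cases ha : a = m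
      · subst ha; simp [SpArith.qv, Pi.single_eq_of_ne hml]
      · by_cases hb : a = l
        · subst hb; simp [SpArith.qv, Pi.single_eq_of_ne ha]
        · simp [SpArith.qv, Pi.single_eq_of_ne ha, Pi.single_eq_of_ne hb]
    have h1 := hpar _ h0 m l
    rw [h3, mulVec_add, mulVec_single_one, mulVec_single_one] at h1
    simp only [Pi.add_apply, Pi.single_eq_same, Pi.single_eq_of_ne hml,
      Pi.single_eq_of_ne (Ne.symm hml), zero_add, add_zero, one_mul, col_apply] at h1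
    rw [hoff m l hml, hoff l m (Ne.symm hml)] at h1
    simpa using h1
  have i0 : Fin N := ⟨0, by omega⟩
  refine ⟨A (Sum.inl i0) (Sum.inl i0), ?_⟩
  ext i j
  rw [Matrix.smul_apply, Matrix.one_apply, smul_eq_mul]
  split_ifs with hij
  · rw [← hij, mul_one]; exact hdiag _ _
  · rw [mul_zero]; exact hoff _ _ hij

/-- Orbits modulo the centre under finite index subgroups of `Sp_{2N}(ℤ)` are infinite. -/
theorem horb (hN : 1 ≤ N) (L : Subgroup (symplecticGroup (Fin N) ℤ)) [L.FiniteIndex]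
    (X : GL (Fin N ⊕ Fin N) ℚ) (hX : X ∉ Subgroup.center (GL (Fin N ⊕ Fin N) ℚ)) :
    {y : GL (Fin N ⊕ Fin N) ℚ ⧸ Subgroup.center (GL (Fin N ⊕ Fin N) ℚ) |
      ∃ l ∈ L, y = QuotientGroup.mk (ginc N l * X * (ginc N l)⁻¹)}.Infinite := by
  intro hfin
  haveI : Nonempty (Fin N ⊕ Fin N) := ⟨Sum.inl ⟨0, by omega⟩⟩
  apply hX
  have hpar : ∀ v : Fin N ⊕ Fin N → ℤ, v ≠ 0 → ∀ i i',
      SpArith.qv v i' * ((X : Matrix (Fin N ⊕ Fin N) (Fin N ⊕ Fin N) ℚ) *ᵥ SpArith.qv v) i =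
      SpArith.qv v i * ((X : Matrix (Fin N ⊕ Fin N) (Fin N ⊕ Fin N) ℚ) *ᵥ SpArith.qv v) i' := by
    intro v hv i i'
    obtain ⟨d, hd0, -, hd⟩ := Subgroup.exists_pow_mem_of_index_ne_zero
      (Subgroup.FiniteIndex.index_ne_zero (H := L)) (SpT.ts v 1)
    obtain ⟨m, hm0, hm⟩ := Adj.comm_of_proj (X := X) (u := ginc N (SpT.ts v 1 ^ d)) hfin
      (fun k => ⟨(SpT.ts v 1 ^ d) ^ k, L.pow_mem hd k, by rw [map_pow (ginc N) _ k]⟩)
    have h7 : (SpT.ts v 1 ^ d) ^ m = SpT.ts v ((d * m : ℕ) : ℤ) := by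
      rw [← SpT.ts_pow, pow_mul]
    rw [← map_pow, h7] at hm
    have h8 : ((ginc N (SpT.ts v ((d * m : ℕ) : ℤ)) : GL (Fin N ⊕ Fin N) ℚ) :
        Matrix (Fin N ⊕ Fin N) (Fin N ⊕ Fin N) ℚ) =
        1 + (((d * m : ℕ) : ℤ) : ℚ) • vecMulVec (SpArith.qv v) (SpArith.qv v ᵥ* J (Fin N) ℚ) := by
      rw [← SpArith.map_tm, ginc_val]
      rfl
    have h5 : ((ginc N (SpT.ts v ((d * m : ℕ) : ℤ)) : GL (Fin N ⊕ Fin N) ℚ) :
        Matrix (Fin N ⊕ Fin N) (Fin N ⊕ Fin N) ℚ) *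
        (X : Matrix (Fin N ⊕ Fin N) (Fin N ⊕ Fin N) ℚ) =
        (X : Matrix (Fin N ⊕ Fin N) (Fin N ⊕ Fin N) ℚ) *
        ((ginc N (SpT.ts v ((d * m : ℕ) : ℤ)) : GL (Fin N ⊕ Fin N) ℚ) :
        Matrix (Fin N ⊕ Fin N) (Fin N ⊕ Fin N) ℚ) := congrArg Units.val hm
    rw [h8] at h5
    refine SpArith.par_of_comm ?_ ?_ h5.symm i i'
    · intro h0
      apply hv
      ext a
      have := congrFun h0 a
      simpa [SpArith.qv] using this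
    · have : 0 < d * m := Nat.mul_pos hd0 hm0
      positivity
  obtain ⟨r, hr⟩ := scalar_of_par hN hpar
  exact Adj.scalar_central hr

theorem J_ne_zero (hN : 1 ≤ N) : (J (Fin N) ℚ) (Sum.inl ⟨0, hN⟩) (Sum.inr ⟨0, hN⟩) = -1 := by
  rw [Matrix.J, Matrix.fromBlocks_apply₁₂, Matrix.neg_apply, Matrix.one_apply_eq]

theorem J_ne_zero' (hN : 1 ≤ N) : (J (Fin N) ℤ) (Sum.inl ⟨0, hN⟩) (Sum.inr ⟨0, hN⟩) = -1 := by
  rw [Matrix.J, Matrix.fromBlocks_apply₁₂, Matrix.neg_apply, Matrix.one_apply_eq]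

/-- The multiplier of a similitude is not zero. -/
theorem mult_ne_zero (hN : 1 ≤ N) {X : GL (Fin N ⊕ Fin N) ℚ} {μ : ℚ}
    (h : (X : Matrix (Fin N ⊕ Fin N) (Fin N ⊕ Fin N) ℚ)ᵀ * J (Fin N) ℚ *
      (X : Matrix (Fin N ⊕ Fin N) (Fin N ⊕ Fin N) ℚ) = μ • J (Fin N) ℚ) : μ ≠ 0 := by
  rintro rfl
  rw [zero_smul] at h
  obtain ⟨Y, hY⟩ : ∃ Y : Matrix (Fin N ⊕ Fin N) (Fin N ⊕ Fin N) ℚ,
    Y = ((X⁻¹ : GL (Fin N ⊕ Fin N) ℚ) : Matrix (Fin N ⊕ Fin N) (Fin N ⊕ Fin N) ℚ) := ⟨_, rfl⟩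
  have h1 : (X : Matrix (Fin N ⊕ Fin N) (Fin N ⊕ Fin N) ℚ) * Y = 1 := by
    rw [hY]
    exact congrArg Units.val (mul_inv_cancel X)
  have h2 : J (Fin N) ℚ = 0 := by
    calc J (Fin N) ℚ = ((X : Matrix (Fin N ⊕ Fin N) (Fin N ⊕ Fin N) ℚ) * Y)ᵀ * J (Fin N) ℚ *
          ((X : Matrix (Fin N ⊕ Fin N) (Fin N ⊕ Fin N) ℚ) * Y) := by
          rw [h1, transpose_one, Matrix.one_mul, Matrix.mul_one]
      _ = Yᵀ * ((X : Matrix (Fin N ⊕ Fin N) (Fin N ⊕ Fin N) ℚ)ᵀ * J (Fin N) ℚ *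
          (X : Matrix (Fin N ⊕ Fin N) (Fin N ⊕ Fin N) ℚ)) * Y := by
          rw [transpose_mul]
          simp only [Matrix.mul_assoc]
      _ = 0 := by rw [h, Matrix.mul_zero, Matrix.zero_mul]
  have h3 := J_ne_zero hN
  rw [h2] at h3
  norm_num at h3

/-- `X⁻¹ l X` is integral and symplectic for a similitude `X` and `l` in a congruence subgroup. -/
theorem conj_mem (hN : 1 ≤ N) (g : GL (Fin N ⊕ Fin N) ℚ) {μ : ℚ}
    (hg : (g : Matrix (Fin N ⊕ Fin N) (Fin N ⊕ Fin N) ℚ)ᵀ * J (Fin N) ℚ *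
      (g : Matrix (Fin N ⊕ Fin N) (Fin N ⊕ Fin N) ℚ) = μ • J (Fin N) ℚ) : ∃ n : ℕ, 0 < n ∧
    ∀ l ∈ SpArith.cong N n, g⁻¹ * ginc N l * g ∈ (ginc N).range := by
  have hμ := mult_ne_zero hN hg
  obtain ⟨d, hd, A, hA⟩ := SpArith.exists_denom (g : Matrix (Fin N ⊕ Fin N) (Fin N ⊕ Fin N) ℚ)
  obtain ⟨e, he, A', hA'⟩ := SpArith.exists_denom ((g⁻¹ : GL (Fin N ⊕ Fin N) ℚ) :
    Matrix (Fin N ⊕ Fin N) (Fin N ⊕ Fin N) ℚ)
  refine ⟨d * e, Nat.mul_pos hd he, fun l hl => ?_⟩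
  obtain ⟨B, hB⟩ := SpArith.mem_cong hl
  have hgg : ((g⁻¹ : GL (Fin N ⊕ Fin N) ℚ) : Matrix (Fin N ⊕ Fin N) (Fin N ⊕ Fin N) ℚ) *
      (g : Matrix (Fin N ⊕ Fin N) (Fin N ⊕ Fin N) ℚ) = 1 :=
    congrArg Units.val (inv_mul_cancel g)
  have hgg' : (g : Matrix (Fin N ⊕ Fin N) (Fin N ⊕ Fin N) ℚ) *
      ((g⁻¹ : GL (Fin N ⊕ Fin N) ℚ) : Matrix (Fin N ⊕ Fin N) (Fin N ⊕ Fin N) ℚ) = 1 :=
    congrArg Units.val (mul_inv_cancel g)
  have e1 : ((g⁻¹ * ginc N l * g : GL (Fin N ⊕ Fin N) ℚ) :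
      Matrix (Fin N ⊕ Fin N) (Fin N ⊕ Fin N) ℚ) =
      ((g⁻¹ : GL (Fin N ⊕ Fin N) ℚ) : Matrix (Fin N ⊕ Fin N) (Fin N ⊕ Fin N) ℚ) *
        (l : Matrix (Fin N ⊕ Fin N) (Fin N ⊕ Fin N) ℤ).map (Int.cast : ℤ → ℚ) *
        (g : Matrix (Fin N ⊕ Fin N) (Fin N ⊕ Fin N) ℚ) := rfl
  have key : (1 + A' * B * A).map (Int.cast : ℤ → ℚ) =
      ((g⁻¹ * ginc N l * g : GL (Fin N ⊕ Fin N) ℚ) :
        Matrix (Fin N ⊕ Fin N) (Fin N ⊕ Fin N) ℚ) := by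
    have e2 : (l : Matrix (Fin N ⊕ Fin N) (Fin N ⊕ Fin N) ℤ).map (Int.cast : ℤ → ℚ) =
        1 + ((d : ℚ) * e) • B.map (Int.cast : ℤ → ℚ) := by
      rw [hB]
      ext i j
      rw [Matrix.map_apply, Matrix.add_apply, Matrix.smul_apply, Matrix.add_apply,
        Matrix.smul_apply, Matrix.map_apply, smul_eq_mul, smul_eq_mul, Int.cast_add, Int.cast_mul]
      push_cast
      congr 1
      by_cases hij : i = j
      · subst hij
        simp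
      · simp [Matrix.one_apply_ne hij]
    have e3 : (1 + A' * B * A).map (Int.cast : ℤ → ℚ) =
        1 + A'.map (Int.cast : ℤ → ℚ) * B.map (Int.cast : ℤ → ℚ) *
          A.map (Int.cast : ℤ → ℚ) := by
      have := (RingHom.mapMatrix (m := Fin N ⊕ Fin N) (Int.castRingHom ℚ)).map_add 1 (A' * B * A)
      rw [map_one, map_mul, map_mul] at this
      exact this
    rw [e1, e2, e3, hA, hA', Matrix.mul_add, Matrix.add_mul, Matrix.mul_one, hgg]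
    congr 1
    simp only [Matrix.smul_mul, Matrix.mul_smul, smul_smul]
  have hsp : 1 + A' * B * A ∈ symplecticGroup (Fin N) ℤ := by
    rw [SymplecticGroup.mem_iff']
    apply SpArith.map_inj
    have hlsp : ((l : Matrix (Fin N ⊕ Fin N) (Fin N ⊕ Fin N) ℤ).map (Int.cast : ℤ → ℚ))ᵀ *
        J (Fin N) ℚ * (l : Matrix (Fin N ⊕ Fin N) (Fin N ⊕ Fin N) ℤ).map (Int.cast : ℤ → ℚ) =
        J (Fin N) ℚ := SymplecticGroup.mem_iff'.mp (SpArith.inc N l).2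
    obtain ⟨G, hG⟩ : ∃ G, G = (g : Matrix (Fin N ⊕ Fin N) (Fin N ⊕ Fin N) ℚ) := ⟨_, rfl⟩
    obtain ⟨G', hG'⟩ : ∃ G', G' = ((g⁻¹ : GL (Fin N ⊕ Fin N) ℚ) :
      Matrix (Fin N ⊕ Fin N) (Fin N ⊕ Fin N) ℚ) := ⟨_, rfl⟩
    obtain ⟨l₁, hl₁⟩ : ∃ l₁, l₁ = (l : Matrix (Fin N ⊕ Fin N) (Fin N ⊕ Fin N) ℤ).map
      (Int.cast : ℤ → ℚ) := ⟨_, rfl⟩
    rw [← hG] at hg hgg hgg' e1
    rw [← hG'] at hgg hgg' e1
    rw [← hl₁] at hlsp e1
    have h1 : μ • (G'ᵀ * J (Fin N) ℚ * G') = J (Fin N) ℚ := by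
      calc μ • (G'ᵀ * J (Fin N) ℚ * G') = G'ᵀ * (μ • J (Fin N) ℚ) * G' := by
            rw [Matrix.mul_smul, Matrix.smul_mul]
        _ = (G * G')ᵀ * J (Fin N) ℚ * (G * G') := by
            rw [← hg, transpose_mul]
            simp only [Matrix.mul_assoc]
        _ = J (Fin N) ℚ := by rw [hgg', transpose_one, Matrix.one_mul, Matrix.mul_one]
    have h2 : G'ᵀ * J (Fin N) ℚ * G' = μ⁻¹ • J (Fin N) ℚ := by
      rw [← h1, smul_smul, inv_mul_cancel₀ hμ, one_smul, h1]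
    have h3 : (G' * l₁ * G)ᵀ * J (Fin N) ℚ * (G' * l₁ * G) = J (Fin N) ℚ := by
      calc (G' * l₁ * G)ᵀ * J (Fin N) ℚ * (G' * l₁ * G)
          = Gᵀ * (l₁ᵀ * (G'ᵀ * J (Fin N) ℚ * G') * l₁) * G := by
            rw [transpose_mul, transpose_mul]
            simp only [Matrix.mul_assoc]
        _ = μ⁻¹ • (Gᵀ * (l₁ᵀ * J (Fin N) ℚ * l₁) * G) := by
            rw [h2]
            simp only [Matrix.mul_smul, Matrix.smul_mul]
        _ = J (Fin N) ℚ := by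
            rw [hlsp, hg, smul_smul, inv_mul_cancel₀ hμ, one_smul]
    have h4 : ((1 + A' * B * A)ᵀ * J (Fin N) ℤ * (1 + A' * B * A)).map (Int.castRingHom ℚ) =
        (J (Fin N) ℤ).map (Int.castRingHom ℚ) := by
      rw [Matrix.map_mul, Matrix.map_mul, Matrix.transpose_map, SpArith.map_J (Int.castRingHom ℚ)]
      change ((1 + A' * B * A).map (Int.cast : ℤ → ℚ))ᵀ * J (Fin N) ℚ *
        (1 + A' * B * A).map (Int.cast : ℤ → ℚ) = J (Fin N) ℚ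
      rw [key, e1]
      exact h3
    exact h4
  refine ⟨⟨1 + A' * B * A, hsp⟩, ?_⟩
  apply Units.ext
  exact key

variable {Γ : Type} [Group Γ]
  {q : Γ →* GL (Fin N ⊕ Fin N) ℚ ⧸ Subgroup.center (GL (Fin N ⊕ Fin N) ℚ)}

theorem hconj (hN : 1 ≤ N) (hs : ∀ g, ∃ X, q g = QuotientGroup.mk X ∧ Adj.IsSim X) (g : Γ) :
    ∃ (X : GL (Fin N ⊕ Fin N) ℚ) (C : Subgroup (symplecticGroup (Fin N) ℤ)),
      QuotientGroup.mk X = q g ∧ C.FiniteIndex ∧ ∀ l ∈ C, X⁻¹ * ginc N l * X ∈ (ginc N).range := by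
  obtain ⟨X, hX, μ, hμ⟩ := hs g
  obtain ⟨n, hn, h⟩ := conj_mem hN X hμ
  haveI : NeZero n := ⟨hn.ne'⟩
  exact ⟨X, SpArith.cong N n, hX.symm, inferInstance, h⟩

variable {jj : q.range.comap (Adj.pin (ginc N)) →* Γ}

theorem sepSp_a (hN : 1 ≤ N) (hq : Function.Injective q) (hs : ∀ g, ∃ X, q g = QuotientGroup.mk X ∧ Adj.IsSim X)
    (hjj : ∀ l, q (jj l) = Adj.pin (ginc N) l) : SepSp jj := by
  intro g
  haveI : Nonempty (Fin N ⊕ Fin N) := ⟨Sum.inl ⟨0, by omega⟩⟩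
  obtain ⟨X, hX, μ, hsp⟩ := hs g
  have hμ := mult_ne_zero hN hsp
  obtain ⟨d, hd, A, hA⟩ := SpArith.exists_denom (X : Matrix (Fin N ⊕ Fin N) (Fin N ⊕ Fin N) ℚ)
  have hdQ : (d : ℚ) ≠ 0 := by exact_mod_cast hd.ne'
  have e1 : (Aᵀ * J (Fin N) ℤ * A).map (Int.cast : ℤ → ℚ) =
      ((d : ℚ) ^ 2 * μ) • J (Fin N) ℚ := by
    have e1 : (Aᵀ * J (Fin N) ℤ * A).map (Int.cast : ℤ → ℚ) =
        (A.map (Int.cast : ℤ → ℚ))ᵀ * J (Fin N) ℚ * A.map (Int.cast : ℤ → ℚ) := by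
      have h1 := (RingHom.mapMatrix (m := Fin N ⊕ Fin N) (Int.castRingHom ℚ)).map_mul
        (Aᵀ * J (Fin N) ℤ) A
      have h2 := (RingHom.mapMatrix (m := Fin N ⊕ Fin N) (Int.castRingHom ℚ)).map_mul
        Aᵀ (J (Fin N) ℤ)
      rw [h2] at h1
      have h3 : (RingHom.mapMatrix (m := Fin N ⊕ Fin N) (Int.castRingHom ℚ)) (J (Fin N) ℤ) =
          J (Fin N) ℚ := SpArith.map_J (Int.castRingHom ℚ)
      rw [h3] at h1
      exact h1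
    rw [e1, hA, transpose_smul, Matrix.smul_mul, Matrix.smul_mul, Matrix.mul_smul, hsp,
      smul_smul, smul_smul, sq]
  obtain ⟨ν, hν⟩ : ∃ ν : ℤ, ν = -(Aᵀ * J (Fin N) ℤ * A) (Sum.inl ⟨0, hN⟩) (Sum.inr ⟨0, hN⟩) :=
    ⟨_, rfl⟩
  have hνQ : (ν : ℚ) = (d : ℚ) ^ 2 * μ := by
    have h1 := congrFun (congrFun e1 (Sum.inl ⟨0, hN⟩)) (Sum.inr ⟨0, hN⟩)
    rw [Matrix.map_apply, Matrix.smul_apply, J_ne_zero hN, smul_eq_mul] at h1
    rw [hν]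
    push_cast
    linarith
  have hν0 : ν ≠ 0 := by
    intro h0
    rw [h0] at hνQ
    push_cast at hνQ
    exact (mul_ne_zero (pow_ne_zero 2 hdQ) hμ) hνQ.symm
  have hAJ : Aᵀ * J (Fin N) ℤ * A = ν • J (Fin N) ℤ := by
    apply SpArith.map_inj
    rw [e1, ← hνQ, ← SpArith.map_J (Int.castRingHom ℚ)]
    ext i j
    rw [Matrix.map_apply, Matrix.smul_apply, Matrix.smul_apply, Matrix.map_apply, smul_eq_mul,
      smul_eq_mul]
    push_cast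
    rfl
  refine ⟨A, ν, hν0, ?_, ?_, ?_⟩
  · intro x y
    unfold om
    rw [← vecMul_transpose, vecMul_vecMul, dotProduct_mulVec, vecMul_vecMul, hAJ, vecMul_smul,
      smul_dotProduct, smul_eq_mul]
  · rintro Z ⟨m, hm, hm0, hc⟩
    refine ⟨m * 2, mul_ne_zero hm0 two_ne_zero, ?_⟩
    obtain ⟨W, hW⟩ : ∃ W : symplecticGroup (Fin N) ℤ, W = Z ^ m := ⟨_, rfl⟩
    have hWW : Z ^ (m * 2) = W * W := by
      rw [_root_.zpow_mul, ← hW]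
      exact zpow_two W
    have h1 := congrArg q hc.eq
    rw [map_mul, map_mul, hjj, hX] at h1
    have h2 : (QuotientGroup.mk (ginc N W * X) : GL (Fin N ⊕ Fin N) ℚ ⧸
        Subgroup.center (GL (Fin N ⊕ Fin N) ℚ)) = QuotientGroup.mk (X * ginc N W) := by
      rw [hW]
      exact h1
    have h4 : ginc N (W * W) * X = X * ginc N (W * W) := by
      rw [map_mul]
      exact Adj.comm_sq h2
    rw [← hWW] at h4
    have h5 : (((Z ^ (m * 2) : symplecticGroup (Fin N) ℤ) :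
        Matrix (Fin N ⊕ Fin N) (Fin N ⊕ Fin N) ℤ).map (Int.cast : ℤ → ℚ)) *
        (X : Matrix (Fin N ⊕ Fin N) (Fin N ⊕ Fin N) ℚ) =
        (X : Matrix (Fin N ⊕ Fin N) (Fin N ⊕ Fin N) ℚ) *
        (((Z ^ (m * 2) : symplecticGroup (Fin N) ℤ) :
        Matrix (Fin N ⊕ Fin N) (Fin N ⊕ Fin N) ℤ).map (Int.cast : ℤ → ℚ)) :=
      congrArg Units.val h4
    apply SpArith.map_inj
    have h7 := (RingHom.mapMatrix (m := Fin N ⊕ Fin N) (Int.castRingHom ℚ)).map_mul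
      ((Z ^ (m * 2) : symplecticGroup (Fin N) ℤ) : Matrix (Fin N ⊕ Fin N) (Fin N ⊕ Fin N) ℤ) A
    have h8 := (RingHom.mapMatrix (m := Fin N ⊕ Fin N) (Int.castRingHom ℚ)).map_mul
      A ((Z ^ (m * 2) : symplecticGroup (Fin N) ℤ) : Matrix (Fin N ⊕ Fin N) (Fin N ⊕ Fin N) ℤ)
    change (RingHom.mapMatrix (m := Fin N ⊕ Fin N) (Int.castRingHom ℚ)) _ =
      (RingHom.mapMatrix (m := Fin N ⊕ Fin N) (Int.castRingHom ℚ)) _
    rw [h7, h8]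
    change (((Z ^ (m * 2) : symplecticGroup (Fin N) ℤ) :
        Matrix (Fin N ⊕ Fin N) (Fin N ⊕ Fin N) ℤ).map (Int.cast : ℤ → ℚ)) *
        A.map (Int.cast : ℤ → ℚ) = A.map (Int.cast : ℤ → ℚ) *
        (((Z ^ (m * 2) : symplecticGroup (Fin N) ℤ) :
        Matrix (Fin N ⊕ Fin N) (Fin N ⊕ Fin N) ℤ).map (Int.cast : ℤ → ℚ))
    rw [hA, Matrix.mul_smul, Matrix.smul_mul, h5]
  · intro c hc
    have h1 : (d : ℚ) • (X : Matrix (Fin N ⊕ Fin N) (Fin N ⊕ Fin N) ℚ) =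
        (c : ℚ) • (1 : Matrix (Fin N ⊕ Fin N) (Fin N ⊕ Fin N) ℚ) := by
      rw [← hA, hc]
      ext i j
      rw [Matrix.map_apply, Matrix.smul_apply, Matrix.smul_apply, smul_eq_mul, smul_eq_mul]
      by_cases hij : i = j
      · subst hij; simp
      · simp [Matrix.one_apply_ne hij]
    have h2 : (X : Matrix (Fin N ⊕ Fin N) (Fin N ⊕ Fin N) ℚ) =
        ((c : ℚ) / d) • (1 : Matrix (Fin N ⊕ Fin N) (Fin N ⊕ Fin N) ℚ) := by
      rw [div_eq_inv_mul, ← smul_smul, ← h1, smul_smul, inv_mul_cancel₀ hdQ, one_smul]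
    apply hq
    rw [hX, map_one]
    exact (QuotientGroup.eq_one_iff X).mpr (Adj.scalar_central h2)

/-- The square of a unipotent matrix whose class is the class of a similitude is symplectic. -/
theorem sq_symp (hN : 1 ≤ N) {Y X : GL (Fin N ⊕ Fin N) ℚ} {μ : ℚ}
    (hYX : (QuotientGroup.mk Y : GL (Fin N ⊕ Fin N) ℚ ⧸
      Subgroup.center (GL (Fin N ⊕ Fin N) ℚ)) = QuotientGroup.mk X)
    (hX : (X : Matrix (Fin N ⊕ Fin N) (Fin N ⊕ Fin N) ℚ)ᵀ * J (Fin N) ℚ *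
      (X : Matrix (Fin N ⊕ Fin N) (Fin N ⊕ Fin N) ℚ) = μ • J (Fin N) ℚ)
    (hnil : IsNilpotent ((Y : Matrix (Fin N ⊕ Fin N) (Fin N ⊕ Fin N) ℚ) - 1)) :
    (Y : Matrix (Fin N ⊕ Fin N) (Fin N ⊕ Fin N) ℚ) ^ 2 ∈ symplecticGroup (Fin N) ℚ := by
  have h1 : X⁻¹ * Y ∈ Subgroup.center (GL (Fin N ⊕ Fin N) ℚ) := QuotientGroup.eq.mp hYX.symm
  obtain ⟨c, hc⟩ := Adj.central_scalar h1
  obtain ⟨G, hG⟩ : ∃ G, G = (Y : Matrix (Fin N ⊕ Fin N) (Fin N ⊕ Fin N) ℚ) := ⟨_, rfl⟩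
  obtain ⟨H, hH⟩ : ∃ H, H = (X : Matrix (Fin N ⊕ Fin N) (Fin N ⊕ Fin N) ℚ) := ⟨_, rfl⟩
  have h2 : G = c • H := by
    have h3 : (Y : Matrix (Fin N ⊕ Fin N) (Fin N ⊕ Fin N) ℚ) =
        (X : Matrix (Fin N ⊕ Fin N) (Fin N ⊕ Fin N) ℚ) *
        ((X⁻¹ * Y : GL (Fin N ⊕ Fin N) ℚ) : Matrix (Fin N ⊕ Fin N) (Fin N ⊕ Fin N) ℚ) :=
      congrArg Units.val (mul_inv_cancel_left X Y).symm
    rw [hG, h3, hc, Matrix.mul_smul, Matrix.mul_one, hH]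
  rw [← hG] at hnil ⊢
  rw [← hH] at hX
  obtain ⟨κ, hκ⟩ : ∃ κ : ℚ, κ = c ^ 2 * μ := ⟨_, rfl⟩
  have h4 : Gᵀ * J (Fin N) ℚ * G = κ • J (Fin N) ℚ := by
    rw [h2, transpose_smul, Matrix.smul_mul, Matrix.smul_mul, Matrix.mul_smul, hX,
      smul_smul, smul_smul, hκ, sq]
  have hdet : G.det = 1 := Adj.det_unipotent hnil
  have hJ : (J (Fin N) ℚ).det ≠ 0 := (Matrix.isUnit_det_J (Fin N) ℚ).ne_zero
  have h5 : κ ^ Fintype.card (Fin N ⊕ Fin N) = 1 := by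
    have h6 := congrArg Matrix.det h4
    rw [Matrix.det_mul, Matrix.det_mul, Matrix.det_transpose, hdet, one_mul, mul_one,
      Matrix.det_smul] at h6
    exact mul_right_cancel₀ hJ (by rw [← h6, one_mul])
  haveI : Nonempty (Fin N ⊕ Fin N) := ⟨Sum.inl ⟨0, by omega⟩⟩
  have h7 : |κ| = 1 := by
    have h8 : |κ| ^ Fintype.card (Fin N ⊕ Fin N) = 1 := by rw [← abs_pow, h5, abs_one]
    exact (pow_eq_one_iff_of_nonneg (abs_nonneg _) Fintype.card_ne_zero).mp h8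
  have h9 : κ * κ = 1 := by rw [← abs_mul_abs_self, h7, one_mul]
  rw [SymplecticGroup.mem_iff', sq, transpose_mul]
  calc Gᵀ * Gᵀ * J (Fin N) ℚ * (G * G) = Gᵀ * (Gᵀ * J (Fin N) ℚ * G) * G := by
        simp only [Matrix.mul_assoc]
    _ = J (Fin N) ℚ := by
        rw [h4, Matrix.mul_smul, Matrix.smul_mul, h4, smul_smul, h9, one_smul]

end Vale.Agent.P092.R2.H289.Spn.AQ

namespace Vale.Agent.P092.R2.H289.Spn

open Vale.Agent.P092.H381.Sg Vale.Agent.P092.H367 Vale.Agent.P092.H885 Vale.Agent.P092.H381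

/-- The dichotomy for corners of matrices over `L(Λ)`, for subgroups of `PGSp_{2N}(ℚ)`. -/
theorem canon_or_heights_pgsp {N : ℕ} {Γ : Type} [Group Γ] (hN : 3 ≤ N)
    (q : Γ →* GL (Fin N ⊕ Fin N) ℚ ⧸ Subgroup.center (GL (Fin N ⊕ Fin N) ℚ))
    (hq : Function.Injective q) (hs : ∀ g, ∃ X, q g = QuotientGroup.mk X ∧ Adj.IsSim X)
    (hfi : (q.range.comap ((QuotientGroup.mk' (Subgroup.center (GL (Fin N ⊕ Fin N) ℚ))).comp
      (AQ.ginc N))).FiniteIndex)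
    {Λ : Type} [Group Λ] (hL : Mt.ICC Λ)
    {n : ℕ} {p : Mt.Mat n Λ} (hp : Mt.IsProj p) (θ : Mt.AmpIso Γ Λ n p) :
    (Mt.Canon θ ∧ Mt.trM p = 1) ∨
      ∀ (x : Γ) (k : ℕ) (Y : GL (Fin N ⊕ Fin N) ℚ), q (x ^ k) = QuotientGroup.mk Y → Y ≠ 1 →
      IsNilpotent ((Y : Matrix (Fin N ⊕ Fin N) (Fin N ⊕ Fin N) ℚ) - 1) → Mt.HV θ x := by
  obtain ⟨jj, hjj⟩ := Adj.exists_jj (i := AQ.ginc N) hq
  haveI := hfi
  rcases canon_or_heights_spc hN (q.range.comap (Adj.pin (AQ.ginc N))) jj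
    (AQ.sepSp_a (by omega) hq hs hjj) (Adj.ricc_p hq hfi (AQ.horb (by omega)) hjj)
    (Adj.comm_p hq hfi (AQ.hconj (by omega) hs) hjj) hL hp θ with h | h
  · exact Or.inl h
  right
  intro x k Y hxY hY hnil
  obtain ⟨X, hX, μ, hμ⟩ := hs (x ^ k)
  have hsq := AQ.sq_symp (by omega) (hxY.symm.trans hX) hμ hnil
  obtain ⟨Y', hY'⟩ : ∃ Y' : symplecticGroup (Fin N) ℚ,
      (Y' : Matrix (Fin N ⊕ Fin N) (Fin N ⊕ Fin N) ℚ) =
      (Y : Matrix (Fin N ⊕ Fin N) (Fin N ⊕ Fin N) ℚ) ^ 2 := ⟨⟨_, hsq⟩, rfl⟩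
  obtain ⟨M, hM⟩ : ∃ M : Matrix (Fin N ⊕ Fin N) (Fin N ⊕ Fin N) ℚ,
    M = (Y : Matrix (Fin N ⊕ Fin N) (Fin N ⊕ Fin N) ℚ) - 1 := ⟨_, rfl⟩
  rw [← hM] at hnil
  have hYM : (Y : Matrix (Fin N ⊕ Fin N) (Fin N ⊕ Fin N) ℚ) = 1 + M := by rw [hM]; abel
  have hM0 : M ≠ 0 := by
    intro h0
    apply hY
    apply Units.ext
    rw [hYM, h0, add_zero]
    rfl
  have hY1 : Y' ≠ 1 := by
    intro h0
    apply SpArith.pow_ne_one hnil hM0 (m := 2) (by norm_num)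
    rw [← hYM, ← hY', h0]
    rfl
  have hn' : IsNilpotent ((Y' : Matrix (Fin N ⊕ Fin N) (Fin N ⊕ Fin N) ℚ) - 1) := by
    rw [hY', hYM]
    have h1 : (1 + M) ^ 2 - 1 = M * (2 + M) := by noncomm_ring
    rw [h1]
    refine Commute.isNilpotent_mul_right ?_ hnil
    exact ((Commute.ofNat_right M 2).add_right (Commute.refl M))
  obtain ⟨m, b, hb, hb1, hbn⟩ := PQ.int_pow hY1 hn'
  have hbY : AQ.ginc N b = Y ^ (2 * m) := by
    apply Units.ext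
    change ((SpArith.inc N b : symplecticGroup (Fin N) ℚ) :
      Matrix (Fin N ⊕ Fin N) (Fin N ⊕ Fin N) ℚ) = _
    rw [hb]
    change (Y' : Matrix (Fin N ⊕ Fin N) (Fin N ⊕ Fin N) ℚ) ^ m = _
    rw [hY', ← pow_mul]
    exact (Units.val_pow_eq_pow_val Y (2 * m)).symm
  have h1 : q (x ^ (k * (2 * m))) = Adj.pin (AQ.ginc N) b := by
    rw [pow_mul, map_pow, hxY]
    change _ = QuotientGroup.mk (AQ.ginc N b)
    rw [hbY]
    rfl
  have hmem : b ∈ q.range.comap (Adj.pin (AQ.ginc N)) := ⟨x ^ (k * (2 * m)), h1⟩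
  refine h x (k * (2 * m)) ⟨b, hmem⟩ (hq ?_) (fun h2 => hb1 (congrArg Subtype.val h2)) hbn
  rw [hjj, h1]

/-- Subgroups of `PGSp_{2N}(ℚ)` commensurable with the image of `Sp_{2N}(ℤ)` are ICC. -/
theorem icc_pgsp {N : ℕ} {Γ : Type} [Group Γ] (hN : 1 ≤ N)
    (q : Γ →* GL (Fin N ⊕ Fin N) ℚ ⧸ Subgroup.center (GL (Fin N ⊕ Fin N) ℚ))
    (hq : Function.Injective q)
    (hfi : (q.range.comap ((QuotientGroup.mk' (Subgroup.center (GL (Fin N ⊕ Fin N) ℚ))).comp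
      (AQ.ginc N))).FiniteIndex) : Mt.ICC Γ := by
  obtain ⟨jj, hjj⟩ := Adj.exists_jj (i := AQ.ginc N) hq
  exact H381.ricc_icc (Adj.ricc_p hq hfi (AQ.horb hN) hjj)

/-- Groups of rational similitudes modulo scalars. -/
theorem unif_S {N : ℕ} (hN : 3 ≤ N) (hS : ∀ (Γ : Type) [Group Γ], SubAll Γ) :
    Adj.Unif (Adj.incS N) Adj.IsSim := by
  intro Γ _ q hq
  have hA := Adj.adm hq.1 hq.2.2 (AQ.horb (by omega)) (AQ.hconj (by omega) hq.2.1)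
  exact ⟨hA, fun Q hQ hgen =>
    uniformH (hS Γ) hA (Proj.kazhdan (AQ.ginc N) q hq.1 hq.2.2 (kazhdan_sp hN)) hQ hgen⟩

end Vale.Agent.P092.R2.H289.Spn
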