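import Vale.Agent.P092.R3.H367.Base
import Vale.Agent.P092.H108.Iso

/-!
P092, amplified Kazhdan gap, file C (helper381): a `*`-isomorphism from `L(G)`, `G` ICC, onto a
corner `p (M_I ⊗ L(Λ)) p` multiplies the trace by a constant; its values on the group elements form
an amplified frame.
-/

set_option linter.all false

open scoped InnerProductSpace ComplexOrder
open Filter Topology ContinuousLinearMap

namespace Vale.Agent.P092.H367

open Vale.Agent.P092.H160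

/-- the corner `p (M_I ⊗ L(Λ)) p` -/
def InC {I Λ : Type} [Group Λ] (p S : Ell2 (I × Λ) →L[ℂ] Ell2 (I × Λ)) : Prop :=
  Eqv (RrH I Λ) S ∧ p * S = S ∧ S * p = S

/-- a `*`-isomorphism from `L(G)` onto the corner of `p` -/
structure CIso (G : Type) [Group G] {I Λ : Type} [Group Λ]
    (p : Ell2 (I × Λ) →L[ℂ] Ell2 (I × Λ)) where
  /-- the map (only its values on `L(G)` matter) -/
  toFun : (Ell2 G →L[ℂ] Ell2 G) → (Ell2 (I × Λ) →L[ℂ] Ell2 (I × Λ))
  /-- the inverse map (only its values on the corner matter) -/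
  invFun : (Ell2 (I × Λ) →L[ℂ] Ell2 (I × Λ)) → (Ell2 G →L[ℂ] Ell2 G)
  map_mem : ∀ T ∈ LG G, InC p (toFun T)
  inv_mem : ∀ S, InC p S → invFun S ∈ LG G
  left_inv : ∀ T ∈ LG G, invFun (toFun T) = T
  right_inv : ∀ S, InC p S → toFun (invFun S) = S
  map_add : ∀ S ∈ LG G, ∀ T ∈ LG G, toFun (S + T) = toFun S + toFun T
  map_smul : ∀ (c : ℂ), ∀ T ∈ LG G, toFun (c • T) = c • toFun T
  map_mul : ∀ S ∈ LG G, ∀ T ∈ LG G, toFun (S * T) = toFun S * toFun T
  map_adj : ∀ T ∈ LG G, toFun (adjoint T) = adjoint (toFun T)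

section corner

variable {I Λ : Type} [Group Λ] {p : Ell2 (I × Λ) →L[ℂ] Ell2 (I × Λ)}

theorem InC.mul {S T : Ell2 (I × Λ) →L[ℂ] Ell2 (I × Λ)} (hS : InC p S) (hT : InC p T) :
    InC p (S * T) :=
  ⟨hS.1.mul hT.1, by rw [← mul_assoc, hS.2.1], by rw [mul_assoc, hT.2.2]⟩

theorem InC.adj (hp : adjoint p = p) {S : Ell2 (I × Λ) →L[ℂ] Ell2 (I × Λ)} (hS : InC p S) :
    InC p (adjoint S) := by
  refine ⟨hS.1.adjoint, ?_, ?_⟩
  · have h := congrArg star hS.2.2
    rw [star_mul] at h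
    have h2 : star p = p := hp
    rw [h2] at h
    exact h
  · have h := congrArg star hS.2.1
    rw [star_mul] at h
    have h2 : star p = p := hp
    rw [h2] at h
    exact h

theorem InC.of_tendsto (hp : adjoint p = p) {J : Type*} {l : Filter J} [l.NeBot]
    {T : J → (Ell2 (I × Λ) →L[ℂ] Ell2 (I × Λ))} {L : Ell2 (I × Λ) →L[ℂ] Ell2 (I × Λ)}
    (hT : ∀ j, InC p (T j))
    (hL : ∀ ξ η : Ell2 (I × Λ), Tendsto (fun j => inner ℂ ξ (T j η)) l (𝓝 (inner ℂ ξ (L η)))) :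
    InC p L := by
  refine ⟨fun s v => ?_, ?_, ?_⟩
  · refine ext_inner_left ℂ fun ξ => ?_
    have h1 := hL ξ (Rr I s v)
    have h2 := hL (Rr I s⁻¹ ξ) v
    have e : ∀ ζ : Ell2 (I × Λ), inner ℂ (Rr I s⁻¹ ξ) ζ = inner ℂ ξ (Rr I s ζ) := by
      intro ζ
      have h3 : adjoint (Rr I s) = Rr I s⁻¹ := adjoint_Rr s
      rw [← h3, adjoint_inner_left]
    rw [e] at h2
    refine tendsto_nhds_unique h1 (h2.congr fun j => ?_)
    rw [e, (hT j).1 s v]
    rfl
  · refine H108.inner_ext fun ξ η => ?_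
    have h1 := hL (p ξ) η
    have e : ∀ ζ : Ell2 (I × Λ), inner ℂ (p ξ) ζ = inner ℂ ξ (p ζ) := by
      intro ζ
      conv_lhs => rw [← hp]
      rw [adjoint_inner_left]
    rw [e] at h1
    refine tendsto_nhds_unique h1 ((hL ξ η).congr fun j => ?_)
    rw [e]
    exact congrArg (fun A : Ell2 (I × Λ) →L[ℂ] Ell2 (I × Λ) => inner ℂ ξ (A η)) (hT j).2.1.symm
  · refine H108.inner_ext fun ξ η => ?_
    refine tendsto_nhds_unique (hL ξ (p η)) ((hL ξ η).congr fun j => ?_)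
    exact congrArg (fun A : Ell2 (I × Λ) →L[ℂ] Ell2 (I × Λ) => inner ℂ ξ (A η)) (hT j).2.2.symm

theorem eqv_iff {S : Ell2 (I × Λ) →L[ℂ] Ell2 (I × Λ)} :
    Eqv (RrH I Λ) S ↔ ∀ s, Rr I s * S = S * Rr I s := by
  constructor
  · intro h s
    ext1 v
    exact (h s v).symm
  · intro h s v
    exact (DFunLike.congr_fun (h s) v).symm

theorem InC.sqrt (hp : adjoint p = p) (hpp : p * p = p) {x : Ell2 (I × Λ) →L[ℂ] Ell2 (I × Λ)}
    (hx : InC p x) (h0 : 0 ≤ x) : ∃ c, InC p c ∧ star c * c = x := by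
  obtain ⟨c, hc, hcc⟩ := H108.exists_sqrt h0
  have h1 : p * c = c * p := hcc p (hx.2.1.trans hx.2.2.symm)
  have h2 : c * p = c := by
    have h3 : star (c * p - c) * (c * p - c) = 0 := by
      have h4 : star (c * p - c) * (c * p - c) =
          star p * (star c * c) * p - star p * (star c * c) - (star c * c) * p + star c * c := by
        rw [star_sub, star_mul]
        noncomm_ring
      have hps : star p = p := hp
      rw [h4, hc, hps, hx.2.1, hx.2.2]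
      abel
    have h5 : c * p - c = 0 := CStarRing.star_mul_self_eq_zero_iff _ |>.1 h3
    exact sub_eq_zero.1 h5
  exact ⟨c, ⟨eqv_iff.2 fun s => hcc _ (eqv_iff.1 hx.1 s), h1.trans h2, h2⟩, hc⟩

end corner

section iso

variable {G : Type} [Group G] {I Λ : Type} [Group Λ] {p : Ell2 (I × Λ) →L[ℂ] Ell2 (I × Λ)}
  (θ : CIso G p)

theorem CIso.map_sub {S T : Ell2 G →L[ℂ] Ell2 G} (hS : S ∈ LG G) (hT : T ∈ LG G) :
    θ.toFun (S - T) = θ.toFun S - θ.toFun T := by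
  have e : S - T = S + (-1 : ℂ) • T := by rw [neg_one_smul]; abel
  rw [e, θ.map_add S hS _ ((LG G).smul_mem hT _), θ.map_smul _ T hT, neg_one_smul]
  abel

theorem CIso.map_zero : θ.toFun 0 = 0 := by
  have h := θ.map_smul 0 0 (zero_mem _)
  rwa [zero_smul, zero_smul] at h

theorem CIso.map_star {T : Ell2 G →L[ℂ] Ell2 G} (hT : T ∈ LG G) :
    θ.toFun (star T) = star (θ.toFun T) := θ.map_adj T hT

theorem CIso.map_sum {J : Type} (F : Finset J) {S : J → (Ell2 G →L[ℂ] Ell2 G)}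
    (hS : ∀ j ∈ F, S j ∈ LG G) : θ.toFun (∑ j ∈ F, S j) = ∑ j ∈ F, θ.toFun (S j) := by
  classical
  induction F using Finset.induction_on with
  | empty => rw [Finset.sum_empty, Finset.sum_empty, θ.map_zero]
  | insert a s ha ih =>
    rw [Finset.sum_insert ha, Finset.sum_insert ha, θ.map_add _ (hS a (Finset.mem_insert_self _ _)) _
      (sum_mem fun j hj => hS j (Finset.mem_insert_of_mem hj)),
      ih fun j hj => hS j (Finset.mem_insert_of_mem hj)]

theorem CIso.map_one (hp : adjoint p = p) (hpp : p * p = p) (hpe : Eqv (RrH I Λ) p) :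
    θ.toFun 1 = p := by
  have hC : InC p p := ⟨hpe, hpp, hpp⟩
  have h1 := θ.map_mul 1 (one_mem _) _ (θ.inv_mem p hC)
  rw [one_mul, θ.right_inv p hC, (θ.map_mem 1 (one_mem _)).2.2] at h1
  exact h1.symm

theorem CIso.inv_mul {S T : Ell2 (I × Λ) →L[ℂ] Ell2 (I × Λ)} (hS : InC p S) (hT : InC p T) :
    θ.invFun (S * T) = θ.invFun S * θ.invFun T := by
  have h1 := θ.map_mul _ (θ.inv_mem S hS) _ (θ.inv_mem T hT)
  rw [θ.right_inv S hS, θ.right_inv T hT] at h1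
  rw [← h1, θ.left_inv _ (mul_mem (θ.inv_mem S hS) (θ.inv_mem T hT))]

theorem CIso.inv_star {S : Ell2 (I × Λ) →L[ℂ] Ell2 (I × Λ)} (hS : InC p S) :
    θ.invFun (star S) = star (θ.invFun S) := by
  have h1 := θ.map_star (θ.inv_mem S hS)
  rw [θ.right_inv S hS] at h1
  rw [← h1, θ.left_inv _ (star_mem (θ.inv_mem S hS))]

theorem CIso.map_nonneg {x : Ell2 G →L[ℂ] Ell2 G} (hx : x ∈ LG G) (h0 : 0 ≤ x) :
    0 ≤ θ.toFun x := by
  obtain ⟨c, hc, hcx⟩ := H108.sqrt_mem hx h0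
  rw [← hcx, θ.map_mul _ (star_mem hc) _ hc, θ.map_star hc]
  exact star_mul_self_nonneg _

theorem CIso.map_mono {x y : Ell2 G →L[ℂ] Ell2 G} (hx : x ∈ LG G) (hy : y ∈ LG G) (h : x ≤ y) :
    θ.toFun x ≤ θ.toFun y := by
  have h2 := θ.map_nonneg (sub_mem hy hx) (sub_nonneg.2 h)
  rw [θ.map_sub hy hx] at h2
  exact sub_nonneg.1 h2

theorem CIso.inv_nonneg (hp : adjoint p = p) (hpp : p * p = p)
    {x : Ell2 (I × Λ) →L[ℂ] Ell2 (I × Λ)} (hx : InC p x) (h0 : 0 ≤ x) : 0 ≤ θ.invFun x := by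
  obtain ⟨c, hc, hcx⟩ := hx.sqrt hp hpp h0
  have hcs : InC p (star c) := hc.adj hp
  rw [← hcx, θ.inv_mul hcs hc, θ.inv_star hc]
  exact star_mul_self_nonneg _

theorem InC.sub {S T : Ell2 (I × Λ) →L[ℂ] Ell2 (I × Λ)} (hS : InC p S) (hT : InC p T) :
    InC p (S - T) :=
  ⟨hS.1.sub hT.1, by rw [mul_sub, hS.2.1, hT.2.1], by rw [sub_mul, hS.2.2, hT.2.2]⟩

theorem CIso.inv_sub {S T : Ell2 (I × Λ) →L[ℂ] Ell2 (I × Λ)} (hS : InC p S) (hT : InC p T) :
    θ.invFun (S - T) = θ.invFun S - θ.invFun T := by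
  have h1 := θ.map_sub (θ.inv_mem S hS) (θ.inv_mem T hT)
  rw [θ.right_inv S hS, θ.right_inv T hT] at h1
  rw [← h1, θ.left_inv _ (sub_mem (θ.inv_mem S hS) (θ.inv_mem T hT))]

theorem CIso.inv_mono (hp : adjoint p = p) (hpp : p * p = p)
    {x y : Ell2 (I × Λ) →L[ℂ] Ell2 (I × Λ)} (hx : InC p x) (hy : InC p y) (h : x ≤ y) :
    θ.invFun x ≤ θ.invFun y := by
  have h2 := θ.inv_nonneg hp hpp (hy.sub hx) (sub_nonneg.2 h)
  rw [θ.inv_sub hy hx] at h2
  exact sub_nonneg.1 h2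

theorem p_nonneg (hp : adjoint p = p) (hpp : p * p = p) : 0 ≤ p := by
  have h : star p * p = p := by
    have : star p = p := hp
    rw [this, hpp]
  rw [← h]
  exact star_mul_self_nonneg _

theorem p_le_one (hp : adjoint p = p) (hpp : p * p = p) : p ≤ 1 := by
  have hps : star p = p := hp
  have h : star (1 - p) * (1 - p) = 1 - p := by
    rw [star_sub, star_one, hps]
    have : (1 - p) * (1 - p) = 1 - p - p + p * p := by noncomm_ring
    rw [this, hpp]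
    abel
  rw [← sub_nonneg, ← h]
  exact star_mul_self_nonneg _

theorem norm_star_mul_le {H : Type*} [NormedAddCommGroup H] [InnerProductSpace ℂ H]
    [CompleteSpace H] {y : H →L[ℂ] H} (h : ‖y‖ ≤ 1) : ‖star y * y‖ ≤ 1 := by
  rw [CStarRing.norm_star_mul_self]
  exact mul_le_one₀ h (norm_nonneg _) h

/-- the key step of normality -/
theorem CIso.normal_key (hp : adjoint p = p) (hpp : p * p = p) (hpe : Eqv (RrH I Λ) p)
    (f : Ell2 (I × Λ)) (y : ℕ → (Ell2 G →L[ℂ] Ell2 G)) (hy : ∀ n, y n ∈ LG G)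
    (h1 : ∀ n, ‖y n‖ ≤ 1) (h2 : ∀ n, ‖y n (dl 1)‖ ^ 2 ≤ (1 / 4) ^ n) (c : ℝ) (hc : 0 < c)
    (h3 : ∀ n, c ≤ (inner ℂ f (θ.toFun (star (y n) * y n) f)).re) : False := by
  obtain ⟨a, ha⟩ : ∃ a : ℕ → (Ell2 G →L[ℂ] Ell2 G), a = fun n => star (y n) * y n := ⟨_, rfl⟩
  have haM : ∀ n, a n ∈ LG G := by
    intro n
    rw [ha]
    exact mul_mem (star_mem (hy n)) (hy n)
  have ha0 : ∀ n, 0 ≤ a n := by
    intro n
    rw [ha]
    exact star_mul_self_nonneg (y n)
  have ha1 : ∀ n, a n ≤ 1 := by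
    intro n
    refine H108.le_one_of (ha0 n) ?_
    rw [ha]
    exact norm_star_mul_le (h1 n)
  have hat : ∀ n, (inner ℂ (dl 1 : Ell2 G) ((a n) (dl 1))).re ≤ (1 / 4) ^ n := by
    intro n
    have h5 : inner ℂ (dl 1 : Ell2 G) ((a n) (dl 1)) = ((‖y n (dl 1)‖ ^ 2 : ℝ) : ℂ) := by
      rw [ha]
      change inner ℂ (dl 1 : Ell2 G) ((star (y n)) (y n (dl 1))) = _
      rw [← H108.star_apply_inner, star_star, inner_self_eq_norm_sq_to_K]
      norm_cast
    rw [h5, Complex.ofReal_re]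
    exact h2 n
  obtain ⟨b, hb⟩ : ∃ b : ℕ → ℕ → (Ell2 G →L[ℂ] Ell2 G),
      b = fun N K => ∑ k ∈ Finset.range K, a (N + k) := ⟨_, rfl⟩
  have hbc : ∀ N K, b N K = ∑ k ∈ Finset.range K, a (N + k) := by
    intro N K
    rw [hb]
  have hbM : ∀ N K, b N K ∈ LG G := by
    intro N K
    rw [hbc]
    exact sum_mem fun k _ => haM _
  have hb0 : ∀ N K, 0 ≤ b N K := by
    intro N K
    rw [hbc]
    exact Finset.sum_nonneg fun k _ => ha0 _
  have hbm : ∀ N K, b N K ≤ b N (K + 1) := by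
    intro N K
    rw [hbc, hbc, Finset.sum_range_succ]
    exact le_add_of_nonneg_right (ha0 _)
  have hbs : ∀ N K, b (N + 1) K ≤ b N (K + 1) := by
    intro N K
    rw [hbc, hbc, Finset.sum_range_succ', add_zero]
    have h : ∀ k, N + 1 + k = N + (k + 1) := fun k => by ring
    simp only [h]
    exact le_add_of_nonneg_right (ha0 _)
  have hbt : ∀ N K, (inner ℂ (dl 1 : Ell2 G) ((b N K) (dl 1))).re ≤ 2 * (1 / 4) ^ N := by
    intro N K
    rw [hbc, ContinuousLinearMap.sum_apply, inner_sum, Complex.re_sum]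
    calc ∑ k ∈ Finset.range K, (inner ℂ (dl 1 : Ell2 G) ((a (N + k)) (dl 1))).re
        ≤ ∑ k ∈ Finset.range K, (1 / 4 : ℝ) ^ N * (1 / 4) ^ k := by
          refine Finset.sum_le_sum fun k _ => ?_
          rw [← pow_add]
          exact hat _
      _ = (1 / 4 : ℝ) ^ N * ∑ k ∈ Finset.range K, (1 / 4 : ℝ) ^ k := by rw [Finset.mul_sum]
      _ ≤ (1 / 4 : ℝ) ^ N * 2 := by
          gcongr
          have := Summable.sum_le_tsum (Finset.range K) (fun k _ => by positivity)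
            (summable_geometric_of_lt_one (by norm_num : (0 : ℝ) ≤ 1 / 4) (by norm_num))
          rw [tsum_geometric_of_lt_one (by norm_num) (by norm_num)] at this
          norm_num at this ⊢
          linarith
      _ = _ := by ring
  -- the suprema
  have hs : ∀ N, ∃ s : Ell2 G →L[ℂ] Ell2 G, s ∈ LG G ∧ ‖s‖ ≤ 1 ∧
      (∀ K, H108.ff (b N K) ≤ s) ∧
      (∀ S : Ell2 G →L[ℂ] Ell2 G, (∀ K, H108.ff (b N K) ≤ S) → s ≤ S) ∧
      (inner ℂ (dl 1 : Ell2 G) (s (dl 1))).re ≤ 2 * (1 / 4) ^ N := by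
    intro N
    obtain ⟨L, U, h1, h2, h3, h4⟩ := H108.mono_limit
      (T := fun K => H108.ff (b N K)) (fun K => H108.norm_ff _)
      (monotone_nat_of_le_succ fun K => H108.ff_mono (hb0 _ _) (hbm _ _))
    refine ⟨L, H108.dc_LG.mem_of_tendsto (fun K => H108.ff_mem (hbM N K)) h4, h1, h2, h3, ?_⟩
    refine le_of_tendsto ((Complex.continuous_re.tendsto _).comp (h4 (dl 1) (dl 1))) ?_
    refine Eventually.of_forall fun K => ?_
    exact (H108.inner_le_of_le (H108.ff_le (hb0 N K)) _).trans (hbt N K)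
  choose s hsM hs1 hs2 hs3 hs4 using hs
  have hs0 : ∀ N, 0 ≤ s N := fun N => (H108.ff_nonneg _).trans (hs2 N 0)
  have hsm : ∀ N, s (N + 1) ≤ s N := by
    intro N
    refine hs3 _ _ fun K => ?_
    exact (H108.ff_mono (hb0 _ _) (hbs _ _)).trans (hs2 N (K + 1))
  obtain ⟨L, U, hL1, hL2, hL3, hL4⟩ := H108.anti_limit hs1 (antitone_nat_of_succ_le hsm)
  have hLm : L ∈ LG G := H108.dc_LG.mem_of_tendsto (fun K => hsM K) hL4
  have hL0 : 0 ≤ L := hL3 0 hs0
  have hLz : L = 0 := by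
    obtain ⟨c, hc, hcL⟩ := H108.sqrt_mem hLm hL0
    have h5 : ∀ N : ℕ, (inner ℂ (dl 1 : Ell2 G) (L (dl 1))).re ≤ 2 * (1 / 4) ^ N := fun N =>
      (H108.inner_le_of_le (hL2 N) _).trans (hs4 N)
    have h6 : Tendsto (fun N : ℕ => 2 * (1 / 4 : ℝ) ^ N) atTop (𝓝 (2 * 0)) :=
      (tendsto_pow_atTop_nhds_zero_of_lt_one (by norm_num) (by norm_num)).const_mul _
    rw [mul_zero] at h6
    have h7 := ge_of_tendsto' h6 h5
    have h8 : inner ℂ (dl 1 : Ell2 G) (L (dl 1)) = ((‖c (dl 1)‖ ^ 2 : ℝ) : ℂ) := by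
      rw [← hcL]
      change inner ℂ (dl 1 : Ell2 G) ((star c) (c (dl 1))) = _
      rw [← H108.star_apply_inner, star_star, inner_self_eq_norm_sq_to_K]
      norm_cast
    rw [h8, Complex.ofReal_re] at h7
    have h9 : c (dl 1) = 0 := by
      rw [← norm_eq_zero]
      exact pow_eq_zero_iff (two_ne_zero) |>.1 (le_antisymm h7 (sq_nonneg _))
    rw [← hcL, H108.eq_zero_of_dl hc h9, mul_zero]
  -- the other side
  have ht0 : ∀ N, 0 ≤ θ.toFun (s N) := fun N => θ.map_nonneg (hsM N) (hs0 N)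
  have ht1 : ∀ N, ‖θ.toFun (s N)‖ ≤ 1 := by
    intro N
    refine H108.norm_le_of (ht0 N) ?_
    have h5 : s N ≤ 1 := H108.le_one_of (hs0 N) (hs1 N)
    have h6 := θ.map_mono (hsM N) (one_mem _) h5
    rw [θ.map_one hp hpp hpe] at h6
    exact h6.trans (p_le_one hp hpp)
  obtain ⟨R, V, hM1, hM2, hM3, hM4⟩ := H108.anti_limit ht1
    (antitone_nat_of_succ_le fun N => θ.map_mono (hsM (N + 1)) (hsM N) (hsm N))
  have hMm : InC p R := InC.of_tendsto hp (fun K => θ.map_mem _ (hsM K)) hM4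
  have hM0 : 0 ≤ R := hM3 0 ht0
  have hMz' : R = 0 := by
    have h5 : ∀ N, θ.invFun R ≤ s N := by
      intro N
      have h6 := θ.inv_mono hp hpp hMm (θ.map_mem _ (hsM N)) (hM2 N)
      rwa [θ.left_inv _ (hsM N)] at h6
    have h6 := hL3 _ h5
    rw [hLz] at h6
    have h7 : 0 ≤ θ.invFun R := θ.inv_nonneg hp hpp hMm hM0
    have h8 : θ.invFun R = 0 := le_antisymm h6 h7
    have h9 := congrArg θ.toFun h8
    rwa [θ.right_inv _ hMm, θ.map_zero] at h9
  have h5 : ∀ N, c / 2 ≤ (inner ℂ f (θ.toFun (s N) f)).re := by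
    intro N
    have h6 : a N ≤ s N + s N := by
      have h7 : H108.ff (a N) ≤ s N := by
        have h8 := hs2 N 1
        have h9 : b N 1 = a N := by
          rw [hb]
          simp
        rwa [h9] at h8
      exact (H108.le_two_ff (ha0 N) (ha1 N)).trans (add_le_add h7 h7)
    have h7 := H108.inner_le_of_le (θ.map_mono (haM N) (add_mem (hsM N) (hsM N)) h6) f
    rw [θ.map_add _ (hsM N) _ (hsM N), ContinuousLinearMap.add_apply, inner_add_right,
      Complex.add_re] at h7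
    have h9 := h3 N
    rw [ha] at h7
    linarith
  have h6 := (Complex.continuous_re.tendsto _).comp (hM4 f f)
  rw [hMz'] at h6
  have h7 := ge_of_tendsto h6 (Eventually.of_forall h5)
  simp at h7
  linarith

end iso

/-- small elements in the convex hull of the conjugates of an operator -/
theorem exists_hull_seq {H : Type*} [NormedAddCommGroup H] [InnerProductSpace ℂ H]
    [CompleteSpace H] (e : H) {G : Type*} [Group G] (A B : G → (H →L[ℂ] H))
    (hAB : ∀ g h x, A g * (A h * x * B h) * B g = A (g * h) * x * B (g * h)) (T : H →L[ℂ] H)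
    (P : (H →L[ℂ] H) → Prop)
    (hPc : ∀ x y, P x → P y → ∀ a b : ℝ, 0 ≤ a → 0 ≤ b → a + b = 1 →
      P ((a : ℂ) • x + (b : ℂ) • y))
    (hPT : ∀ g, P (A g * T * B g)) (W : G → H → H) (hWc : ∀ g, Continuous (W g))
    (hWn : ∀ g x, ‖W g x‖ ≤ ‖x‖) (hWE : ∀ g y, P y → W g (y e) = (A g * y * B g) e)
    (hW0 : ∀ ζ, (∀ g, W g ζ = ζ) → inner ℂ e ζ = 0 → ζ = 0)
    (hP0 : ∀ y, P y → inner ℂ e (y e) = 0) :
    ∃ y : ℕ → (H →L[ℂ] H), (∀ n, P (y n)) ∧ ∀ n, ‖y n e‖ ^ 2 ≤ (1 / 4) ^ n := by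
  obtain ⟨cj, hcj⟩ : ∃ cj : G → (H →L[ℂ] H) →ₗ[ℝ] (H →L[ℂ] H),
      cj = fun g => H108.cjR (A g) (B g) := ⟨_, rfl⟩
  have hcje : ∀ g (y : H →L[ℂ] H), cj g y = A g * y * B g := by
    intro g y
    rw [hcj]
    rfl
  have hcc : ∀ g h x, cj g (cj h x) = cj (g * h) x := by
    intro g h x
    rw [hcje, hcje, hcje, hAB]
  obtain ⟨C, hC⟩ : ∃ C : Set (H →L[ℂ] H),
    C = convexHull ℝ (Set.range fun g => cj g T) := ⟨_, rfl⟩
  have hP : ∀ y ∈ C, P y := by
    have hconv : Convex ℝ {y : H →L[ℂ] H | P y} := by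
      intro x hx y hy a b ha hb hab
      have h3 : a • x + b • y = (a : ℂ) • x + (b : ℂ) • y := by
        simp only [Complex.coe_smul]
      change P (a • x + b • y)
      rw [h3]
      exact hPc x y hx hy a b ha hb hab
    intro y hy
    rw [hC] at hy
    refine convexHull_min ?_ hconv hy
    rintro _ ⟨g, rfl⟩
    change P (cj g T)
    rw [hcje]
    exact hPT g
  have hWE' : ∀ g, ∀ y ∈ C, W g (H108.evalR e y) = H108.evalR e (cj g y) := by
    intro g y hy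
    change W g (y e) = (cj g y) e
    rw [hcje, hWE g y (hP y hy)]
  rw [hC] at hWE'
  obtain ⟨ζ, hζ, hfix⟩ := H108.exists_fixed_hull (H108.evalR e) cj T hcc W hWc hWn hWE'
  rw [← hC] at hζ
  have hζ0 : ζ = 0 := by
    refine hW0 ζ hfix ?_
    have hcl : IsClosed {ξ : H | inner ℂ e ξ = 0} := isClosed_eq (by fun_prop) continuous_const
    refine closure_minimal ?_ hcl hζ
    rintro _ ⟨y, hy, rfl⟩
    exact hP0 y (hP y hy)
  rw [hζ0] at hζ
  have hy : ∀ n : ℕ, ∃ y : H →L[ℂ] H, y ∈ C ∧ ‖y e‖ ^ 2 ≤ (1 / 4) ^ n :=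
    fun n => H108.exists_small (H108.evalR e) hζ n
  choose y hyC hyn using hy
  exact ⟨y, fun n => hP _ (hyC n), hyn⟩

end Vale.Agent.P092.H367
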