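import Vale.Agent.P092.R3.H367.StArith

/-!
Integral matrices as elements of `GL(ℚ)`, and similitudes.
-/

open Matrix

namespace Vale.Agent.P092.H381.Adj

/-- The homomorphism `SL_N(ℤ) → GL_N(ℚ)`. -/
abbrev incL (N : ℕ) : SpecialLinearGroup (Fin N) ℤ →* GL (Fin N) ℚ :=
  SpecialLinearGroup.toGL.comp (H367.SArith.inc N)

/-- The homomorphism `Sp_{2N}(ℤ) → GL_{2N}(ℚ)`. -/
def incS (N : ℕ) : symplecticGroup (Fin N) ℤ →* GL (Fin N ⊕ Fin N) ℚ :=
  ((symplecticGroup (Fin N) ℚ).subtype.comp (H367.SpArith.inc N)).toHomUnits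

/-- The similitudes of the symplectic form. -/
def IsSim {N : ℕ} (X : GL (Fin N ⊕ Fin N) ℚ) : Prop :=
  ∃ μ : ℚ, X.valᵀ * J (Fin N) ℚ * X.val = μ • J (Fin N) ℚ

/-- `q` is injective, its values are classes of elements with `P`, and its range contains a finite
index subgroup of the image of `G(ℤ)`. -/
def Arith {G GZ Γ : Type} [Group G] [Group GZ] [Group Γ] (i : GZ →* G) (P : G → Prop)
    (q : Γ →* G ⧸ Subgroup.center G) : Prop :=
  Function.Injective q ∧ (∀ g, ∃ X, q g = QuotientGroup.mk X ∧ P X) ∧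
    (q.range.comap ((QuotientGroup.mk' (Subgroup.center G)).comp i)).FiniteIndex

end Vale.Agent.P092.H381.Adj
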