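import Vale.Agent.P092.R3.H381.StSub

/-!
The uniform constant along a subgroup (P092).
-/

namespace Vale.Agent.P092.H381.Sg

open Vale.Agent.P092.H367.Mt Vale.Agent.P092.H160.St Vale.Agent.P092.H885

/-- The uniform gap with constant `δ` along a homomorphism `φ : H → Γ`, for the finite set
`Q ⊂ H`: for every ICC group `Λ`, every nonzero projection `p` of a matrix algebra `M_{n+1}(L(Λ))`
such that the range of `φ` and the trace of `p` satisfy the condition `Adm`, and every
`*`-isomorphism `θ` of `L(Γ)` onto `p M_{n+1}(L(Λ)) p`, either the trace of `p` is `1` and `θ` is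
canonical, or the fourth power sums `F(g)` of `θ(u_g)` satisfy `F(φ(s)) ≤ F(1)(1-δ)` for some
`s ∈ Q` and `A^k[h ↦ F(a φ(h) b)](1) ≤ F(1)(1-δ)^k` for all `a`, `b` in `Γ` and all `k`, with `A`
the average over the steps in `Q` on `H` (note `F(1) = four p`). -/
def USGap {Γ H : Type} [Group Γ] [Group H] (φ : H →* Γ) (Q : Finset H) (δ : ℝ) : Prop :=
  ∀ (Λ : Type) [Group Λ], ICC Λ → ∀ (n : ℕ) (p : Mat n Λ), IsProj p → Adm φ.range (trM p).re →
    ∀ θ : AmpIso Γ Λ n p, (Canon θ ∧ trM p = 1) ∨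
      ((∃ s ∈ Q, four (θ.toFun (u (φ s))) ≤ four p * (1 - δ)) ∧
        ∀ (a b : Γ) (k : ℕ),
          (avg Q)^[k] (fun h : H => four (θ.toFun (u (a * φ h * b)))) 1 ≤ four p * (1 - δ) ^ k)

end Vale.Agent.P092.H381.Sg
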