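import Vale.Agent.P092.R3.H381.Sub2
import Vale.Agent.P092.R3.H423.Sub
import Vale.Agent.P092.R3.H367.Dich

/-!
Subgroups: the dichotomy for operators, from the bound for orthonormal families.
-/

set_option linter.all false

open scoped InnerProductSpace
open Filter Topology ContinuousLinearMap

namespace Vale.Agent.P092.H381

open Vale.Agent.P092.H160 hiding A3
open Vale.Agent.P092.H367 Vale.Agent.P092.H423 Sg

section dich

variable {I Λ Γ : Type} [Fintype I] [Group Λ] [Group Γ]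
  {p : Ell2 (I × Λ) →L[ℂ] Ell2 (I × Λ)} {α : Γ → (Ell2 (I × Λ) →L[ℂ] Ell2 (I × Λ))}
  {T : Ell2 (I × Λ) →L[ℂ] Ell2 ((I × Λ) × (I × Λ) × (I × Λ))}

/-- If the fourth power sums are bounded below, there is a nonzero intertwiner. -/
theorem itw_of_lower (ha : AFrame p α) {c : ℝ} (hc : 0 < c) (h : ∀ g, c ≤ f4 (α g)) :
    ∃ T, Itw3 α T ∧ T ≠ 0 := by
  rcases itw_or_zero ha with h1 | h1
  · exact h1
  · exfalso
    have hcl : IsClosed {ω : Ell2 (I × ((I × Λ) × (I × Λ) × (I × Λ))) |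
        c ≤ (⟪vec (Tg α 1), ω⟫_ℂ).re} :=
      isClosed_le continuous_const (by fun_prop)
    have hcv : Cvx {S : Ell2 (I × Λ) →L[ℂ] Ell2 ((I × Λ) × (I × Λ) × (I × Λ)) |
        c ≤ (⟪vec (Tg α 1), vec S⟫_ℂ).re} := by
      intro S hS T hT a b ha' hb hab
      rw [Set.mem_setOf_eq] at hS hT ⊢
      rw [map_add, map_smul, map_smul, inner_add_right, inner_smul_right, inner_smul_right,
        Complex.add_re, Complex.re_ofReal_mul, Complex.re_ofReal_mul]
      calc c = a * c + b * c := by rw [← add_mul, hab, one_mul]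
        _ ≤ _ := by gcongr
    have h2 : KK α ⊆ {ω | c ≤ (⟪vec (Tg α 1), ω⟫_ℂ).re} := by
      refine closure_minimal ?_ hcl
      rintro _ ⟨S, hS, rfl⟩
      refine hull_subset hcv ?_ hS
      rintro _ ⟨g, rfl⟩
      rw [Set.mem_setOf_eq, coeff_f4 ha, Complex.ofReal_re]
      exact h g
    have h3 := h2 h1
    rw [Set.mem_setOf_eq, inner_zero_right, Complex.zero_re] at h3
    linarith

theorem gd3_of (ha : AFrame p α) {A : Subgroup Γ} (hT : ItwH α A T) : Gd3 p α T :=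
  Gd3.of_cg_one ha hT.eqv (hT.inv 1 A.one_mem)

theorem adm_ricc {A : Subgroup Γ} {t : ℝ} (hA : Adm A t) : RICC A := by
  rcases hA with h | h
  · exact h.2.1
  · exact ricc_mono (h ∅ (by simp)) fun x hx => (mem_inter.mp hx).1

/-- A nonzero operator intertwining on an admissible subgroup gives a lower bound on the whole
group. -/
theorem lower_adm (ha : AFrame p α)
    (bound : ∀ (J : Type) [Fintype J]
      (X : J → (Ell2 (I × Λ) →L[ℂ] Ell2 ((I × Λ) × (I × Λ) × (I × Λ)))), Ort p α X →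
      (Fintype.card J : ℝ) * hsn p ^ 2 ≤ 1)
    {A : Subgroup Γ} (hA : Adm A (hsn p)) (hT : ItwH α A T) (hT0 : T ≠ 0) :
    ∃ c : ℝ, 0 < c ∧ ∀ g, c ≤ f4 (α g) := by
  have hR := adm_ricc hA
  have hG := gd3_of ha hT
  have hpos : 0 < hsn T :=
    lt_of_le_of_ne (hsn_nonneg _) fun h => hT0 (hsn_eq_zero hT.eqv h.symm)
  obtain ⟨c, hc⟩ : ∃ c : ℂ, c = (((Real.sqrt (hsn T))⁻¹ : ℝ) : ℂ) := ⟨_, rfl⟩
  obtain ⟨T', hT'⟩ : ∃ T', T' = c • T := ⟨_, rfl⟩
  have hG' : Gd3 p α T' := by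
    have h := hG.lc hG c 0
    rw [zero_smul, add_zero] at h
    rw [hT']
    exact h
  have hn : hsn T' = 1 := by
    have h1 : ((hsn T' : ℝ) : ℂ) = ((1 : ℝ) : ℂ) := by
      rw [hT', ← hs_self, hs_smul, ← hs_symm, hs_smul, map_mul, hs_symm, hs_self, hc,
        Complex.conj_ofReal, ← Complex.ofReal_mul, ← Complex.ofReal_mul]
      congr 1
      rw [← mul_assoc, ← mul_inv, Real.mul_self_sqrt hpos.le, inv_mul_cancel₀ hpos.ne']
    exact_mod_cast h1
  have hinv : ∀ h ∈ A, cg α h T' = T' := by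
    intro h hh
    rw [hT', cg_smul]
    congr 1
    exact hT.inv h hh
  rcases hA with h | h
  · have hX : Ort p α (fun _ : Unit => T') := by
      refine ⟨fun _ => hG', fun _ _ y hy => ?_, fun a b hab => absurd rfl hab, fun _ => hn⟩
      refine hs_zero ha hR hG' hG' (fun k hk => ?_) y hy
      have h1 := hinv k hk
      exact ⟨1, 1, norm_one, norm_one, by rw [h1, one_smul], by rw [h1, one_smul]⟩
    refine lower_fin ha hX hG' hn fun g => ?_
    obtain ⟨d, -, e⟩ := spread_case ha bound h.2 h.1 hG' hn hinv g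
    rw [Fintype.sum_unique, e, hs_smul, hs_self, hn, Complex.ofReal_one, mul_one]
  · obtain ⟨J, hJ, X, hX, hsp⟩ := fin_case ha bound (H781.s_pos ha) h hG' hn hinv
    exact lower_fin ha hX hG' hn hsp

/-- The dichotomy for operators. -/
theorem dich_ops (ha : AFrame p α)
    (hL : ∀ g : Λ, g ≠ 1 → Set.Infinite {y : Λ | ∃ h, y = h * g * h⁻¹})
    (bound : ∀ (J : Type) [Fintype J]
      (X : J → (Ell2 (I × Λ) →L[ℂ] Ell2 ((I × Λ) × (I × Λ) × (I × Λ)))), Ort p α X →
      (Fintype.card J : ℝ) * hsn p ^ 2 ≤ 1)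
    {A : Subgroup Γ} (hA : Adm A (hsn p)) : CanW p α ∨ ∀ T, ItwH α A T → T = 0 := by
  by_cases h : ∀ T, ItwH α A T → T = 0
  · exact Or.inr h
  · left
    push Not at h
    obtain ⟨T, hT, hT0⟩ := h
    obtain ⟨c, hc, hlow⟩ := lower_adm ha bound hA hT hT0
    obtain ⟨S, hS, hS0⟩ := itw_of_lower ha hc hlow
    exact canW_of_itw ha (ricc_icc (adm_ricc hA)) hL hS hS0

end dich

end Vale.Agent.P092.H381
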