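import Vale.Agent.P092.R3.H381.Sub4
import Vale.Agent.P092.R3.H381.StSub2
import Vale.Agent.P092.R3.H367.Unif

/-!
Admissible subgroups and the uniform constant along a subgroup.
-/

set_option linter.all false

namespace Vale.Agent.P092.H381

open Vale.Agent.P092.H160 hiding A3
open Vale.Agent.P092.H367 Vale.Agent.P092.H423 Vale.Agent.P092.H885 Sg

section adm

variable {Γ : Type} [Group Γ] {H : Subgroup Γ}

theorem adm_of_all (hH : ∀ S : Finset Γ, ∀ x : Γ, x ≠ 1 →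
      {y : Γ | ∃ k : Γ, (∀ g ∈ S, g⁻¹ * k * g ∈ H) ∧ y = k * x * k⁻¹}.Infinite) (t : ℝ) :
    Adm H t := by
  classical
  right
  intro F _ x hx
  refine (hH (insert 1 F) x hx).mono ?_
  rintro y ⟨k, hk, rfl⟩
  refine ⟨k, mem_inter.mpr ⟨?_, fun g hg => hk g (Finset.mem_insert_of_mem hg)⟩, rfl⟩
  have h1 := hk 1 (Finset.mem_insert_self _ _)
  rwa [inv_one, one_mul, mul_one] at h1

theorem adm_top (hG : Mt.ICC Γ) (t : ℝ) : Adm (⊤ : Subgroup Γ) t := by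
  right
  intro F _ x hx
  refine (hG x hx).mono ?_
  rintro y ⟨k, rfl⟩
  exact ⟨k, mem_inter.mpr ⟨Subgroup.mem_top _, fun g _ => Subgroup.mem_top _⟩, rfl⟩

theorem adm_normal (hn : H.Normal) (hR : RICC H) (t : ℝ) : Adm H t := by
  right
  intro F _ x hx
  refine (hR x hx).mono ?_
  rintro y ⟨k, hk, rfl⟩
  refine ⟨k, mem_inter.mpr ⟨hk, fun g _ => ?_⟩, rfl⟩
  have h := hn.conj_mem k hk g⁻¹
  rwa [inv_inv] at h

theorem conj_mono {g : Γ} {H L : Subgroup Γ} (h : H ≤ L) : conj g H ≤ conj g L := by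
  intro x hx
  rw [mem_conj] at hx ⊢
  exact h hx

theorem spread_of_gen (hR : RICC H)
    (hgen : Subgroup.closure {g : Γ | RICC (H ⊓ conj g H)} = ⊤) : Spread H := by
  refine ⟨hR, fun L hL h => ?_⟩
  rw [eq_top_iff, ← hgen, Subgroup.closure_le]
  intro g hg
  exact h g (ricc_mono hg (inf_le_inf hL (conj_mono hL)))

theorem rel_top {G : Type} [Group G] {Q : Finset G} {ε : ℝ} (h : IsKazhdanPair G Q ε) :
    IsRelKazhdanPair G ⊤ Q ε := by
  refine ⟨h.1, ?_⟩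
  intro E _ _ _ π hπ v
  exact h.2 E π (fun w hw => hπ w fun a _ => hw a) v

theorem range_subtype' : H.subtype.range = H := by
  ext x
  constructor
  · rintro ⟨y, rfl⟩
    exact y.2
  · intro hx
    exact ⟨⟨x, hx⟩, rfl⟩

/-- One constant for all `Λ`, `n`, `p`, `θ`. -/
theorem sub_uniform {G : Type} [Group G] (φ : G →* Γ)
    (hK : ∃ (Q : Finset G) (ε : ℝ), IsKazhdanPair G Q ε) {Q : Finset G}
    (hQ : Q.Nonempty) (hgen : Subgroup.closure (Q : Set G) = ⊤) :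
    ∃ δ : ℝ, 0 < δ ∧ δ < 1 ∧ USGap φ Q δ := by
  obtain ⟨ε₀, hε₀⟩ := kazhdan_gen hK hQ hgen
  obtain ⟨ε, hε⟩ : ∃ ε : ℝ, ε = min ε₀ 1 := ⟨_, rfl⟩
  have hε0 : 0 < ε := by rw [hε]; exact lt_min hε₀.1 one_pos
  have hε1 : ε ≤ 1 := by rw [hε]; exact min_le_right _ _
  have hKQ : IsKazhdanPair G Q ε :=
    kazhdan_mono hε₀ hε0 (by rw [hε]; exact min_le_left _ _)
  have hc : (1 : ℝ) ≤ Q.card := by exact_mod_cast hQ.card_pos
  have hε2 : ε ^ 2 ≤ 1 := pow_le_one₀ hε0.le hε1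
  refine ⟨ε ^ 2 / (4 * Q.card), by positivity, ?_, ?_⟩
  · rw [div_lt_one (by positivity)]; nlinarith
  · intro Λ _ hL n p hp hA θ
    have hA' : Adm ((⊤ : Subgroup G).map φ) (Mt.trM p).re := by
      rw [← MonoidHom.range_eq_map]
      exact hA
    rcases sub_all hL hp θ with h | h
    · exact Or.inl ⟨h.1, h.2.1⟩
    · right
      obtain ⟨⟨h, -⟩, -⟩ := h G φ ⊤ hA'
      obtain ⟨⟨s, hs, h5⟩, h6⟩ := h Q ε (rel_top hKQ)
      refine ⟨⟨s, hs, h5.trans ?_⟩, h6⟩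
      refine mul_le_mul_of_nonneg_left ?_ (four_nonneg p)
      have h7 : ε ^ 2 / (4 * Q.card) ≤ ε ^ 2 / 2 := by
        gcongr
        linarith
      linarith

end adm

end Vale.Agent.P092.H381
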